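import Vale.Agent.P103.Spec

/-! Module A of P103: assembly on the manifold. -/

namespace Vale.Agent.P103

open CategoryTheory AlgebraicTopology Filter Topology Metric
open scoped Manifold ContDiff

namespace AA

theorem homMap_comp (k : ℕ) {X Y Z : Type} [TopologicalSpace X] [TopologicalSpace Y]
    [TopologicalSpace Z] (f : C(X, Y)) (g : C(Y, Z)) (c : Hom k X) :
    HomMap k (g.comp f) c = HomMap k g (HomMap k f c) := by
  have h : TopCat.ofHom (g.comp f) = TopCat.ofHom f ≫ TopCat.ofHom g := rfl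
  simp only [HomMap, h, Functor.map_comp, ModuleCat.hom_comp, LinearMap.comp_apply]

theorem homMap_id (k : ℕ) {X : Type} [TopologicalSpace X] (c : Hom k X) :
    HomMap k (ContinuousMap.id X) c = c := by
  have h : TopCat.ofHom (ContinuousMap.id X) = 𝟙 (TopCat.of X) := rfl
  simp only [HomMap, h, CategoryTheory.Functor.map_id, ModuleCat.hom_id, LinearMap.id_apply]

theorem homMap_homotopy (k : ℕ) {X Y : Type} [TopologicalSpace X] [TopologicalSpace Y]
    (f g : C(X, Y)) (H : ContinuousMap.Homotopy f g) : HomMap k f = HomMap k g := by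
  have h := TopCat.Homotopy.congr_homologyMap_singularChainComplexFunctor
    (C := ModuleCat.{0} ℝ) (f := TopCat.ofHom f) (g := TopCat.ofHom g) H (ModuleCat.of ℝ ℝ) k
  exact congrArg ModuleCat.Hom.hom h

section nz

variable {E : Type} [NormedAddCommGroup E] [InnerProductSpace ℝ E]

theorem nr_mem {x : E} (h : x ≠ 0) : ‖x‖⁻¹ • x ∈ sphere (0 : E) 1 := by
  have : ‖x‖ ≠ 0 := norm_ne_zero_iff.2 h
  rw [mem_sphere_zero_iff_norm, norm_smul, norm_inv, norm_norm, inv_mul_cancel₀ this]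

open Classical in
/-- radial projection to the sphere -/
noncomputable def nz (e : sphere (0 : E) 1) (x : E) : sphere (0 : E) 1 :=
  if h : x = 0 then e else ⟨‖x‖⁻¹ • x, nr_mem h⟩

theorem nz_coe (e : sphere (0 : E) 1) {x : E} (h : x ≠ 0) : (nz e x : E) = ‖x‖⁻¹ • x := by
  simp only [nz, dif_neg h]

theorem nr_contDiffAt {x : E} (h : x ≠ 0) : ContDiffAt ℝ 1 (fun y : E => ‖y‖⁻¹ • y) x :=
  ((contDiffAt_norm ℝ h).inv (norm_ne_zero_iff.2 h)).smul contDiffAt_id

theorem nz_continuousAt (e : sphere (0 : E) 1) {x : E} (h : x ≠ 0) : ContinuousAt (nz e) x := by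
  rw [Topology.IsInducing.subtypeVal.continuousAt_iff]
  refine (nr_contDiffAt h).continuousAt.congr ?_
  filter_upwards [isOpen_ne.mem_nhds h] with y hy
  exact (nz_coe e hy).symm

theorem nz_contMDiff {n : ℕ} [Fact (Module.finrank ℝ E = n + 1)]
    {F H M : Type} [NormedAddCommGroup F] [NormedSpace ℝ F] [TopologicalSpace H]
    {I : ModelWithCorners ℝ F H} [TopologicalSpace M] [ChartedSpace H M] [IsManifold I 1 M]
    (e : sphere (0 : E) 1) {g : M → E} (hg : ContMDiff I 𝓘(ℝ, E) 1 g) (h0 : ∀ m, g m ≠ 0) :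
    ContMDiff I (𝓡 n) 1 (fun m => nz e (g m)) := by
  have h1 : ContMDiff I 𝓘(ℝ, E) 1 (fun m => ‖g m‖⁻¹ • g m) := fun m =>
    (nr_contDiffAt (h0 m)).comp_contMDiffAt (hg m)
  have h2 := h1.codRestrict_sphere (n := n) (fun m => nr_mem (h0 m))
  have h3 : (fun m => nz e (g m)) =
      Set.codRestrict (fun m => ‖g m‖⁻¹ • g m) _ (fun m => nr_mem (h0 m)) := by
    funext m
    exact Subtype.ext (nz_coe e (h0 m))
  rw [h3]
  exact h2

end nz

/-- smooth clamp from below -/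
noncomputable def cl (lo hi t : ℝ) : ℝ :=
  lo + (t - lo) * Real.smoothTransition ((t - lo) / (hi - lo))

theorem cl_contDiff (lo hi : ℝ) : ContDiff ℝ 1 (cl lo hi) := by
  unfold cl
  exact contDiff_const.add ((contDiff_id.sub contDiff_const).mul
    (Real.smoothTransition.contDiff.comp ((contDiff_id.sub contDiff_const).div_const _)))

theorem le_cl {lo hi : ℝ} (h : lo < hi) (t : ℝ) : lo ≤ cl lo hi t := by
  unfold cl
  rcases le_total t lo with ht | ht
  · rw [Real.smoothTransition.zero_of_nonpos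
      (div_nonpos_of_nonpos_of_nonneg (by linarith) (by linarith))]
    simp
  · have := mul_nonneg (sub_nonneg.2 ht) (Real.smoothTransition.nonneg ((t - lo) / (hi - lo)))
    linarith

theorem cl_eq {lo hi t : ℝ} (h : lo < hi) (ht : hi ≤ t) : cl lo hi t = t := by
  unfold cl
  rw [Real.smoothTransition.one_of_one_le ((one_le_div (by linarith)).2 (by linarith))]
  ring

abbrev E3 : Type := EuclideanSpace ℝ (Fin 3)
abbrev E2 : Type := EuclideanSpace ℝ (Fin 2)
abbrev E6 : Type := EuclideanSpace ℝ (Fin 6)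

/-- position part -/
noncomputable def pp (x : St) : E3 := !₂[x.1 - 5, x.2.1.re, x.2.1.im]
/-- phase part -/
noncomputable def vv (x : St) : E2 := !₂[x.2.2.1.1, x.2.2.1.2]
/-- the rest -/
noncomputable def ww (x : St) : E6 :=
  !₂[‖pp x‖, x.2.2.2.1.re, x.2.2.2.1.im, x.2.2.2.2.re, x.2.2.2.2.im, 1]

theorem pp_sq (x : St) : ‖pp x‖ ^ 2 = (x.1 - 5) ^ 2 + ‖x.2.1‖ ^ 2 := by
  rw [EuclideanSpace.norm_sq_eq, Complex.sq_norm, Complex.normSq_apply]
  simp [pp, Fin.sum_univ_three]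
  ring

theorem vv_sq (x : St) : ‖vv x‖ ^ 2 = x.2.2.1.1 ^ 2 + x.2.2.1.2 ^ 2 := by
  rw [EuclideanSpace.norm_sq_eq]
  simp [vv, Fin.sum_univ_two]

theorem ww_sq (x : St) : ‖ww x‖ ^ 2 = ‖pp x‖ ^ 2 + ‖x.2.2.2.1‖ ^ 2 + ‖x.2.2.2.2‖ ^ 2 + 1 := by
  rw [EuclideanSpace.norm_sq_eq, Complex.sq_norm, Complex.normSq_apply, Complex.sq_norm,
    Complex.normSq_apply]
  simp [ww, Fin.sum_univ_succ]
  ring

theorem ww_ne (x : St) : ww x ≠ 0 := by
  intro h
  have := ww_sq x
  rw [h, norm_zero] at this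
  nlinarith [sq_nonneg ‖pp x‖, sq_nonneg ‖x.2.2.2.1‖, sq_nonneg ‖x.2.2.2.2‖]

theorem pp_ne {x : St} (h : 0 < (x.1 - 5) ^ 2 + ‖x.2.1‖ ^ 2) : pp x ≠ 0 := by
  intro h0
  rw [← pp_sq, h0, norm_zero] at h
  norm_num at h

theorem vv_ne {x : St} (h : x.2.2.1.1 ^ 2 + x.2.2.1.2 ^ 2 = 1) : vv x ≠ 0 := by
  intro h0
  rw [← vv_sq, h0, norm_zero] at h
  norm_num at h

theorem re_cd : ContDiff ℝ 1 Complex.re := Complex.reCLM.contDiff
theorem im_cd : ContDiff ℝ 1 Complex.im := Complex.imCLM.contDiff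
theorem ofReal_cd : ContDiff ℝ 1 Complex.ofReal := Complex.ofRealCLM.contDiff

theorem pp_cd : ContDiff ℝ 1 pp := by
  rw [contDiff_euclidean]
  intro i
  fin_cases i
  · exact contDiff_fst.sub contDiff_const
  · exact re_cd.comp (contDiff_fst.comp contDiff_snd)
  · exact im_cd.comp (contDiff_fst.comp contDiff_snd)

theorem vv_cd : ContDiff ℝ 1 vv := by
  rw [contDiff_euclidean]
  intro i
  fin_cases i
  · exact contDiff_snd.snd.fst.fst
  · exact contDiff_snd.snd.fst.snd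

theorem ww_cd {x : St} (h : pp x ≠ 0) : ContDiffAt ℝ 1 ww x := by
  rw [contDiffAt_euclidean]
  intro i
  fin_cases i
  · exact (contDiffAt_norm ℝ h).comp x pp_cd.contDiffAt
  · exact (re_cd.comp contDiff_snd.snd.snd.fst).contDiffAt
  · exact (im_cd.comp contDiff_snd.snd.snd.fst).contDiffAt
  · exact (re_cd.comp contDiff_snd.snd.snd.snd).contDiffAt
  · exact (im_cd.comp contDiff_snd.snd.snd.snd).contDiffAt
  · exact contDiffAt_const

/-- base points -/
noncomputable def bp (n : ℕ) : sphere (0 : EuclideanSpace ℝ (Fin (n + 1))) 1 :=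
  ⟨EuclideanSpace.single 0 1, by simp⟩

/-- from the ambient space to the manifold -/
noncomputable def jj (x : St) : Mfd := (nz (bp 2) (pp x), nz (bp 1) (vv x), nz (bp 5) (ww x))

theorem jj_continuousAt {x : St} (h : pp x ≠ 0) (h' : vv x ≠ 0) : ContinuousAt jj x :=
  ((nz_continuousAt _ h).comp pp_cd.continuous.continuousAt).prodMk
    (((nz_continuousAt _ h').comp vv_cd.continuous.continuousAt).prodMk
      ((nz_continuousAt _ (ww_ne x)).comp (ww_cd h).continuousAt))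

/-- scale factor -/
noncomputable def lam (B : ℝ) (W : E6) : ℝ := (cl (B⁻¹ / 2) B⁻¹ (W 5))⁻¹
/-- radius -/
noncomputable def rho (B : ℝ) (W : E6) : ℝ := cl (1 / 2) (3 / 4) (lam B W * W 0)

/-- from coordinates to the ambient space -/
noncomputable def KK (B : ℝ) (y : E3 × E2 × E6) : St :=
  (5 + rho B y.2.2 * y.1 0, ((rho B y.2.2 * y.1 1 : ℝ) : ℂ) + ((rho B y.2.2 * y.1 2 : ℝ) : ℂ) * Complex.I,
    (y.2.1 0, y.2.1 1),
    ((lam B y.2.2 * y.2.2 1 : ℝ) : ℂ) + ((lam B y.2.2 * y.2.2 2 : ℝ) : ℂ) * Complex.I,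
    ((lam B y.2.2 * y.2.2 3 : ℝ) : ℂ) + ((lam B y.2.2 * y.2.2 4 : ℝ) : ℂ) * Complex.I)

theorem co_cd {n : ℕ} (i : Fin n) : ContDiff ℝ 1 (fun W : EuclideanSpace ℝ (Fin n) => W i) :=
  (EuclideanSpace.proj i : EuclideanSpace ℝ (Fin n) →L[ℝ] ℝ).contDiff

theorem lam_cd {B : ℝ} (hB : 0 < B) : ContDiff ℝ 1 (lam B) := by
  have h0 : 0 < B⁻¹ := inv_pos.2 hB
  refine ((cl_contDiff _ _).comp (co_cd 5)).inv (fun W => ne_of_gt ?_)
  exact lt_of_lt_of_le (by linarith) (le_cl (by linarith) _)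

theorem rho_cd {B : ℝ} (hB : 0 < B) : ContDiff ℝ 1 (rho B) :=
  (cl_contDiff _ _).comp ((lam_cd hB).mul (co_cd 0))

theorem KK_cd {B : ℝ} (hB : 0 < B) : ContDiff ℝ 1 (KK B) := by
  have hr : ContDiff ℝ 1 (fun y : E3 × E2 × E6 => rho B y.2.2) :=
    (rho_cd hB).comp contDiff_snd.snd
  have hl : ContDiff ℝ 1 (fun y : E3 × E2 × E6 => lam B y.2.2) :=
    (lam_cd hB).comp contDiff_snd.snd
  have h1 : ∀ i, ContDiff ℝ 1 (fun y : E3 × E2 × E6 => y.1 i) := fun i =>
    (co_cd i).comp contDiff_fst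
  have h2 : ∀ i, ContDiff ℝ 1 (fun y : E3 × E2 × E6 => y.2.1 i) := fun i =>
    (co_cd i).comp contDiff_snd.fst
  have h3 : ∀ i, ContDiff ℝ 1 (fun y : E3 × E2 × E6 => y.2.2 i) := fun i =>
    (co_cd i).comp contDiff_snd.snd
  have hc : ∀ {a b : E3 × E2 × E6 → ℝ}, ContDiff ℝ 1 a → ContDiff ℝ 1 b →
      ContDiff ℝ 1 (fun y => ((a y : ℝ) : ℂ) + ((b y : ℝ) : ℂ) * Complex.I) := fun ha hb =>
    (ofReal_cd.comp ha).add ((ofReal_cd.comp hb).mul contDiff_const)
  exact (contDiff_const.add (hr.mul (h1 0))).prodMk ((hc (hr.mul (h1 1)) (hr.mul (h1 2))).prodMk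
    (((h2 0).prodMk (h2 1)).prodMk ((hc (hl.mul (h3 1)) (hl.mul (h3 2))).prodMk
      (hc (hl.mul (h3 3)) (hl.mul (h3 4))))))

/-- from the manifold to the ambient space -/
noncomputable def kk (B : ℝ) (m : Mfd) : St := KK B (m.1.1, m.2.1.1, m.2.2.1)

theorem kk_sh (B : ℝ) (m : Mfd) : Sh (kk B m) := by
  have h1 := EuclideanSpace.norm_sq_eq (m.1.1)
  have h2 := EuclideanSpace.norm_sq_eq (m.2.1.1)
  rw [norm_eq_of_mem_sphere] at h1 h2
  simp only [Fin.sum_univ_three, Fin.sum_univ_two, Real.norm_eq_abs, sq_abs] at h1 h2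
  have h3 : 1 / 2 ≤ rho B m.2.2.1 := le_cl (by norm_num) _
  constructor
  · simp only [kk, KK, Complex.sq_norm, Complex.normSq_add_mul_I]
    have : (5 + rho B m.2.2.1 * m.1.1 0 - 5) ^ 2 +
        ((rho B m.2.2.1 * m.1.1 1) ^ 2 + (rho B m.2.2.1 * m.1.1 2) ^ 2) = rho B m.2.2.1 ^ 2 := by
      linear_combination (-(rho B m.2.2.1) ^ 2) * h1
    rw [this]
    nlinarith
  · simp only [kk, KK]
    linarith

theorem kk_contMDiff {B : ℝ} (hB : 0 < B) :
    ContMDiff ((𝓡 2).prod ((𝓡 1).prod (𝓡 5))) 𝓘(ℝ, St) 1 (kk B) := by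
  have : Fact (Module.finrank ℝ E3 = 2 + 1) := ⟨finrank_euclideanSpace_fin⟩
  have : Fact (Module.finrank ℝ E2 = 1 + 1) := ⟨finrank_euclideanSpace_fin⟩
  have : Fact (Module.finrank ℝ E6 = 5 + 1) := ⟨finrank_euclideanSpace_fin⟩
  refine (KK_cd hB).comp_contMDiff (f := fun m : Mfd => (m.1.1, m.2.1.1, m.2.2.1)) ?_
  exact (contMDiff_coe_sphere.comp contMDiff_fst).prodMk_space
    ((contMDiff_coe_sphere.comp (contMDiff_fst.comp contMDiff_snd)).prodMk_space
      (contMDiff_coe_sphere.comp (contMDiff_snd.comp contMDiff_snd)))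

theorem kk_jj {R : ℝ} {x : St} (h1 : 9 / 16 ≤ (x.1 - 5) ^ 2 + ‖x.2.1‖ ^ 2)
    (h2 : x.2.2.1.1 ^ 2 + x.2.2.1.2 ^ 2 = 1) (h3 : ‖x‖ ≤ R) :
    kk (2 * R + 6) (jj x) = x := by
  have hR : 0 ≤ R := (norm_nonneg _).trans h3
  have hp : pp x ≠ 0 := pp_ne (by linarith)
  have hp0 : 0 < ‖pp x‖ := norm_pos_iff.2 hp
  have hp1 : 3 / 4 ≤ ‖pp x‖ := by
    rw [← pp_sq] at h1
    nlinarith
  have hv : vv x ≠ 0 := vv_ne h2
  have hv1 : ‖vv x‖ = 1 := by
    rw [← vv_sq] at h2
    nlinarith [norm_nonneg (vv x)]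
  have hw0 : 0 < ‖ww x‖ := norm_pos_iff.2 (ww_ne x)
  have b1 : |x.1| ≤ R := (norm_fst_le x).trans h3
  have b2 : ‖x.2.1‖ ≤ R := ((norm_fst_le _).trans (norm_snd_le x)).trans h3
  have b3 : ‖x.2.2.2.1‖ ≤ R :=
    ((norm_fst_le _).trans ((norm_snd_le _).trans ((norm_snd_le _).trans (norm_snd_le x)))).trans h3
  have b4 : ‖x.2.2.2.2‖ ≤ R :=
    ((norm_snd_le _).trans ((norm_snd_le _).trans ((norm_snd_le _).trans (norm_snd_le x)))).trans h3
  have hw : ‖ww x‖ ≤ 2 * R + 6 := by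
    have e := ww_sq x
    rw [pp_sq] at e
    have c1 : (x.1 - 5) ^ 2 ≤ (R + 5) ^ 2 := by
      have := abs_le.1 b1
      nlinarith
    have c2 := pow_le_pow_left₀ (norm_nonneg _) b2 2
    have c3 := pow_le_pow_left₀ (norm_nonneg _) b3 2
    have c4 := pow_le_pow_left₀ (norm_nonneg _) b4 2
    nlinarith
  have hB : 0 < 2 * R + 6 := by linarith
  have hl : lam (2 * R + 6) (‖ww x‖⁻¹ • ww x) = ‖ww x‖ := by
    have h0 : 0 < (2 * R + 6)⁻¹ := inv_pos.2 hB
    have e : (‖ww x‖⁻¹ • ww x) 5 = ‖ww x‖⁻¹ := by simp [ww]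
    rw [lam, e, cl_eq (by linarith) (inv_anti₀ hw0 hw), inv_inv]
  have hr : rho (2 * R + 6) (‖ww x‖⁻¹ • ww x) = ‖pp x‖ := by
    have e : (‖ww x‖⁻¹ • ww x) 0 = ‖ww x‖⁻¹ * ‖pp x‖ := by
      rw [PiLp.smul_apply, smul_eq_mul]
      rfl
    rw [rho, hl, e, ← mul_assoc, mul_inv_cancel₀ hw0.ne', one_mul, cl_eq (by norm_num) hp1]
  simp only [kk, jj, nz_coe _ hp, nz_coe _ hv, nz_coe _ (ww_ne x), KK, hl, hr, hv1, PiLp.smul_apply,
    smul_eq_mul, ← mul_assoc, mul_inv_cancel₀ hw0.ne', mul_inv_cancel₀ hp0.ne', one_mul, inv_one]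
  refine Prod.ext ?_ (Prod.ext ?_ (Prod.ext (Prod.ext rfl rfl) (Prod.ext ?_ ?_)))
  · show 5 + (x.1 - 5) = x.1
    ring
  · exact Complex.re_add_im _
  · exact Complex.re_add_im _
  · exact Complex.re_add_im _

theorem jj_contMDiff {g : Mfd → St}
    (hg : ContMDiff ((𝓡 2).prod ((𝓡 1).prod (𝓡 5))) 𝓘(ℝ, St) 1 g)
    (h1 : ∀ m, pp (g m) ≠ 0) (h2 : ∀ m, vv (g m) ≠ 0) :
    ContMDiff ((𝓡 2).prod ((𝓡 1).prod (𝓡 5))) ((𝓡 2).prod ((𝓡 1).prod (𝓡 5))) 1
      (fun m => jj (g m)) := by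
  have : Fact (Module.finrank ℝ E3 = 2 + 1) := ⟨finrank_euclideanSpace_fin⟩
  have : Fact (Module.finrank ℝ E2 = 1 + 1) := ⟨finrank_euclideanSpace_fin⟩
  have : Fact (Module.finrank ℝ E6 = 5 + 1) := ⟨finrank_euclideanSpace_fin⟩
  exact (nz_contMDiff (n := 2) (bp 2) (pp_cd.comp_contMDiff hg) h1).prodMk
    ((nz_contMDiff (n := 1) (bp 1) (vv_cd.comp_contMDiff hg) h2).prodMk
      (nz_contMDiff (n := 5) (bp 5) (g := fun m => ww (g m))
        (fun m => (ww_cd (h1 m)).comp_contMDiffAt (hg m)) (fun m => ww_ne _)))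

/-- the sphere inside the ambient space -/
def ee (p : Sph) : St := (5 + p.1.1, p.1.2, (1, 0), 0, 0)

theorem ee_cont : Continuous ee := by
  unfold ee
  fun_prop

theorem ee_p (p : Sph) : ((ee p).1 - 5) ^ 2 + ‖(ee p).2.1‖ ^ 2 = 1 := by
  have := p.2
  simp only [ee]
  linear_combination this

theorem ee_v (p : Sph) : (ee p).2.2.1.1 ^ 2 + (ee p).2.2.1.2 ^ 2 = 1 := by
  simp [ee]

theorem ee_norm (p : Sph) : ‖ee p‖ ≤ 6 := by
  have h := p.2
  have h1 : |p.1.1| ≤ 1 := by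
    rw [← sq_le_one_iff_abs_le_one]
    nlinarith [sq_nonneg ‖p.1.2‖]
  have h2 : ‖p.1.2‖ ≤ 1 := by nlinarith [sq_nonneg p.1.1, norm_nonneg p.1.2]
  have h3 := abs_le.1 h1
  simp only [ee, Prod.norm_def, max_le_iff, norm_zero, Real.norm_eq_abs, abs_one]
  refine ⟨abs_le.2 ⟨by linarith, by linarith⟩, by linarith, ⟨by norm_num, by norm_num⟩,
    by norm_num, by norm_num⟩

/-- the embedding of the sphere -/
noncomputable def ii : C(Sph, Mfd) :=
  ⟨fun p => jj (ee p), continuous_iff_continuousAt.2 fun p =>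
    (jj_continuousAt (pp_ne (by rw [ee_p]; norm_num)) (vv_ne (ee_v p))).comp
      ee_cont.continuousAt⟩

/-- the retraction to the sphere -/
noncomputable def rr : C(Mfd, Sph) :=
  ⟨fun m => ⟨(m.1.1 0, ((m.1.1 1 : ℝ) : ℂ) + ((m.1.1 2 : ℝ) : ℂ) * Complex.I), by
      have h1 := EuclideanSpace.norm_sq_eq (m.1.1)
      rw [norm_eq_of_mem_sphere] at h1
      simp only [Fin.sum_univ_three, Real.norm_eq_abs, sq_abs] at h1
      simp only [Complex.sq_norm, Complex.normSq_add_mul_I]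
      linarith⟩, by
    refine Continuous.subtype_mk ?_ _
    have h : ∀ i, Continuous (fun m : Mfd => m.1.1 i) := fun i =>
      (co_cd i).continuous.comp (continuous_subtype_val.comp continuous_fst)
    exact (h 0).prodMk ((Complex.continuous_ofReal.comp (h 1)).add
      ((Complex.continuous_ofReal.comp (h 2)).mul continuous_const))⟩

theorem rr_ii : rr.comp ii = ContinuousMap.id Sph := by
  ext1 p
  have hp : pp (ee p) ≠ 0 := pp_ne (by rw [ee_p]; norm_num)
  have h1 : ‖pp (ee p)‖ = 1 := by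
    have := ee_p p
    rw [← pp_sq] at this
    nlinarith [norm_nonneg (pp (ee p))]
  apply Subtype.ext
  show ((nz (bp 2) (pp (ee p))).1 0, (((nz (bp 2) (pp (ee p))).1 1 : ℝ) : ℂ) +
    (((nz (bp 2) (pp (ee p))).1 2 : ℝ) : ℂ) * Complex.I) = p.1
  rw [nz_coe _ hp, h1, inv_one, one_smul]
  refine Prod.ext ?_ (Complex.re_add_im _)
  show 5 + p.1.1 - 5 = p.1.1
  ring

theorem sh_ne {x : St} (h : Sh x) : x.2.2.1 ≠ 0 := by
  intro h0
  have := h.2
  rw [h0] at this
  norm_num at this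

end AA

open AA in
theorem aStmt : AStmt := by
  rintro ⟨Q, hQ, c, hc0, hc⟩ hE ⟨F, R, hF, hS, hT, hP⟩
  set R' := max R 6 with hR'
  have hB : 0 < 2 * R' + 6 := by
    have : (6 : ℝ) ≤ R' := le_max_right _ _
    linarith
  have hSh : ∀ x, Sh x → Sh (F x) := fun x hx =>
    ⟨le_trans (by norm_num) (hS x hx).1, (hS x hx).2.1⟩
  have hShn : ∀ n x, Sh x → Sh (F^[n] x) := by
    intro n x hx
    induction n with
    | zero => exact hx
    | succ n ih => rw [Function.iterate_succ_apply']; exact hSh _ ih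
  have hkj : ∀ x, Sh x → kk (2 * R' + 6) (jj (F x)) = F x := fun x hx =>
    kk_jj (hS x hx).1 (hS x hx).2.1 ((hS x hx).2.2.trans (le_max_left _ _))
  have hsm : ContMDiff ((𝓡 2).prod ((𝓡 1).prod (𝓡 5))) ((𝓡 2).prod ((𝓡 1).prod (𝓡 5))) 1
      (fun m : Mfd => jj (F (kk (2 * R' + 6) m))) :=
    jj_contMDiff (g := fun m => F (kk (2 * R' + 6) m))
      (fun m => (hF _ (sh_ne (kk_sh _ m))).comp_contMDiffAt (kk_contMDiff hB m))
      (fun m => pp_ne (lt_of_lt_of_le (by norm_num) (hSh _ (kk_sh _ m)).1))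
      (fun m => vv_ne (hSh _ (kk_sh _ m)).2)
  let f : C(Mfd, Mfd) := ⟨fun m => jj (F (kk (2 * R' + 6) m)), hsm.continuous⟩
  have hf : ∀ m, f m = jj (F (kk (2 * R' + 6) m)) := fun _ => rfl
  have hit : ∀ n m, f^[n + 1] m = jj (F^[n + 1] (kk (2 * R' + 6) m)) := by
    intro n m
    induction n with
    | zero => rfl
    | succ n ih =>
      rw [Function.iterate_succ_apply', ih, hf, Function.iterate_succ_apply' F (n + 1),
        Function.iterate_succ_apply' F n, hkj _ (hShn n _ (kk_sh _ m))]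
  refine ⟨f, hsm, ?_, ?_⟩
  · have : Nonempty Mfd := ⟨(bp 2, bp 1, bp 5)⟩
    refine hE Mfd f f.continuous fun m => ?_
    obtain ⟨y, hy⟩ := hT _ (kk_sh (2 * R' + 6) m)
    have c1 : Continuous fun x : St => (x.1 - 5) ^ 2 + ‖x.2.1‖ ^ 2 := by fun_prop
    have c2 : Continuous fun x : St => x.2.2.1.1 ^ 2 + x.2.2.1.2 ^ 2 := by fun_prop
    have y1 : 1 / 4 ≤ (y.1 - 5) ^ 2 + ‖y.2.1‖ ^ 2 :=
      ge_of_tendsto' ((c1.tendsto y).comp hy) fun n => (hShn n _ (kk_sh _ m)).1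
    have y2 : y.2.2.1.1 ^ 2 + y.2.2.1.2 ^ 2 = 1 :=
      tendsto_nhds_unique ((c2.tendsto y).comp hy)
        (tendsto_const_nhds.congr fun n => (hShn n _ (kk_sh _ m)).2.symm)
    have t0 : Tendsto (fun n => jj (F^[n] (kk (2 * R' + 6) m))) atTop (𝓝 (jj y)) :=
      (jj_continuousAt (pp_ne (lt_of_lt_of_le (by norm_num) y1)) (vv_ne y2)).tendsto.comp hy
    have t1 : Tendsto (fun n => f^[n + 1] m) atTop (𝓝 (jj y)) :=
      ((tendsto_add_atTop_iff_nat 1).2 t0).congr fun n => (hit n m).symm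
    have t2 : Tendsto (fun n => f^[n] m) atTop (𝓝 (jj y)) := (tendsto_add_atTop_iff_nat 1).1 t1
    have t3 := t1.dist t2
    rwa [dist_self] at t3
  · have hfi : ∀ p, f (ii p) = jj (F (ee p)) := by
      intro p
      rw [hf]
      show jj (F (kk (2 * R' + 6) (jj (ee p)))) = _
      rw [kk_jj (by rw [ee_p]; norm_num) (ee_v p) ((ee_norm p).trans (le_max_right _ _))]
    let G : unitInterval × Sph → St := fun q =>
      (1 - (q.1 : ℝ)) • F (ee q.2) + (q.1 : ℝ) • ee (Q q.2)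
    have hFe : Continuous fun p => F (ee p) := continuous_iff_continuousAt.2 fun p =>
      (hF (ee p) (by simp [ee])).continuousAt.comp ee_cont.continuousAt
    have hG : Continuous G :=
      ((continuous_const.sub (continuous_subtype_val.comp continuous_fst)).smul
        (hFe.comp continuous_snd)).add ((continuous_subtype_val.comp continuous_fst).smul
          (ee_cont.comp (Q.continuous.comp continuous_snd)))
    have hGne : ∀ q, pp (G q) ≠ 0 ∧ vv (G q) ≠ 0 := by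
      rintro ⟨t, p⟩
      obtain ⟨ν, a, ha, he, hz⟩ := hP p
      have he' : F (ee p) = (ν, (a : ℂ) * p.1.2 ^ 2, (1, 0), 0, 0) := he
      have t0 := t.2.1
      have t1 := t.2.2
      have q1 : (Q p).1.1 = p.1.1 := by rw [hQ]
      have q2 : (Q p).1.2 = p.1.2 ^ 2 / (‖p.1.2‖ : ℂ) := by rw [hQ]
      have g1 : (G (t, p)).1 = (1 - (t : ℝ)) * ν + (t : ℝ) * (5 + p.1.1) := by
        show (1 - (t : ℝ)) * (F (ee p)).1 + (t : ℝ) * (5 + (Q p).1.1) = _
        rw [he', q1]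
      have g2 : (G (t, p)).2.1 =
          (((1 - (t : ℝ)) * a + (t : ℝ) / ‖p.1.2‖ : ℝ) : ℂ) * p.1.2 ^ 2 := by
        show (1 - (t : ℝ)) • (F (ee p)).2.1 + (t : ℝ) • (Q p).1.2 = _
        rw [he', q2, Complex.real_smul, Complex.real_smul]
        push_cast
        ring
      have g3 : (G (t, p)).2.2.1 = (1, 0) := by
        show (1 - (t : ℝ)) • (F (ee p)).2.2.1 + (t : ℝ) • ((1, 0) : ℝ × ℝ) = _
        rw [he', ← add_smul]
        simp
      refine ⟨pp_ne ?_, vv_ne (by rw [g3]; norm_num)⟩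
      by_cases h0 : p.1.2 = 0
      · have h1 := hz h0
        have h2 := p.2
        rw [h0, norm_zero] at h2
        have h3 : 0 < ((G (t, p)).1 - 5) * p.1.1 := by
          rw [g1]
          have e : ((1 - (t : ℝ)) * ν + (t : ℝ) * (5 + p.1.1) - 5) * p.1.1 =
              (1 - (t : ℝ)) * ((ν - 5) * p.1.1) + (t : ℝ) := by
            linear_combination (t : ℝ) * h2
          rw [e]
          rcases eq_or_lt_of_le t1 with h | h
          · rw [h]; norm_num
          · have := mul_pos (sub_pos.2 h) h1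
            linarith
        have h4 : (G (t, p)).1 - 5 ≠ 0 := by
          intro h
          rw [h, zero_mul] at h3
          exact lt_irrefl _ h3
        have := pow_pos (abs_pos.2 h4) 2
        rw [sq_abs] at this
        nlinarith [sq_nonneg ‖(G (t, p)).2.1‖]
      · have hn : 0 < ‖p.1.2‖ := norm_pos_iff.2 h0
        have h3 : 0 < (1 - (t : ℝ)) * a + (t : ℝ) / ‖p.1.2‖ := by
          rcases eq_or_lt_of_le t1 with h | h
          · rw [h]
            have := one_div_pos.2 hn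
            linarith
          · have := mul_pos (sub_pos.2 h) ha
            have := div_nonneg t0 hn.le
            linarith
        have h4 : (G (t, p)).2.1 ≠ 0 := by
          rw [g2]
          exact mul_ne_zero (Complex.ofReal_ne_zero.2 h3.ne') (pow_ne_zero _ h0)
        have := pow_pos (norm_pos_iff.2 h4) 2
        nlinarith [sq_nonneg ((G (t, p)).1 - 5)]
    let H : ContinuousMap.Homotopy (f.comp ii) (ii.comp Q) :=
      { toFun := fun q => jj (G q)
        continuous_toFun := continuous_iff_continuousAt.2 fun q =>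
          (jj_continuousAt (hGne q).1 (hGne q).2).comp hG.continuousAt
        map_zero_left := fun p => by
          rw [ContinuousMap.comp_apply, hfi]
          simp [G]
        map_one_left := fun p => by
          show jj (G (1, p)) = jj (ee (Q p))
          simp [G] }
    have hne : HomMap 2 ii c ≠ 0 := by
      intro h
      apply hc0
      rw [← homMap_id 2 c, ← rr_ii, homMap_comp, h, map_zero]
    refine Module.End.hasEigenvalue_of_hasEigenvector (x := HomMap 2 ii c) ⟨?_, hne⟩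
    rw [Module.End.mem_eigenspace_iff]
    show HomMap 2 f (HomMap 2 ii c) = _
    rw [← homMap_comp, homMap_homotopy 2 _ _ H, homMap_comp, hc, map_smul]

end Vale.Agent.P103
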