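import Vale.Agent.P103.Spec

namespace Vale.Agent.P103.DD

open Filter Topology

noncomputable abbrev S : ℝ → ℝ := Real.smoothTransition

noncomputable def bp (a b c d y : ℝ) : ℝ := S ((y - a) / (b - a)) * S ((d - y) / (d - c))

lemma S_nonneg (x : ℝ) : 0 ≤ S x := Real.smoothTransition.nonneg x
lemma S_le (x : ℝ) : S x ≤ 1 := Real.smoothTransition.le_one x
lemma S_zero {x : ℝ} (h : x ≤ 0) : S x = 0 := Real.smoothTransition.zero_of_nonpos h
lemma S_one {x : ℝ} (h : 1 ≤ x) : S x = 1 := Real.smoothTransition.one_of_one_le h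

lemma bp_nonneg (a b c d y : ℝ) : 0 ≤ bp a b c d y := mul_nonneg (S_nonneg _) (S_nonneg _)
lemma bp_le (a b c d y : ℝ) : bp a b c d y ≤ 1 :=
  mul_le_one₀ (S_le _) (S_nonneg _) (S_le _)
lemma bp_lo {a b c d y : ℝ} (h : a < b) (hy : y ≤ a) : bp a b c d y = 0 := by
  unfold bp
  rw [S_zero (div_nonpos_of_nonpos_of_nonneg (by linarith) (by linarith)), zero_mul]
lemma bp_hi {a b c d y : ℝ} (h : c < d) (hy : d ≤ y) : bp a b c d y = 0 := by
  unfold bp
  rw [S_zero (x := (d - y) / (d - c))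
    (div_nonpos_of_nonpos_of_nonneg (by linarith) (by linarith)), mul_zero]
lemma bp_one {a b c d y : ℝ} (h : a < b) (h' : c < d) (h1 : b ≤ y) (h2 : y ≤ c) :
    bp a b c d y = 1 := by
  unfold bp
  rw [S_one ((one_le_div (by linarith)).2 (by linarith)),
    S_one ((one_le_div (by linarith)).2 (by linarith)), one_mul]
lemma bp_supp {a b c d y : ℝ} (h : a < b) (h' : c < d) (hy : bp a b c d y ≠ 0) :
    a < y ∧ y < d :=
  ⟨lt_of_not_ge fun e => hy (bp_lo h e), lt_of_not_ge fun e => hy (bp_hi h' e)⟩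

lemma S_cd : ContDiff ℝ 1 S := Real.smoothTransition.contDiff (n := 1)

lemma bp_cd (a b c d : ℝ) : ContDiff ℝ 1 (bp a b c d) := by
  unfold bp
  exact (S_cd.comp (by fun_prop)).mul (S_cd.comp (by fun_prop))

noncomputable def yy (v : ℝ × ℝ) : ℝ := v.1 / v.2

lemma bpy_cd {a b c d : ℝ} (ha : 0 ≤ a) (h : a < b) (h' : c < d) {v : ℝ × ℝ}
    (hv : v ≠ 0) : ContDiffAt ℝ 1 (fun v => bp a b c d (yy v)) v := by
  by_cases h2 : v.2 = 0
  · have h1 : v.1 ≠ 0 := fun e => hv (Prod.ext e h2)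
    have : ∀ᶠ u : ℝ × ℝ in 𝓝 v, d * |u.2| < |u.1| :=
      ContinuousAt.eventually_lt (by fun_prop) (by fun_prop) (by simpa [h2] using h1)
    refine (contDiffAt_const (c := (0 : ℝ))).congr_of_eventuallyEq (this.mono fun u hu => ?_)
    by_contra hc
    obtain ⟨h3, h4⟩ := bp_supp h h' hc
    have h5 : u.2 ≠ 0 := by
      intro e
      simp [yy, e] at h3
      linarith
    have h6 : |u.1| = yy u * |u.2| := by
      rw [← abs_of_pos (ha.trans_lt h3), ← abs_mul, yy, div_mul_cancel₀ _ h5]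
    nlinarith [abs_pos.2 h5]
  · refine (bp_cd a b c d).contDiffAt.comp v ?_
    unfold yy
    exact contDiffAt_fst.div contDiffAt_snd h2

noncomputable def nn (ν : ℝ) : ℝ := 1 / 10 ^ 6 * (S ν * S (4 - ν))

lemma nn_nonneg (ν : ℝ) : 0 ≤ nn ν := by
  unfold nn
  have := S_nonneg ν
  have := S_nonneg (4 - ν)
  positivity

lemma nn_le (ν : ℝ) : nn ν ≤ 1 / 10 ^ 6 := by
  unfold nn
  have := mul_le_one₀ (S_le ν) (S_nonneg (4 - ν)) (S_le _)
  linarith

lemma nn_cd : ContDiff ℝ 1 nn := by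
  unfold nn
  exact contDiff_const.mul (S_cd.mul (S_cd.comp (by fun_prop)))

def mob (n : ℝ) (v : ℝ × ℝ) : ℝ × ℝ := (v.1 + v.2, v.2 - n * v.1)

noncomputable def nrm (v : ℝ × ℝ) : ℝ × ℝ := (√(v.1 ^ 2 + v.2 ^ 2))⁻¹ • v

lemma sq_pos' {v : ℝ × ℝ} (hv : v ≠ 0) : 0 < v.1 ^ 2 + v.2 ^ 2 := by
  by_contra hc
  apply hv
  have h1 : v.1 = 0 := by nlinarith [sq_nonneg v.1, sq_nonneg v.2]
  have h2 : v.2 = 0 := by nlinarith [sq_nonneg v.1, sq_nonneg v.2]
  exact Prod.ext h1 h2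

lemma mob_ne {n : ℝ} (hn : 0 ≤ n) {v : ℝ × ℝ} (hv : v ≠ 0) : mob n v ≠ 0 := by
  intro e
  have h1 : v.1 + v.2 = 0 := congrArg Prod.fst e
  have h2 : v.2 - n * v.1 = 0 := congrArg Prod.snd e
  have h3 : (1 + n) * v.1 = 0 := by linarith
  have h4 : v.1 = 0 := (mul_eq_zero.1 h3).resolve_left (by linarith)
  exact hv (Prod.ext h4 (by simpa [h4] using h1))

lemma nrm_sq {v : ℝ × ℝ} (hv : v ≠ 0) : (nrm v).1 ^ 2 + (nrm v).2 ^ 2 = 1 := by
  have h := sq_pos' hv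
  have h1 := Real.sq_sqrt h.le
  have h2 := Real.sqrt_pos.2 h
  simp only [nrm, Prod.smul_fst, Prod.smul_snd, smul_eq_mul, mul_pow, inv_pow, h1]
  field_simp

lemma nrm_cd {v : ℝ × ℝ} (hv : v ≠ 0) : ContDiffAt ℝ 1 nrm v := by
  have h := sq_pos' hv
  unfold nrm
  have h1 : ContDiffAt ℝ 1 (fun v : ℝ × ℝ => v.1 ^ 2 + v.2 ^ 2) v := by fun_prop
  exact ((h1.sqrt h.ne').inv (Real.sqrt_pos.2 h).ne').smul contDiffAt_id

noncomputable def qq (z : ℂ) : ℂ := (48 / (1 + 48 * ‖z‖ ^ 2) : ℝ) • z ^ 2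

noncomputable def sg (a : ℂ) : ℂ := (√(1 + ‖a‖ ^ 2))⁻¹ • a

lemma qq_cd : ContDiff ℝ 1 qq := by
  unfold qq
  refine ContDiff.smul (contDiff_const.div (contDiff_const.add (contDiff_const.mul
    (contDiff_norm_sq ℝ))) fun z => by positivity) (contDiff_id.pow 2)

lemma sg_cd : ContDiff ℝ 1 sg := by
  unfold sg
  refine ContDiff.smul (ContDiff.inv (ContDiff.sqrt (contDiff_const.add (contDiff_norm_sq ℝ))
    fun z => by positivity) fun z => (Real.sqrt_pos.2 (by positivity)).ne') contDiff_id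

abbrev W : Type := ℝ × (ℝ × ℝ) × ℂ

noncomputable def G0 (x : W) : W := (x.1, nrm (mob (nn x.1) x.2.1), qq x.2.2)

noncomputable def be (x : W) : ℝ :=
  bp (-2) (-1) 3 4 x.1 * bp (1 / 4) (1 / 2) 2 3 (x.2.1.1 ^ 2 + x.2.1.2 ^ 2) * S (2 - ‖x.2.2‖ ^ 2)

lemma be_cd : ContDiff ℝ 1 be := by
  unfold be
  exact (((bp_cd _ _ _ _).comp contDiff_fst).mul ((bp_cd _ _ _ _).comp (by fun_prop))).mul
    (S_cd.comp (contDiff_const.sub (ContDiff.norm_sq ℝ (by fun_prop))))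

lemma cut_lip {E : Type} [NormedAddCommGroup E] [NormedSpace ℝ E] {g : W → E}
    (hg : ∀ x : W, x.2.1 ≠ 0 → ContDiffAt ℝ 1 g x) :
    ContDiff ℝ 1 (fun x => be x • g x) ∧
      ∃ C : NNReal, LipschitzWith C (fun x => be x • g x) ∧ ∀ x, ‖be x • g x‖ ≤ C := by
  have h1 : ContDiff ℝ 1 (fun x => be x • g x) := by
    rw [contDiff_iff_contDiffAt]
    intro x
    by_cases hx : x.2.1 = 0
    · have : ∀ᶠ u : W in 𝓝 x, u.2.1.1 ^ 2 + u.2.1.2 ^ 2 < 1 / 4 :=
        ContinuousAt.eventually_lt (by fun_prop) (by fun_prop) (by simp [hx])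
      refine (contDiffAt_const (c := (0 : E))).congr_of_eventuallyEq (this.mono fun u hu => ?_)
      simp only [be]
      rw [bp_lo (a := 1 / 4) (by norm_num) hu.le]
      simp
    · exact be_cd.contDiffAt.smul (hg x hx)
  have h2 : HasCompactSupport (fun x => be x • g x) := by
    refine HasCompactSupport.intro (isCompact_closedBall (0 : W) 4) fun x hx => ?_
    by_contra hc
    have h0 : be x ≠ 0 := fun e => hc (by rw [e, zero_smul])
    unfold be at h0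
    obtain ⟨a1, a2⟩ := bp_supp (by norm_num) (by norm_num) (left_ne_zero_of_mul
      (left_ne_zero_of_mul h0))
    obtain ⟨-, a4⟩ := bp_supp (by norm_num) (by norm_num) (right_ne_zero_of_mul
      (left_ne_zero_of_mul h0))
    have a5 : 0 < 2 - ‖x.2.2‖ ^ 2 := lt_of_not_ge fun e => right_ne_zero_of_mul h0 (S_zero e)
    apply hx
    rw [mem_closedBall_zero_iff]
    simp only [Prod.norm_def, max_le_iff, Real.norm_eq_abs, abs_le]
    refine ⟨⟨by linarith, by linarith⟩, ⟨⟨?_, ?_⟩, ?_, ?_⟩, ?_⟩ <;>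
      nlinarith [sq_nonneg x.2.1.1, sq_nonneg x.2.1.2, norm_nonneg x.2.2]
  refine ⟨h1, ?_⟩
  obtain ⟨C, hC⟩ := h1.lipschitzWith_of_hasCompactSupport h2 one_ne_zero
  obtain ⟨B, hB⟩ := h1.continuous.bounded_above_of_compact_support h2
  refine ⟨max C B.toNNReal, hC.weaken (le_max_left _ _), fun x => (hB x).trans ?_⟩
  exact (Real.le_coe_toNNReal B).trans (by exact_mod_cast le_max_right _ _)

noncomputable def GG (x : W) : W := be x • G0 x

noncomputable def hh (b : ℝ → ℝ) (x : W) : ℂ := be x • (b (yy x.2.1) • qq x.2.2)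

noncomputable def term (Λ : ℝ) (b : ℝ → ℝ) (k : ℕ) (x : W) : ℂ :=
  (Λ ^ 2 / Λ ^ k * bp 1 4 16 25 (k ^ 2 * nn x.1)) • hh b (GG^[k] x)

noncomputable def Phi (Λ : ℝ) (b : ℝ → ℝ) (x : W) : ℂ := ∑' k, term Λ b k x

lemma G0_cd (x : W) (hx : x.2.1 ≠ 0) : ContDiffAt ℝ 1 G0 x := by
  unfold G0
  refine contDiffAt_fst.prodMk (ContDiffAt.prodMk ?_ (qq_cd.contDiffAt.comp x (by fun_prop)))
  refine (nrm_cd (mob_ne (nn_nonneg _) hx)).comp x (f := fun x : W => mob (nn x.1) x.2.1) ?_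
  have := nn_cd
  unfold mob
  fun_prop

lemma Phi_cd : ∃ Λ : ℝ, 2 ≤ Λ ∧ ∀ a b c d : ℝ, 0 ≤ a → a < b → c < d →
    ContDiff ℝ 1 (Phi Λ (bp a b c d)) ∧ ∃ H, ∀ x, ‖Phi Λ (bp a b c d) x‖ ≤ H := by
  obtain ⟨g1, L0, g2, -⟩ := cut_lip G0_cd
  set L : NNReal := max L0 4
  have g3 : LipschitzWith L GG := g2.weaken (le_max_left _ _)
  have hL : (4 : ℝ) ≤ L := by exact_mod_cast le_max_right L0 4
  refine ⟨2 * L, by linarith, fun a b c d ha hab hcd => ?_⟩
  obtain ⟨k1, H, k2, k3⟩ := cut_lip (g := fun x : W => bp a b c d (yy x.2.1) • qq x.2.2)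
    fun x hx => ((bpy_cd ha hab hcd hx).comp x (f := fun x : W => x.2.1) (by fun_prop)).smul
      (qq_cd.contDiffAt.comp x (by fun_prop))
  obtain ⟨C1, c1⟩ := (bp_cd 1 4 16 25).lipschitzWith_of_hasCompactSupport
    (HasCompactSupport.intro (isCompact_Icc (a := 1) (b := 25)) fun x hx => by
      by_contra hc
      obtain ⟨h1, h2⟩ := bp_supp (by norm_num) (by norm_num) hc
      exact hx ⟨h1.le, h2.le⟩) one_ne_zero
  obtain ⟨C2, c2⟩ := nn_cd.lipschitzWith_of_hasCompactSupport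
    (HasCompactSupport.intro (isCompact_Icc (a := 0) (b := 4)) fun x hx => by
      unfold nn
      rcases le_total x 0 with h | h
      · rw [S_zero h]; simp
      · rw [S_zero (x := 4 - x) (by by_contra h'; exact hx ⟨h, by linarith⟩)]; simp) one_ne_zero
  have hi : ∀ k, ContDiff ℝ 1 (GG^[k]) := fun k => by
    induction k with
    | zero => exact contDiff_id
    | succ k ih => rw [Function.iterate_succ']; exact g1.comp ih
  have hc : ∀ k : ℕ, ContDiff ℝ 1 fun x : W => bp 1 4 16 25 (k ^ 2 * nn x.1) := fun k =>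
    (bp_cd _ _ _ _).comp (contDiff_const.mul (nn_cd.comp contDiff_fst))
  have hg : ∀ k, ContDiff ℝ 1 fun x : W => hh (bp a b c d) (GG^[k] x) := fun k => k1.comp (hi k)
  have hp : ∀ k : ℕ, (2 * L : ℝ) ^ 2 / (2 * L) ^ k * L ^ k = (2 * L) ^ 2 * (1 / 2) ^ k := fun k => by
    rw [mul_pow 2 (L : ℝ) k]
    field_simp
    rw [← mul_pow]; simp
  have hp0 : ∀ k : ℕ, 0 ≤ (2 * L : ℝ) ^ 2 / (2 * L) ^ k := fun k => by positivity
  have hL1 : ∀ k : ℕ, (1 : ℝ) ≤ L ^ k := fun k => one_le_pow₀ (by linarith)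
  have n0 : ∀ k x, ‖term (2 * L) (bp a b c d) k x‖ ≤ (2 * L) ^ 2 * (1 / 2) ^ k * H := fun k x => by
    unfold term
    rw [norm_smul, ← hp, Real.norm_of_nonneg (mul_nonneg (hp0 k) (bp_nonneg _ _ _ _ _))]
    exact mul_le_mul (mul_le_mul_of_nonneg_left ((bp_le _ _ _ _ _).trans (hL1 k)) (hp0 k)) (k3 _)
      (norm_nonneg _) (mul_nonneg (hp0 k) (by positivity))
  have n1 : ∀ k x, ‖fderiv ℝ (term (2 * L) (bp a b c d) k) x‖ ≤
      (2 * L) ^ 2 * (1 / 2) ^ k * (H + C1 * C2 * H) := fun k x => by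
    have d1 := ((hc k).differentiable one_ne_zero x).hasFDerivAt
    have d2 := ((hg k).differentiable one_ne_zero x).hasFDerivAt
    have d3 := ((d1.const_mul ((2 * L : ℝ) ^ 2 / (2 * L) ^ k)).smul d2).fderiv
    have l1 : ‖fderiv ℝ (fun x : W => bp 1 4 16 25 (k ^ 2 * nn x.1)) x‖ ≤ C1 * C2 * L ^ k := by
      have : LipschitzWith (C1 * (k ^ 2 * C2)) fun x : W => bp 1 4 16 25 (k ^ 2 * nn x.1) := by
        refine c1.comp (LipschitzWith.of_dist_le_mul fun x y => ?_)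
        rw [Real.dist_eq, ← mul_sub, abs_mul, abs_of_nonneg (by positivity)]
        push_cast
        rw [mul_assoc]
        gcongr
        have h1 := c2.dist_le_mul x.1 y.1
        have h2 : dist x.1 y.1 ≤ dist x y := by rw [Prod.dist_eq]; exact le_max_left _ _
        rw [Real.dist_eq] at h1
        exact h1.trans (by gcongr)
      refine (norm_fderiv_le_of_lipschitz ℝ this).trans ?_
      push_cast
      have h1 : (k : ℝ) ≤ 2 ^ k := by exact_mod_cast Nat.lt_two_pow_self.le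
      have h2 : (k : ℝ) ^ 2 ≤ L ^ k := by
        calc (k : ℝ) ^ 2 ≤ (2 ^ k) ^ 2 := by gcongr
          _ = 4 ^ k := by rw [← pow_mul, mul_comm, pow_mul]; norm_num
          _ ≤ L ^ k := by gcongr
      calc _ = C1 * C2 * (k : ℝ) ^ 2 := by ring
        _ ≤ _ := by gcongr
    have l2 : ‖fderiv ℝ (fun x : W => hh (bp a b c d) (GG^[k] x)) x‖ ≤ H * L ^ k := by
      refine (norm_fderiv_le_of_lipschitz ℝ (k2.comp (g3.iterate k))).trans ?_
      push_cast
      rfl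
    have e : term (2 * L) (bp a b c d) k = (fun x : W => (2 * L : ℝ) ^ 2 / (2 * L) ^ k *
      bp 1 4 16 25 (k ^ 2 * nn x.1)) • fun x : W => hh (bp a b c d) (GG^[k] x) := rfl
    rw [e, d3]
    refine (norm_add_le _ _).trans ?_
    rw [norm_smul, ContinuousLinearMap.norm_smulRight_apply, norm_smul, ← hp,
      Real.norm_of_nonneg (mul_nonneg (hp0 k) (bp_nonneg _ _ _ _ _)), Real.norm_of_nonneg (hp0 k)]
    have m1 := mul_le_mul (mul_le_mul_of_nonneg_left (bp_le 1 4 16 25 (k ^ 2 * nn x.1)) (hp0 k)) l2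
      (norm_nonneg _) (mul_nonneg (hp0 k) zero_le_one)
    have m2 := mul_le_mul (mul_le_mul_of_nonneg_left l1 (hp0 k)) (k3 (GG^[k] x))
      (norm_nonneg _) (mul_nonneg (hp0 k) (by positivity))
    calc _ ≤ _ := add_le_add m1 m2
      _ = _ := by ring
  have sm : ∀ B : ℝ, Summable fun k : ℕ => (2 * L : ℝ) ^ 2 * (1 / 2) ^ k * B := fun B =>
    (summable_geometric_two.mul_left _).mul_right _
  refine ⟨?_, _, fun x => tsum_of_norm_bounded (sm H).hasSum fun k => n0 k x⟩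
  refine contDiff_tsum (N := 1) (v := fun j k => if j = 0 then (2 * L) ^ 2 * (1 / 2) ^ k * H else
    (2 * L) ^ 2 * (1 / 2) ^ k * (H + C1 * C2 * H))
    (fun k => (contDiff_const.mul (hc k)).smul (hg k)) (fun j _ => ?_) fun j k x hj => ?_
  · split_ifs <;> exact sm _
  · have hj' : j ≤ 1 := by exact_mod_cast hj
    interval_cases j
    · simpa using n0 k x
    · simpa using n1 k x

end Vale.Agent.P103.DD
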