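import Vale.Agent.P103.D1

namespace Vale.Agent.P103.DD

open Filter Topology

noncomputable def bA : ℝ → ℝ := bp (21 / 20) (11 / 10) (17 / 10) (7 / 4)
noncomputable def bB : ℝ → ℝ := bp (33 / 20) (17 / 10) (23 / 10) (47 / 20)
noncomputable def bP : ℝ → ℝ := bp 3 4 (26 / 5) 6
noncomputable def bC : ℝ → ℝ := bp (71 / 10) (36 / 5) (42 / 5) (17 / 2)
noncomputable def bD : ℝ → ℝ := bp (1 / 2) 1 12 13

noncomputable def ww (ν y : ℝ) : ℝ := S (ν - 2) + (1 - S (ν - 2)) * bP y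
noncomputable def gz (z : ℂ) : ℝ := S (2 * (‖z‖ ^ 2 - 1 / 16))
noncomputable def TT (ν : ℝ) (z : ℂ) : ℝ := -10 + 30 * (gz z + (1 - gz z) * S (2 * (ν - 5) + 1 / 2))
noncomputable def ka (ν : ℝ) : ℝ := -10 + (ν + 10) * S (ν + 11)
noncomputable def dmp (ν y : ℝ) : ℝ := (1 - S (ν - 7)) * (S ν + (1 - S ν) * bD y)

noncomputable def Fn (ν : ℝ) (z : ℂ) (y : ℝ) : ℝ := (1 - ww ν y) * ka ν + ww ν y * TT ν z
noncomputable def Fz (ν : ℝ) (z : ℂ) (y : ℝ) (a b : ℂ) : ℂ :=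
  dmp ν y • qq z + ((1 - S (ν - 1)) * (2 * bA y)) • sg a + ((1 - S (ν - 1)) * (2 * bB y)) • sg b
noncomputable def Fa (Λ : ℝ) (b : ℝ → ℝ) (x : W) (a : ℂ) : ℂ :=
  ((1 - bC (yy x.2.1)) * (2 * Λ)) • sg a + bC (yy x.2.1) • Phi Λ b x

noncomputable def FF (Λ : ℝ) (x : St) : St :=
  (Fn x.1 x.2.1 (yy x.2.2.1), Fz x.1 x.2.1 (yy x.2.2.1) x.2.2.2.1 x.2.2.2.2,
    nrm (mob (nn x.1) x.2.2.1), Fa Λ bA (x.1, x.2.2.1, x.2.1) x.2.2.2.1,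
    Fa Λ bB (x.1, x.2.2.1, x.2.1) x.2.2.2.2)

lemma FF_cd {Λ : ℝ} (hA : ContDiff ℝ 1 (Phi Λ bA)) (hB : ContDiff ℝ 1 (Phi Λ bB)) (x : St)
    (hx : x.2.2.1 ≠ 0) : ContDiffAt ℝ 1 (FF Λ) x := by
  have hb : ∀ a b c d : ℝ, 0 ≤ a → a < b → c < d →
      ContDiffAt ℝ 1 (fun x : St => bp a b c d (yy x.2.2.1)) x := fun a b c d h1 h2 h3 =>
    (bpy_cd h1 h2 h3 hx).comp x (f := fun x : St => x.2.2.1) (by fun_prop)
  have b1 : ContDiffAt ℝ 1 (fun x : St => bA (yy x.2.2.1)) x :=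
    hb _ _ _ _ (by norm_num) (by norm_num) (by norm_num)
  have b2 : ContDiffAt ℝ 1 (fun x : St => bB (yy x.2.2.1)) x :=
    hb _ _ _ _ (by norm_num) (by norm_num) (by norm_num)
  have b3 : ContDiffAt ℝ 1 (fun x : St => bP (yy x.2.2.1)) x :=
    hb _ _ _ _ (by norm_num) (by norm_num) (by norm_num)
  have b4 : ContDiffAt ℝ 1 (fun x : St => bC (yy x.2.2.1)) x :=
    hb _ _ _ _ (by norm_num) (by norm_num) (by norm_num)
  have b5 : ContDiffAt ℝ 1 (fun x : St => bD (yy x.2.2.1)) x :=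
    hb _ _ _ _ (by norm_num) (by norm_num) (by norm_num)
  have hS : ∀ g : St → ℝ, ContDiffAt ℝ 1 g x → ContDiffAt ℝ 1 (fun x => S (g x)) x :=
    fun g hg => S_cd.contDiffAt.comp x hg
  have s1 := hS (fun x => x.1 - 2) (by fun_prop)
  have s2 := hS (fun x => 2 * (‖x.2.1‖ ^ 2 - 1 / 16)) (contDiffAt_const.mul
    ((ContDiffAt.norm_sq ℝ (by fun_prop)).sub contDiffAt_const))
  have s3 := hS (fun x => 2 * (x.1 - 5) + 1 / 2) (by fun_prop)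
  have s4 := hS (fun x => x.1 + 11) (by fun_prop)
  have s5 := hS (fun x => x.1 - 7) (by fun_prop)
  have s6 := hS (fun x => x.1) (by fun_prop)
  have s7 := hS (fun x => x.1 - 1) (by fun_prop)
  have q1 : ContDiffAt ℝ 1 (fun x : St => qq x.2.1) x := qq_cd.contDiffAt.comp x (by fun_prop)
  have q2 : ContDiffAt ℝ 1 (fun x : St => sg x.2.2.2.1) x := sg_cd.contDiffAt.comp x (by fun_prop)
  have q3 : ContDiffAt ℝ 1 (fun x : St => sg x.2.2.2.2) x := sg_cd.contDiffAt.comp x (by fun_prop)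
  have p1 : ContDiffAt ℝ 1 (fun x : St => Phi Λ bA (x.1, x.2.2.1, x.2.1)) x :=
    hA.contDiffAt.comp x (by fun_prop)
  have p2 : ContDiffAt ℝ 1 (fun x : St => Phi Λ bB (x.1, x.2.2.1, x.2.1)) x :=
    hB.contDiffAt.comp x (by fun_prop)
  have v1 : ContDiffAt ℝ 1 (fun x : St => nrm (mob (nn x.1) x.2.2.1)) x := by
    refine (nrm_cd (mob_ne (nn_nonneg _) hx)).comp x (f := fun x : St => mob (nn x.1) x.2.2.1) ?_
    have := nn_cd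
    unfold mob
    fun_prop
  have c1 : ContDiffAt ℝ 1 (fun _ : St => (1 : ℝ)) x := contDiffAt_const
  have w1 : ContDiffAt ℝ 1 (fun x : St => ww x.1 (yy x.2.2.1)) x := s1.add ((c1.sub s1).mul b3)
  unfold FF Fn Fz Fa TT ka dmp gz
  refine ContDiffAt.prodMk ?_ (ContDiffAt.prodMk ?_ (v1.prodMk (ContDiffAt.prodMk ?_ ?_)))
  · exact ((c1.sub w1).mul (contDiffAt_const.add ((contDiffAt_fst.add contDiffAt_const).mul s4))).add
      (w1.mul (contDiffAt_const.add (contDiffAt_const.mul (s2.add ((c1.sub s2).mul s3)))))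
  · exact ((((c1.sub s5).mul (s6.add ((c1.sub s6).mul b5))).smul q1).add
      (((c1.sub s7).mul (contDiffAt_const.mul b1)).smul q2)).add
      (((c1.sub s7).mul (contDiffAt_const.mul b2)).smul q3)
  · exact (((c1.sub b4).mul contDiffAt_const).smul q2).add (b4.smul p1)
  · exact (((c1.sub b4).mul contDiffAt_const).smul q3).add (b4.smul p2)

lemma mix01 {s t : ℝ} (h0 : 0 ≤ s) (h1 : s ≤ 1) (h2 : 0 ≤ t) (h3 : t ≤ 1) :
    0 ≤ s + (1 - s) * t ∧ s + (1 - s) * t ≤ 1 := by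
  constructor <;> nlinarith

lemma ww01 (ν y : ℝ) : 0 ≤ ww ν y ∧ ww ν y ≤ 1 :=
  mix01 (S_nonneg _) (S_le _) (bp_nonneg _ _ _ _ _) (bp_le _ _ _ _ _)

lemma TT_rng (ν : ℝ) (z : ℂ) : -10 ≤ TT ν z ∧ TT ν z ≤ 20 := by
  have := mix01 (S_nonneg (2 * (‖z‖ ^ 2 - 1 / 16))) (S_le _) (S_nonneg (2 * (ν - 5) + 1 / 2))
    (S_le _)
  unfold TT gz
  constructor <;> linarith [this.1, this.2]

lemma TT_good {ν : ℝ} {z : ℂ} (h : 9 / 16 ≤ ‖z‖ ^ 2) : TT ν z = 20 := by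
  unfold TT gz
  rw [S_one (by linarith)]; norm_num

lemma TT_top {ν : ℝ} (z : ℂ) (h : 21 / 4 ≤ ν) : TT ν z = 20 := by
  unfold TT
  rw [S_one (by linarith)]; ring

lemma TT_bad {ν : ℝ} {z : ℂ} (h : ‖z‖ ^ 2 ≤ 1 / 16) (h' : ν ≤ 19 / 4) : TT ν z = -10 := by
  unfold TT gz
  rw [S_zero (by linarith), S_zero (by linarith)]; norm_num

lemma ka_id {ν : ℝ} (h : -10 ≤ ν) : ka ν = ν := by
  unfold ka
  rw [S_one (by linarith)]; ring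

lemma ka_lo {ν : ℝ} (h : ν ≤ -10) : ν ≤ ka ν ∧ -11 ≤ ka ν ∧ ka ν ≤ -10 := by
  unfold ka
  have h0 := S_nonneg (ν + 11)
  have h1 := S_le (ν + 11)
  refine ⟨by nlinarith, ?_, by nlinarith⟩
  rcases le_total ν (-11) with h2 | h2
  · rw [S_zero (by linarith)]; norm_num
  · nlinarith

lemma ka_le {ν c : ℝ} (h : ν ≤ c) (hc : -10 ≤ c) : ka ν ≤ c := by
  rcases le_total ν (-10) with h2 | h2
  · linarith [(ka_lo h2).2.2]
  · rw [ka_id h2]; exact h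

lemma ka_ge (ν : ℝ) : ν ≤ ka ν ∧ -11 ≤ ka ν := by
  rcases le_total ν (-10) with h2 | h2
  · exact ⟨(ka_lo h2).1, (ka_lo h2).2.1⟩
  · rw [ka_id h2]; exact ⟨le_rfl, by linarith⟩

lemma ww_top {ν : ℝ} (y : ℝ) (h : 3 ≤ ν) : ww ν y = 1 := by
  unfold ww
  rw [S_one (by linarith)]; ring

lemma ww_full (ν : ℝ) {y : ℝ} (h1 : 4 ≤ y) (h2 : y ≤ 26 / 5) : ww ν y = 1 := by
  unfold ww bP
  rw [bp_one (by norm_num) (by norm_num) h1 h2]; ring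

lemma ww_off {ν y : ℝ} (h : ν ≤ 2) (hy : y ≤ 3 ∨ 6 ≤ y) : ww ν y = 0 := by
  unfold ww bP
  rw [S_zero (by linarith)]
  rcases hy with hy | hy
  · rw [bp_lo (by norm_num) hy]; ring
  · rw [bp_hi (by norm_num) hy]; ring

lemma Fn_one {ν y : ℝ} (z : ℂ) (h : ww ν y = 1) : Fn ν z y = TT ν z := by
  unfold Fn; rw [h]; ring

lemma Fn_zero {ν y : ℝ} (z : ℂ) (h : ww ν y = 0) : Fn ν z y = ka ν := by
  unfold Fn; rw [h]; ring

lemma Fn_bad {ν c : ℝ} {z : ℂ} (y : ℝ) (h : ‖z‖ ^ 2 ≤ 1 / 16) (h' : ν ≤ c) (hc : -10 ≤ c)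
    (hc' : c ≤ 19 / 4) : Fn ν z y ≤ c := by
  unfold Fn
  rw [TT_bad h (h'.trans hc')]
  have := ka_le h' hc
  have := ww01 ν y
  nlinarith

lemma Fn_rng (ν : ℝ) (z : ℂ) (y : ℝ) : -11 ≤ Fn ν z y ∧ Fn ν z y ≤ 20 := by
  have h1 := TT_rng ν z
  rcases le_total 3 ν with h | h
  · rw [Fn_one z (ww_top y h)]
    constructor <;> linarith [h1.1, h1.2]
  · have h2 := ka_le h (by norm_num)
    have h3 := (ka_ge ν).2
    have h4 := ww01 ν y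
    unfold Fn
    constructor <;> nlinarith [h1.1, h1.2, h4.1, h4.2]

lemma dmp01 (ν y : ℝ) : 0 ≤ dmp ν y ∧ dmp ν y ≤ 1 := by
  have h := mix01 (S_nonneg ν) (S_le ν) (bp_nonneg (1 / 2) 1 12 13 y) (bp_le _ _ _ _ _)
  have h0 := S_nonneg (ν - 7)
  have h1 := S_le (ν - 7)
  unfold dmp bD
  constructor <;> nlinarith [h.1, h.2]

lemma dmp_one {ν y : ℝ} (h : ν ≤ 7) (h' : 1 ≤ ν ∨ (1 ≤ y ∧ y ≤ 12)) : dmp ν y = 1 := by
  unfold dmp bD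
  rw [S_zero (by linarith)]
  rcases h' with h' | h'
  · rw [S_one h']; ring
  · rw [bp_one (by norm_num) (by norm_num) h'.1 h'.2]; ring

lemma qq_norm (z : ℂ) : ‖qq z‖ = 48 * ‖z‖ ^ 2 / (1 + 48 * ‖z‖ ^ 2) := by
  unfold qq
  rw [norm_smul, norm_pow, Real.norm_of_nonneg (by positivity)]
  ring

lemma qq_le (z : ℂ) : ‖qq z‖ ≤ 1 := by
  rw [qq_norm, div_le_one (by positivity)]; linarith

lemma qq_ge {z : ℂ} (h : 1 / 16 ≤ ‖z‖ ^ 2) : 3 / 4 ≤ ‖qq z‖ := by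
  rw [qq_norm, le_div_iff₀ (by positivity)]; linarith

lemma qq_good {z : ℂ} (h : 1 / 16 ≤ ‖z‖ ^ 2) : 9 / 16 ≤ ‖qq z‖ ^ 2 := by
  nlinarith [qq_ge h]

lemma sg_norm (a : ℂ) : ‖sg a‖ = ‖a‖ / √(1 + ‖a‖ ^ 2) := by
  unfold sg
  rw [norm_smul, Real.norm_of_nonneg (by positivity)]
  ring

lemma sg_le (a : ℂ) : ‖sg a‖ ≤ 1 := by
  rw [sg_norm, div_le_one (by positivity)]
  exact Real.le_sqrt_of_sq_le (by linarith)

lemma sg_ge {a : ℂ} {m : ℝ} (h0 : 0 ≤ m) (h1 : m ≤ 1) (h : m ≤ ‖a‖) : m / 2 ≤ ‖sg a‖ := by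
  rw [sg_norm, div_le_div_iff₀ (by norm_num) (by positivity)]
  rcases le_total ‖a‖ 1 with h2 | h2
  · have : √(1 + ‖a‖ ^ 2) ≤ 2 := Real.sqrt_le_iff.2 ⟨by norm_num, by nlinarith⟩
    nlinarith
  · have : √(1 + ‖a‖ ^ 2) ≤ 2 * ‖a‖ := Real.sqrt_le_iff.2 ⟨by positivity, by nlinarith⟩
    nlinarith [Real.sqrt_nonneg (1 + ‖a‖ ^ 2)]

lemma Fz_noread {ν y : ℝ} (z a b : ℂ) (h : 2 ≤ ν ∨ y ≤ 1 ∨ 47 / 20 ≤ y) :
    Fz ν z y a b = dmp ν y • qq z := by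
  unfold Fz bA bB
  rcases h with h | h | h
  · rw [S_one (by linarith)]; simp
  · rw [bp_lo (by norm_num) (by linarith), bp_lo (by norm_num) (by linarith)]; simp
  · rw [bp_hi (by norm_num) (by linarith), bp_hi (by norm_num) (by linarith)]; simp

/-- the memory stays good in the middle levels and inside the windows -/
lemma Fz_q {ν y : ℝ} (z a b : ℂ) (h : ν ≤ 7) (h' : 2 ≤ ν ∨ (47 / 20 ≤ y ∧ y ≤ 12)) :
    Fz ν z y a b = qq z := by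
  rcases h' with h' | h'
  · rw [Fz_noread z a b (Or.inl h'), dmp_one h (Or.inl (by linarith)), one_smul]
  · rw [Fz_noread z a b (Or.inr (Or.inr h'.1)), dmp_one h (Or.inr ⟨by linarith, h'.2⟩), one_smul]

lemma shell {ν : ℝ} {z : ℂ} (y : ℝ) (a b : ℂ) (h : 1 / 4 ≤ (ν - 5) ^ 2 + ‖z‖ ^ 2) :
    9 / 16 ≤ (Fn ν z y - 5) ^ 2 + ‖Fz ν z y a b‖ ^ 2 := by
  have far : ∀ t : ℝ, t ≤ 3 ∨ t = 20 → 9 / 16 ≤ (t - 5) ^ 2 + ‖Fz ν z y a b‖ ^ 2 := by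
    rintro t (ht | rfl) <;> nlinarith [sq_nonneg ‖Fz ν z y a b‖]
  rcases le_total (21 / 4) ν with h1 | h1
  · exact far _ (Or.inr (by rw [Fn_one z (ww_top y (by linarith)), TT_top z h1]))
  rcases le_total (‖z‖ ^ 2) (1 / 16) with h2 | h2
  · have h3 : ν ≤ 19 / 4 := by nlinarith
    rcases le_total 3 ν with h4 | h4
    · exact far _ (Or.inl (by rw [Fn_one z (ww_top y h4), TT_bad h2 h3]; norm_num))
    · exact far _ (Or.inl (Fn_bad y h2 h4 (by norm_num) (by norm_num)))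
  · by_cases h4 : 2 ≤ ν ∨ (47 / 20 ≤ y ∧ y ≤ 12)
    · rw [Fz_q z a b (by linarith) h4]
      nlinarith [qq_good h2, sq_nonneg (Fn ν z y - 5)]
    · push Not at h4
      refine far _ (Or.inl ?_)
      rw [Fn_zero z (ww_off h4.1.le (by
        rcases le_total y 3 with h5 | h5
        · exact Or.inl h5
        · exact Or.inr (by linarith [h4.2 (by linarith)])))]
      exact ka_le (by linarith) (by norm_num)

lemma Sh.ne {x : St} (h : Sh x) : x.2.2.1 ≠ 0 := fun e => by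
  have := h.2
  rw [e] at this
  simp at this

lemma FF_sh (Λ : ℝ) {x : St} (h : Sh x) : 9 / 16 ≤ ((FF Λ x).1 - 5) ^ 2 + ‖(FF Λ x).2.1‖ ^ 2 ∧
    (FF Λ x).2.2.1.1 ^ 2 + (FF Λ x).2.2.1.2 ^ 2 = 1 :=
  ⟨shell _ _ _ h.1, nrm_sq (mob_ne (nn_nonneg _) (Sh.ne h))⟩

lemma FF_sh' (Λ : ℝ) {x : St} (h : Sh x) : Sh (FF Λ x) :=
  ⟨by linarith [(FF_sh Λ h).1], (FF_sh Λ h).2⟩

lemma smul_le {c C : ℝ} {z : ℂ} {B : ℝ} (h0 : 0 ≤ c) (h1 : c ≤ C) (h : ‖z‖ ≤ B) :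
    ‖c • z‖ ≤ C * B := by
  rw [norm_smul, Real.norm_of_nonneg h0]
  exact mul_le_mul h1 h (norm_nonneg _) (h0.trans h1)

lemma FF_bd {Λ H : ℝ} (hΛ : 2 ≤ Λ) (hA : ∀ x, ‖Phi Λ bA x‖ ≤ H) (hB : ∀ x, ‖Phi Λ bB x‖ ≤ H)
    {x : St} (h : Sh x) : ‖FF Λ x‖ ≤ 20 + 2 * Λ + H := by
  have hH : 0 ≤ H := (norm_nonneg _).trans (hA 0)
  have h1 := Fn_rng x.1 x.2.1 (yy x.2.2.1)
  have h2 := (FF_sh Λ h).2
  have hr : ∀ a b c d : ℝ, 0 ≤ (1 - S (x.1 - 1)) * (2 * bp a b c d (yy x.2.2.1)) ∧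
      (1 - S (x.1 - 1)) * (2 * bp a b c d (yy x.2.2.1)) ≤ 2 := fun a b c d => by
    have := bp_nonneg a b c d (yy x.2.2.1)
    have := bp_le a b c d (yy x.2.2.1)
    have := S_nonneg (x.1 - 1)
    have := S_le (x.1 - 1)
    constructor <;> nlinarith
  have h3 : ‖(FF Λ x).2.1‖ ≤ 1 * 1 + 2 * 1 + 2 * 1 :=
    norm_add_le_of_le (norm_add_le_of_le (smul_le (dmp01 _ _).1 (dmp01 _ _).2 (qq_le _))
      (smul_le (hr _ _ _ _).1 (hr _ _ _ _).2 (sg_le _)))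
      (smul_le (hr _ _ _ _).1 (hr _ _ _ _).2 (sg_le _))
  have h4 : ∀ b a, (∀ x, ‖Phi Λ b x‖ ≤ H) → ∀ u, ‖Fa Λ b u a‖ ≤ 2 * Λ * 1 + 1 * H := by
    intro b a hb u
    have c0 : 0 ≤ bC (yy u.2.1) := bp_nonneg _ _ _ _ _
    have c1 : bC (yy u.2.1) ≤ 1 := bp_le _ _ _ _ _
    exact norm_add_le_of_le (smul_le (by nlinarith) (by nlinarith) (sg_le _))
      (smul_le c0 c1 (hb _))
  have h5 := h4 bA x.2.2.2.1 hA (x.1, x.2.2.1, x.2.1)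
  have h6 := h4 bB x.2.2.2.2 hB (x.1, x.2.2.1, x.2.1)
  have e : ‖FF Λ x‖ = max |(FF Λ x).1| (max ‖(FF Λ x).2.1‖ (max (max |(FF Λ x).2.2.1.1|
    |(FF Λ x).2.2.1.2|) (max ‖(FF Λ x).2.2.2.1‖ ‖(FF Λ x).2.2.2.2‖))) := rfl
  rw [e]
  refine max_le (abs_le.2 ⟨?_, ?_⟩) (max_le (by linarith) (max_le (max_le ?_ ?_)
    (max_le (h5.trans (by linarith)) (h6.trans (by linarith)))))
  · exact le_trans (by linarith) h1.1
  · exact h1.2.trans (by linarith)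
  · refine abs_le.2 ⟨?_, ?_⟩ <;> nlinarith [sq_nonneg (FF Λ x).2.2.1.2]
  · refine abs_le.2 ⟨?_, ?_⟩ <;> nlinarith [sq_nonneg (FF Λ x).2.2.1.1]

lemma nn_zero {ν : ℝ} (h : ν ≤ 0 ∨ 4 ≤ ν) : nn ν = 0 := by
  unfold nn
  rcases h with h | h
  · rw [S_zero h]; simp
  · rw [S_zero (x := 4 - ν) (by linarith)]; simp

lemma Fa_off (Λ : ℝ) (b : ℝ → ℝ) {x : W} (a : ℂ) (h : yy x.2.1 ≤ 71 / 10 ∨ 17 / 2 ≤ yy x.2.1) :
    Fa Λ b x a = (2 * Λ) • sg a := by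
  unfold Fa bC
  rcases h with h | h
  · rw [bp_lo (by norm_num) h]; simp
  · rw [bp_hi (by norm_num) h]; simp

lemma FF_sph (Λ : ℝ) (p : Sph) : ∃ ν c : ℝ, 0 < c ∧
    FF Λ (5 + p.1.1, p.1.2, (1, 0), 0, 0) = (ν, (c : ℂ) * p.1.2 ^ 2, (1, 0), 0, 0) ∧
    (p.1.2 = 0 → 0 < (ν - 5) * p.1.1) := by
  obtain ⟨⟨s, z⟩, hp⟩ := p
  simp only at hp ⊢
  have h1 : -1 ≤ s := by nlinarith [sq_nonneg ‖z‖]
  have h2 : s ≤ 1 := by nlinarith [sq_nonneg ‖z‖]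
  refine ⟨TT (5 + s) z, 48 / (1 + 48 * ‖z‖ ^ 2), by positivity, ?_, fun hz => ?_⟩
  · unfold FF
    simp only
    rw [Fn_one z (ww_top _ (by linarith)), Fz_q _ _ _ (by linarith) (Or.inl (by linarith)),
      nn_zero (Or.inr (by linarith)), Fa_off _ _ _ (Or.inl (by norm_num [yy])),
      Fa_off _ _ _ (Or.inl (by norm_num [yy]))]
    simp [qq, sg, nrm, mob]
  · subst hz
    have h3 : (s - 1) * (s + 1) = 0 := by
      rw [norm_zero] at hp; nlinarith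
    rcases mul_eq_zero.1 h3 with h4 | h4
    · have : s = 1 := by linarith
      subst this
      rw [TT_top _ (by norm_num)]; norm_num
    · have : s = -1 := by linarith
      subst this
      rw [TT_bad (by simp) (by norm_num)]; norm_num

end Vale.Agent.P103.DD
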