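import Vale.Agent.P103.D2

namespace Vale.Agent.P103.DD

open Filter Topology

lemma nrm_smul {c : ℝ} (hc : 0 < c) (v : ℝ × ℝ) : nrm (c • v) = nrm v := by
  unfold nrm
  have : (c • v).1 ^ 2 + (c • v).2 ^ 2 = c ^ 2 * (v.1 ^ 2 + v.2 ^ 2) := by
    simp only [Prod.smul_fst, Prod.smul_snd, smul_eq_mul]; ring
  rw [this, Real.sqrt_mul (sq_nonneg c), Real.sqrt_sq hc.le, smul_smul]
  congr 1
  field_simp

lemma nrm_pos {v : ℝ × ℝ} (hv : v ≠ 0) : ∃ c : ℝ, 0 < c ∧ nrm v = c • v :=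
  ⟨_, inv_pos.2 (Real.sqrt_pos.2 (sq_pos' hv)), rfl⟩

lemma yy_smul {c : ℝ} (hc : 0 < c) (v : ℝ × ℝ) : yy (c • v) = yy v := by
  unfold yy
  simp only [Prod.smul_fst, Prod.smul_snd, smul_eq_mul]
  rw [mul_div_mul_left _ _ hc.ne']

lemma mob_smul (n c : ℝ) (v : ℝ × ℝ) : mob n (c • v) = c • mob n v := by
  ext <;> simp [mob] <;> ring

noncomputable abbrev Y (x : St) : ℝ := yy x.2.2.1

variable {Λ : ℝ}

lemma ph1 {x : St} (h : Sh x) (h2 : x.2.2.1.2 ≠ 0) :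
    Y (FF Λ x) = (Y x + 1) / (1 - nn x.1 * Y x) ∧
      ((FF Λ x).2.2.1.2 = 0 ↔ 1 - nn x.1 * Y x = 0) := by
  obtain ⟨c, hc, e⟩ := nrm_pos (mob_ne (nn_nonneg x.1) (Sh.ne h))
  have e1 : (FF Λ x).2.2.1 = c • mob (nn x.1) x.2.2.1 := e
  have e2 : x.2.2.1.1 = Y x * x.2.2.1.2 := by unfold Y yy; field_simp
  have e3 : (mob (nn x.1) x.2.2.1).2 = (1 - nn x.1 * Y x) * x.2.2.1.2 := by
    simp only [mob]; rw [e2]; unfold Y yy; field_simp
  have e4 : (mob (nn x.1) x.2.2.1).1 = (Y x + 1) * x.2.2.1.2 := by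
    simp only [mob]; unfold Y yy; field_simp
  constructor
  · unfold Y at *
    rw [e1, yy_smul hc]
    conv_lhs => unfold yy
    rw [e3, e4, mul_div_mul_right _ _ h2]
  · rw [e1, Prod.smul_snd, e3]
    simp [hc.ne', h2]

lemma ph0 {x : St} (h : Sh x) (h2 : x.2.2.1.2 = 0) :
    Y (FF Λ x) = -1 / nn x.1 ∧ ((FF Λ x).2.2.1.2 = 0 ↔ nn x.1 = 0) := by
  obtain ⟨c, hc, e⟩ := nrm_pos (mob_ne (nn_nonneg x.1) (Sh.ne h))
  have e1 : (FF Λ x).2.2.1 = c • mob (nn x.1) x.2.2.1 := e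
  have h1 : x.2.2.1.1 ≠ 0 := fun e => Sh.ne h (Prod.ext e h2)
  constructor
  · unfold Y
    rw [e1, yy_smul hc]
    simp only [yy, mob, h2]
    by_cases h0 : nn x.1 = 0
    · simp [h0]
    · field_simp
      ring
  · rw [e1, Prod.smul_snd]
    simp [hc.ne', h2, mob, h1]

lemma ne_of_Y {x : St} (h : Y x ≠ 0) : x.2.2.1.2 ≠ 0 := fun e => h (by simp [Y, yy, e])

lemma Y_of_eq {x : St} (h : x.2.2.1.2 = 0) : Y x = 0 := by simp [Y, yy, h]

lemma st_pos {x : St} (h : Sh x) (h2 : x.2.2.1.2 ≠ 0) (h0 : 0 ≤ Y x)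
    (h1 : 0 < 1 - nn x.1 * Y x) : Y x + 1 ≤ Y (FF Λ x) := by
  rw [(ph1 h h2).1, le_div_iff₀ h1]
  nlinarith [mul_nonneg (nn_nonneg x.1) h0]

lemma st_mid {x : St} (h : Sh x) (h2 : x.2.2.1.2 ≠ 0) (h0 : 0 ≤ Y x) (h1 : Y x ≤ 20) :
    Y x + 1 ≤ Y (FF Λ x) ∧ Y (FF Λ x) ≤ Y x + 11 / 10 := by
  have n0 := nn_nonneg x.1
  have n1 := nn_le x.1
  have h3 : nn x.1 * Y x ≤ 1 / 10 ^ 6 * 20 := mul_le_mul n1 h1 h0 (by norm_num)
  refine ⟨st_pos h h2 h0 (by linarith), ?_⟩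
  rw [(ph1 h h2).1, div_le_iff₀ (by linarith)]
  nlinarith [mul_nonneg n0 h0]

lemma st_neg {x : St} (h : Sh x) (h2 : x.2.2.1.2 ≠ 0) (h0 : Y x ≤ 0) :
    (FF Λ x).2.2.1.2 ≠ 0 ∧ Y x + 1 / 2 ≤ Y (FF Λ x) ∧ Y (FF Λ x) ≤ 1 := by
  have n0 := nn_nonneg x.1
  have n1 := nn_le x.1
  have h3 : 0 ≤ -(nn x.1 * Y x) := by nlinarith
  refine ⟨fun e => by linarith [(ph1 h h2).2.1 e], ?_, ?_⟩
  · rw [(ph1 h h2).1, le_div_iff₀ (by linarith)]
    rcases le_total (Y x) (-1 / 2) with h4 | h4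
    · nlinarith
    · nlinarith
  · rw [(ph1 h h2).1, div_le_one (by linarith)]
    linarith

def Conv (Λ : ℝ) (x : St) : Prop := ∃ y, Tendsto (fun n => (FF Λ)^[n] x) atTop (𝓝 y)

lemma Conv.back {x : St} (h : Conv Λ (FF Λ x)) : Conv Λ x := by
  obtain ⟨y, hy⟩ := h
  exact ⟨y, (tendsto_add_atTop_iff_nat 1).1 hy⟩

lemma Conv.back' {x : St} (k : ℕ) (h : Conv Λ ((FF Λ)^[k] x)) : Conv Λ x := by
  induction k generalizing x with
  | zero => exact h
  | succ k ih => exact (ih h).back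

lemma sat_conv {L : ℝ} (hL : 2 ≤ L) {a : ℕ → ℂ} (h : ∀ j, a (j + 1) = L • sg (a j)) :
    ∃ l, Tendsto a atTop (𝓝 l) := by
  by_cases h0 : a 0 = 0
  · have : a = fun _ => 0 := by
      funext j
      induction j with
      | zero => exact h0
      | succ j ih => rw [h, ih]; simp [sg]
    exact ⟨0, this ▸ tendsto_const_nhds⟩
  have hn : 0 < ‖a 0‖ ^ 2 := by positivity
  have hL2 : 0 < L ^ 2 - 1 := by nlinarith
  set D := ‖a 0‖ ^ 2 / (L ^ 2 - 1) with hD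
  have hD0 : 0 < D := div_pos hn hL2
  set d : ℕ → ℝ := fun j => D + (1 - D) * (1 / L ^ 2) ^ j with hd
  have hrec : ∀ j, L ^ 2 * d (j + 1) = d j + ‖a 0‖ ^ 2 := fun j => by
    have : ‖a 0‖ ^ 2 = D * (L ^ 2 - 1) := by rw [hD]; field_simp
    rw [this]
    simp only [hd, pow_succ (1 / L ^ 2)]
    field_simp
    ring
  have key : ∀ j, 0 < d j ∧ a j = (√(d j))⁻¹ • a 0 := fun j => by
    induction j with
    | zero => simp [hd]
    | succ j ih =>
      have h1 : 0 < d (j + 1) := by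
        have := hrec j
        by_contra hc
        nlinarith [ih.1, sq_nonneg L]
      refine ⟨h1, ?_⟩
      have s0 := Real.sqrt_pos.2 ih.1
      have s1 := Real.sqrt_pos.2 h1
      have e1 : 1 + ‖a j‖ ^ 2 = (L * √(d (j + 1)) / √(d j)) ^ 2 := by
        rw [ih.2, norm_smul, norm_inv, Real.norm_of_nonneg s0.le, div_pow, mul_pow, mul_pow,
          inv_pow, Real.sq_sqrt ih.1.le, Real.sq_sqrt h1.le, hrec]
        have := ih.1
        field_simp
      rw [h, sg, e1, Real.sqrt_sq (by positivity)]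
      conv_lhs => rw [ih.2]
      rw [smul_smul, smul_smul]
      congr 1
      field_simp
  have t1 : Tendsto d atTop (𝓝 (D + (1 - D) * 0)) :=
    ((tendsto_pow_atTop_nhds_zero_of_lt_one (by positivity)
      ((div_lt_one (by positivity)).2 (by linarith))).const_mul _).const_add _
  rw [mul_zero, add_zero] at t1
  refine ⟨_, Tendsto.congr (fun j => (key j).2.symm)
    ((t1.sqrt.inv₀ (Real.sqrt_pos.2 hD0).ne').smul_const (a 0))⟩

lemma ph_conv {v : ℕ → ℝ × ℝ} (h0 : v 0 ≠ 0) (h : ∀ j, v (j + 1) = nrm (mob 0 (v j))) :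
    ∃ l, Tendsto v atTop (𝓝 l) := by
  have key : ∀ j : ℕ, v (j + 1) = nrm ((v 0).1 + (j + 1 : ℕ) * (v 0).2, (v 0).2) := fun j => by
    induction j with
    | zero => rw [h]; simp [mob]
    | succ j ih =>
      have hne : (((v 0).1 + (j + 1 : ℕ) * (v 0).2, (v 0).2) : ℝ × ℝ) ≠ 0 := fun e => by
        have h2 : (v 0).2 = 0 := congrArg Prod.snd e
        have h1 : (v 0).1 + (j + 1 : ℕ) * (v 0).2 = 0 := congrArg Prod.fst e
        exact h0 (Prod.ext (by simpa [h2] using h1) h2)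
      obtain ⟨c, hc, e⟩ := nrm_pos hne
      rw [h, ih, e, mob_smul, nrm_smul hc]
      congr 1
      simp only [mob]
      ext
      · push_cast; ring
      · simp
  by_cases h2 : (v 0).2 = 0
  · refine ⟨nrm ((v 0).1, 0), (tendsto_add_atTop_iff_nat 1).1 ?_⟩
    simp only [key, h2]
    simp
  · refine ⟨nrm ((v 0).2, 0), (tendsto_add_atTop_iff_nat 1).1 ?_⟩
    have t0 : Tendsto (fun j : ℕ => (1 : ℝ) / (j + 1)) atTop (𝓝 0) :=
      tendsto_one_div_add_atTop_nhds_zero_nat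
    have t1 : Tendsto (fun j : ℕ => (((1 : ℝ) / (j + 1) * (v 0).1 + (v 0).2,
        (1 : ℝ) / (j + 1) * (v 0).2) : ℝ × ℝ)) atTop (𝓝 (0 * (v 0).1 + (v 0).2, 0 * (v 0).2)) :=
      ((t0.mul_const _).add_const _).prodMk_nhds (t0.mul_const _)
    rw [zero_mul, zero_add, zero_mul] at t1
    have c1 : ContinuousAt nrm ((v 0).2, 0) :=
      (nrm_cd fun e => h2 (congrArg Prod.fst e)).continuousAt
    refine (c1.tendsto.comp t1).congr fun j => ?_
    rw [key, ← nrm_smul (c := 1 / (j + 1)) (by positivity)]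
    simp only [Function.comp]
    congr 1
    ext
    · simp only [Prod.smul_fst, smul_eq_mul]; push_cast; field_simp
    · simp

def Quiet (x : St) : Prop := Sh x ∧ (x.1 = 20 ∨ x.1 ≤ 0) ∧ (x.2.2.1.2 = 0 ∨ 13 ≤ Y x)

lemma Quiet.step {x : St} (h : Quiet x) : Quiet (FF Λ x) ∧ x.1 ≤ (FF Λ x).1 ∧
    (FF Λ x).2.1 = 0 ∧ (FF Λ x).2.2.1 = nrm (mob 0 x.2.2.1) ∧
    (FF Λ x).2.2.2.1 = (2 * Λ) • sg x.2.2.2.1 ∧ (FF Λ x).2.2.2.2 = (2 * Λ) • sg x.2.2.2.2 := by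
  obtain ⟨h1, h2, h3⟩ := h
  have n0 : nn x.1 = 0 := nn_zero (h2.elim (fun e => Or.inr (by linarith)) Or.inl)
  have hy : Y x = 0 ∨ 13 ≤ Y x := h3.imp_left Y_of_eq
  have e1 : (FF Λ x).1 = 20 ∧ x.1 = 20 ∨ (FF Λ x).1 = ka x.1 ∧ x.1 ≤ 0 := by
    rcases h2 with h2 | h2
    · refine Or.inl ⟨?_, h2⟩
      change Fn x.1 _ _ = _
      rw [Fn_one _ (ww_top _ (by linarith)), TT_top _ (by linarith)]
    · exact Or.inr ⟨Fn_zero _ (ww_off (by linarith)
        (hy.imp (fun e => by change Y x ≤ _; linarith) fun e => by change _ ≤ Y x; linarith)), h2⟩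
  refine ⟨⟨FF_sh' Λ h1, ?_, ?_⟩, ?_, ?_, ?_, ?_, ?_⟩
  · rcases e1 with e | e
    · exact Or.inl e.1
    · exact Or.inr (e.1 ▸ ka_le e.2 (by norm_num))
  · rcases h3 with h3 | h3
    · exact Or.inl ((ph0 h1 h3).2.2 n0)
    · refine Or.inr ?_
      linarith [st_pos (Λ := Λ) h1 (ne_of_Y (by linarith)) (by linarith) (by rw [n0]; simp)]
  · rcases e1 with e | e
    · linarith [e.1, e.2]
    · rw [e.1]; exact (ka_ge _).1
  · change Fz x.1 x.2.1 (Y x) _ _ = 0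
    rw [Fz_noread _ _ _ (Or.inr (hy.imp (fun e => by linarith) fun e => by linarith))]
    have : dmp x.1 (Y x) = 0 := by
      unfold dmp bD
      rcases h2 with h2 | h2
      · rw [S_one (by linarith)]; ring
      · rw [S_zero h2]
        rcases hy with hy | hy
        · rw [bp_lo (by norm_num) (by linarith)]; ring
        · rw [bp_hi (by norm_num) hy]; ring
    rw [this, zero_smul]
  · rw [← n0]; rfl
  · exact Fa_off _ _ _ (hy.imp (fun e => by change Y x ≤ _; linarith)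
      fun e => by change _ ≤ Y x; linarith)
  · exact Fa_off _ _ _ (hy.imp (fun e => by change Y x ≤ _; linarith)
      fun e => by change _ ≤ Y x; linarith)

lemma Quiet.conv (hΛ : 2 ≤ Λ) {x : St} (h : Quiet x) : Conv Λ x := by
  have hq : ∀ j, Quiet ((FF Λ)^[j] x) := fun j => by
    induction j with
    | zero => exact h
    | succ j ih => rw [Function.iterate_succ_apply']; exact ih.step.1
  have hs := fun j => (hq j).step (Λ := Λ)
  simp only [← Function.iterate_succ_apply' (FF Λ)] at hs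
  have t1 := tendsto_atTop_ciSup (f := fun j => ((FF Λ)^[j] x).1)
    (monotone_nat_of_le_succ fun j => (hs j).2.1)
    ⟨20, by rintro _ ⟨j, rfl⟩; exact (hq j).2.1.elim le_of_eq fun e => by linarith⟩
  have t2 : Tendsto (fun j => ((FF Λ)^[j] x).2.1) atTop (𝓝 0) :=
    (tendsto_add_atTop_iff_nat 1).1 (tendsto_const_nhds.congr fun j => (hs j).2.2.1.symm)
  obtain ⟨_, t3⟩ := ph_conv (v := fun j => ((FF Λ)^[j] x).2.2.1) (Sh.ne h.1)
    fun j => (hs j).2.2.2.1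
  obtain ⟨_, t4⟩ := sat_conv (L := 2 * Λ) (by linarith) (a := fun j => ((FF Λ)^[j] x).2.2.2.1)
    fun j => (hs j).2.2.2.2.1
  obtain ⟨_, t5⟩ := sat_conv (L := 2 * Λ) (by linarith) (a := fun j => ((FF Λ)^[j] x).2.2.2.2)
    fun j => (hs j).2.2.2.2.2
  exact ⟨_, t1.prodMk_nhds (t2.prodMk_nhds (t3.prodMk_nhds (t4.prodMk_nhds t5)))⟩

lemma stuck_aux (hΛ : 2 ≤ Λ) (m : ℕ) : ∀ x : St, Sh x → x.2.2.1.2 ≠ 0 →
    (x.1 = 20 ∨ (x.1 ≤ 0 ∧ 6 ≤ Y x)) → 13 - m ≤ Y x → Conv Λ x := by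
  induction m with
  | zero => exact fun x h1 _ h3 h4 =>
      Quiet.conv hΛ ⟨h1, h3.imp_right fun e => e.1, Or.inr (by simpa using h4)⟩
  | succ m ih =>
    intro x h1 h2 h3 h4
    have n0 : nn x.1 = 0 := nn_zero (h3.elim (fun e => Or.inr (by linarith)) fun e => Or.inl e.1)
    have e := ph1 (Λ := Λ) h1 h2
    rw [n0, zero_mul, sub_zero, div_one] at e
    refine (ih _ (FF_sh' Λ h1) (fun h => one_ne_zero (e.2.1 h)) ?_ ?_).back
    · rcases h3 with h3 | h3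
      · refine Or.inl ?_
        change Fn x.1 _ _ = _
        rw [Fn_one _ (ww_top _ (by linarith)), TT_top _ (by linarith)]
      · refine Or.inr ⟨?_, by linarith [e.1, h3.2]⟩
        change Fn x.1 _ _ ≤ _
        rw [Fn_zero _ (ww_off (by linarith [h3.1]) (Or.inr h3.2))]
        exact ka_le h3.1 (by norm_num)
    · push_cast at h4
      linarith [e.1]

lemma stuck (hΛ : 2 ≤ Λ) {x : St} (h : Sh x)
    (h' : x.1 = 20 ∨ (x.1 ≤ 0 ∧ (x.2.2.1.2 = 0 ∨ 6 ≤ Y x))) : Conv Λ x := by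
  by_cases h2 : x.2.2.1.2 = 0
  · exact Quiet.conv hΛ ⟨h, h'.imp_right fun e => e.1, Or.inl h2⟩
  · obtain ⟨m, hm⟩ := exists_nat_ge (13 - Y x)
    exact stuck_aux hΛ m x h h2 (h'.imp_right fun e => ⟨e.1, e.2.resolve_left h2⟩) (by linarith)

lemma trap_top (hΛ : 2 ≤ Λ) {x : St} (h : Sh x) (h' : 21 / 4 ≤ x.1) : Conv Λ x := by
  refine (stuck hΛ (FF_sh' Λ h) (Or.inl ?_)).back
  change Fn x.1 _ _ = _
  rw [Fn_one _ (ww_top _ (by linarith)), TT_top _ h']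

lemma trap (hΛ : 2 ≤ Λ) {x : St} (h : Sh x) (h1 : 2 < x.1) (h2 : 9 / 16 ≤ ‖x.2.1‖ ^ 2) :
    Conv Λ x := by
  obtain ⟨c, hc⟩ : ∃ c, c = x.1 := ⟨_, rfl⟩
  have hc2 : 2 < c := hc ▸ h1
  have w0 : 0 < S (c - 2) := Real.smoothTransition.pos_of_pos (by linarith)
  have key : ∀ m : ℕ, ∀ x : St, Sh x → c ≤ x.1 → 9 / 16 ≤ ‖x.2.1‖ ^ 2 →
      21 / 4 - m * (14 * S (c - 2)) ≤ x.1 → Conv Λ x := by
    intro m
    induction m with
    | zero => exact fun x h _ _ h4 => trap_top hΛ h (by simpa using h4)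
    | succ m ih =>
      intro x h h1 h2 h4
      rcases le_total (21 / 4) x.1 with h5 | h5
      · exact trap_top hΛ h h5
      have w1 : S (c - 2) ≤ ww x.1 (Y x) := by
        have := Real.smoothTransition.monotone (show c - 2 ≤ x.1 - 2 by linarith)
        have h6 := mul_nonneg (sub_nonneg.2 (S_le (x.1 - 2))) (bp_nonneg 3 4 (26 / 5) 6 (Y x))
        unfold ww bP
        linarith
      have e : (FF Λ x).1 = x.1 + ww x.1 (Y x) * (20 - x.1) := by
        change Fn x.1 _ _ = _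
        unfold Fn
        rw [TT_good h2, ka_id (by linarith)]
        ring
      have e2 : (FF Λ x).2.1 = qq x.2.1 := Fz_q _ _ _ (by linarith) (Or.inl (by linarith))
      refine (ih _ (FF_sh' Λ h) (by rw [e]; nlinarith) (by rw [e2]; exact qq_good (by linarith))
        ?_).back
      push_cast at h4
      rw [e]
      nlinarith
  obtain ⟨m, hm⟩ := exists_nat_ge (21 / 4 / (14 * S (c - 2)))
  rw [div_le_iff₀ (by positivity)] at hm
  exact key m x h hc.le h2 (by linarith)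

/-- a good memory before the level window leads to the top -/
lemma good_pass (hΛ : 2 ≤ Λ) (m : ℕ) : ∀ x : St, Sh x → 9 / 16 ≤ ‖x.2.1‖ ^ 2 → 47 / 20 ≤ Y x →
    Y x ≤ 26 / 5 → 4 - m ≤ Y x → Conv Λ x := by
  induction m with
  | zero =>
    intro x h h1 _ h3 h4
    refine (stuck hΛ (FF_sh' Λ h) (Or.inl ?_)).back
    change Fn x.1 _ _ = _
    rw [Fn_one _ (ww_full _ (by simpa using h4) h3), TT_good h1]
  | succ m ih =>
    intro x h h1 h2 h3 h4
    rcases le_total 4 (Y x) with h5 | h5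
    · exact ih x h h1 h2 h3 (by linarith [(Nat.cast_nonneg m : (0 : ℝ) ≤ m)])
    rcases le_total (21 / 4) x.1 with h6 | h6
    · exact trap_top hΛ h h6
    have e2 : (FF Λ x).2.1 = qq x.2.1 := Fz_q _ _ _ (by linarith) (Or.inr ⟨h2, by
      change Y x ≤ _; linarith⟩)
    have s := st_mid (Λ := Λ) h (ne_of_Y (by linarith)) (by linarith) (by linarith)
    push_cast at h4
    exact (ih _ (FF_sh' Λ h) (by rw [e2]; exact qq_good (by linarith)) (by linarith [s.1])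
      (by linarith [s.2]) (by linarith [s.1])).back

end Vale.Agent.P103.DD
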