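import Vale.Agent.P103.D3

namespace Vale.Agent.P103.DD

open Filter Topology Real

lemma arctan_bd {x : ℝ} (h0 : 0 ≤ x) (h1 : x ≤ 1 / 10) :
    99 / 100 * x ≤ arctan x ∧ arctan x ≤ x := by
  have a0 : 0 ≤ arctan x := arctan_nonneg.2 h0
  have a1 := arctan_lt_pi_div_two x
  have h2 := le_tan a0 a1
  rw [tan_arctan] at h2
  refine ⟨?_, h2⟩
  have h3 := sin_le a0
  rw [sin_arctan, div_le_iff₀ (by positivity)] at h3
  have h4 : √(1 + x ^ 2) ≤ 101 / 100 := sqrt_le_iff.2 ⟨by norm_num, by nlinarith⟩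
  nlinarith

lemma loc {φ : ℝ} (h : tan φ ≠ 0) : ∃ m : ℤ, φ = arctan (tan φ) + m * π := by
  have hc : cos φ ≠ 0 := fun e => h (by rw [tan_eq_sin_div_cos, e, div_zero])
  have hc' := (cos_arctan_pos (tan φ)).ne'
  have h1 := tan_arctan (tan φ)
  have : sin (φ - arctan (tan φ)) = 0 := by
    generalize arctan (tan φ) = θ at *
    rw [tan_eq_sin_div_cos, tan_eq_sin_div_cos, div_eq_div_iff hc' hc] at h1
    rw [sin_sub]
    linarith
  obtain ⟨m, hm⟩ := sin_eq_zero_iff.1 this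
  exact ⟨m, by linarith⟩

lemma inv_loc {r lo hi ψ : ℝ} (hr : 0 < r) (h1 : arctan (r * lo) ≤ ψ) (h2 : ψ ≤ arctan (r * hi)) :
    lo ≤ tan ψ / r ∧ tan ψ / r ≤ hi := by
  have e := arctan_tan ((neg_pi_div_two_lt_arctan _).trans_le h1)
    (h2.trans_lt (arctan_lt_pi_div_two _))
  rw [← e, arctan_le_arctan_iff] at h1 h2
  rw [le_div_iff₀ hr, div_le_iff₀ hr]
  constructor <;> linarith

def Al (x d : ℂ) : Prop := ∃ c : ℝ, 0 ≤ c ∧ x = c • d

lemma Al.add {x y d : ℂ} (h : Al x d) (h' : Al y d) : Al (x + y) d := by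
  obtain ⟨c, hc, rfl⟩ := h
  obtain ⟨c', hc', rfl⟩ := h'
  exact ⟨c + c', by positivity, (add_smul _ _ _).symm⟩

lemma Al.smul {x d : ℂ} {t : ℝ} (h : t ≠ 0 → Al x d) (ht : 0 ≤ t) : Al (t • x) d := by
  by_cases h0 : t = 0
  · exact ⟨0, le_rfl, by simp [h0]⟩
  obtain ⟨c, hc, rfl⟩ := h h0
  exact ⟨t * c, by positivity, smul_smul _ _ _⟩

lemma Al.norm_add {x y d : ℂ} (h : Al x d) (h' : Al y d) : ‖x + y‖ = ‖x‖ + ‖y‖ := by
  obtain ⟨c, hc, rfl⟩ := h
  obtain ⟨c', hc', rfl⟩ := h'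
  rw [← add_smul, norm_smul, norm_smul, norm_smul, Real.norm_of_nonneg hc,
    Real.norm_of_nonneg hc', Real.norm_of_nonneg (by positivity)]
  ring

lemma Al.qq {x d : ℂ} (h : Al x d) : Al (qq x) (d ^ 2) := by
  obtain ⟨c, hc, rfl⟩ := h
  refine ⟨48 / (1 + 48 * ‖c • d‖ ^ 2) * c ^ 2, by positivity, ?_⟩
  unfold DD.qq
  rw [smul_pow, smul_smul]

lemma Al.sg {x d : ℂ} (h : Al x d) : Al (sg x) d := Al.smul (fun _ => h) (by positivity)

lemma Al.iter (z : ℂ) (k : ℕ) : Al (DD.qq^[k] z) (z ^ 2 ^ k) := by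
  induction k with
  | zero => exact ⟨1, zero_le_one, by simp⟩
  | succ k ih => rw [Function.iterate_succ_apply', pow_succ, pow_mul]; exact ih.qq

lemma qq_iter_ge {z : ℂ} (h : 1 / 16 ≤ ‖z‖ ^ 2) (k : ℕ) : 3 / 4 ≤ ‖qq^[k + 1] z‖ := by
  induction k with
  | zero => exact qq_ge h
  | succ k ih => rw [Function.iterate_succ_apply']; exact qq_ge (by nlinarith)

noncomputable def ph (n : ℝ) (v : ℝ × ℝ) : ℝ × ℝ := nrm (mob n v)

lemma ph_iter {r φ c : ℝ} (hr : 0 < r) (hc : c ≠ 0) (k : ℕ) : ∃ c' : ℝ, c' ≠ 0 ∧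
    (ph (r ^ 2))^[k] (c • (sin φ / r, cos φ)) =
      c' • (sin (φ + k * arctan r) / r, cos (φ + k * arctan r)) := by
  induction k with
  | zero => exact ⟨c, hc, by simp⟩
  | succ k ih =>
    obtain ⟨c', hc', e⟩ := ih
    rw [Function.iterate_succ_apply', e]
    have e2 : φ + (k + 1 : ℕ) * arctan r = φ + k * arctan r + arctan r := by push_cast; ring
    rw [e2]
    generalize φ + k * arctan r = ψ
    have hne : c' • ((sin ψ / r, cos ψ) : ℝ × ℝ) ≠ 0 := by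
      refine smul_ne_zero hc' fun e => ?_
      have h1 : sin ψ / r = 0 := congrArg Prod.fst e
      have h2 : cos ψ = 0 := congrArg Prod.snd e
      have h3 := sin_sq_add_cos_sq ψ
      rw [h2, (div_eq_zero_iff.1 h1).resolve_right hr.ne'] at h3
      norm_num at h3
    obtain ⟨t, ht, e3⟩ := nrm_pos (mob_ne (sq_nonneg r) hne)
    have hca := cos_arctan_pos r
    have hs : sin (arctan r) = r * cos (arctan r) := by
      have := tan_arctan r
      rw [tan_eq_sin_div_cos, div_eq_iff hca.ne'] at this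
      exact this
    refine ⟨t * c' / cos (arctan r), by positivity, ?_⟩
    unfold ph
    rw [e3, sin_add, cos_add, hs]
    ext <;> simp only [mob, Prod.smul_fst, Prod.smul_snd, smul_eq_mul] <;> field_simp

lemma ph_yy {r : ℝ} (hr : 0 < r) {v : ℝ × ℝ} (hv : v.2 ≠ 0) (k : ℕ) :
    yy ((ph (r ^ 2))^[k] v) = tan (arctan (r * yy v) + k * arctan r) / r := by
  have hca := cos_arctan_pos (r * yy v)
  have hs : sin (arctan (r * yy v)) = r * yy v * cos (arctan (r * yy v)) := by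
    have := tan_arctan (r * yy v)
    rw [tan_eq_sin_div_cos, div_eq_iff hca.ne'] at this
    exact this
  have e : v = (v.2 / cos (arctan (r * yy v))) •
      ((sin (arctan (r * yy v)) / r, cos (arctan (r * yy v))) : ℝ × ℝ) := by
    rw [hs]
    ext
    · simp only [Prod.smul_fst, smul_eq_mul]
      field_simp
      unfold yy
      field_simp
    · simp only [Prod.smul_snd, smul_eq_mul]
      field_simp
  obtain ⟨c', hc', e2⟩ := ph_iter (φ := arctan (r * yy v)) hr (div_ne_zero hv hca.ne') k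
  rw [← e] at e2
  rw [e2, tan_eq_sin_div_cos]
  simp only [yy, Prod.smul_fst, Prod.smul_snd, smul_eq_mul]
  rw [mul_div_mul_left _ _ hc']
  ring

lemma be_one {ν : ℝ} {v : ℝ × ℝ} {z : ℂ} (h0 : 0 ≤ ν) (h2 : ν ≤ 2) (hv : v.1 ^ 2 + v.2 ^ 2 = 1)
    (hz : ‖z‖ ≤ 1) : be (ν, v, z) = 1 := by
  unfold be
  simp only
  rw [hv, bp_one (by norm_num) (by norm_num) (by linarith) (by linarith),
    bp_one (by norm_num) (by norm_num) (by norm_num) (by norm_num),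
    S_one (by nlinarith [norm_nonneg z])]
  norm_num

lemma GG_iter {ν : ℝ} {v : ℝ × ℝ} {z : ℂ} (h0 : 0 ≤ ν) (h2 : ν ≤ 2) (hv : v.1 ^ 2 + v.2 ^ 2 = 1)
    (hz : ‖z‖ ≤ 1) (k : ℕ) : GG^[k] (ν, v, z) = (ν, (ph (nn ν))^[k] v, qq^[k] z) ∧
      ((ph (nn ν))^[k] v).1 ^ 2 + ((ph (nn ν))^[k] v).2 ^ 2 = 1 ∧ ‖qq^[k] z‖ ≤ 1 := by
  induction k with
  | zero => exact ⟨rfl, hv, hz⟩
  | succ k ih =>
    simp only [Function.iterate_succ_apply']
    refine ⟨?_, nrm_sq (mob_ne (nn_nonneg _) fun e => ?_), qq_le _⟩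
    · rw [ih.1, GG, be_one h0 h2 ih.2.1 ih.2.2, one_smul]
      rfl
    · have := ih.2.1
      rw [e] at this
      simp at this

lemma term_eq (Λ : ℝ) (b : ℝ → ℝ) {ν : ℝ} {v : ℝ × ℝ} {z : ℂ} (h0 : 0 ≤ ν) (h2 : ν ≤ 2)
    (hv : v.1 ^ 2 + v.2 ^ 2 = 1) (hz : ‖z‖ ≤ 1) (k : ℕ) : term Λ b k (ν, v, z) =
      (Λ ^ 2 / Λ ^ k * bp 1 4 16 25 (k ^ 2 * nn ν) * b (yy ((ph (nn ν))^[k] v))) • qq^[k + 1] z := by
  obtain ⟨e1, e2, e3⟩ := GG_iter h0 h2 hv hz k
  unfold term hh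
  rw [e1, be_one h0 h2 e2 e3, one_smul, smul_smul, Function.iterate_succ_apply']

end Vale.Agent.P103.DD
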