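import Vale.Agent.P103.D4

namespace Vale.Agent.P103.DD

open Filter Topology Real

structure Cy (x : St) (r : ℝ) : Prop where
  sh : Sh x
  n0 : 0 < x.1
  n2 : x.1 ≤ 2
  gd : 1 / 16 ≤ ‖x.2.1‖ ^ 2
  y0 : 6 ≤ Y x
  y1 : Y x ≤ 71 / 10
  r0 : 0 < r
  r1 : r ≤ 1 / 1000
  rn : r ^ 2 = nn x.1

noncomputable def an (x : St) (r : ℝ) (s : ℕ) : ℝ := arctan (r * Y x) + s * arctan r

noncomputable def Yv (x : St) (r : ℝ) (s : ℕ) : ℝ := tan (an x r s) / r

namespace Cy

variable {x : St} {r Λ : ℝ} (h : Cy x r)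
include h

lemma abd {y : ℝ} (h0 : 0 ≤ y) (h1 : y ≤ 20) :
    99 / 100 * (r * y) ≤ arctan (r * y) ∧ arctan (r * y) ≤ r * y :=
  arctan_bd (mul_nonneg h.r0.le h0) (by nlinarith [h.r0, h.r1])

lemma al : 99 / 100 * r ≤ arctan r ∧ arctan r ≤ r := arctan_bd h.r0.le (by linarith [h.r1])

lemma al0 : 0 < arctan r := by linarith [h.al.1, h.r0]

lemma amono {y y' : ℝ} (hy : y ≤ y') : arctan (r * y) ≤ arctan (r * y') :=
  arctan_le_arctan_iff.2 (mul_le_mul_of_nonneg_left hy h.r0.le)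

lemma amono' {y y' : ℝ} (hy : arctan (r * y) < arctan (r * y')) : y < y' :=
  lt_of_not_ge fun e => absurd (h.amono e) (not_le.2 hy)

lemma an_mono {s t : ℕ} (hs : s ≤ t) : an x r s ≤ an x r t := by
  unfold an
  have : (s : ℝ) ≤ t := by exact_mod_cast hs
  nlinarith [h.al0]

lemma an_lt {s t : ℕ} (hs : an x r s < an x r t) : s < t :=
  lt_of_not_ge fun e => absurd (h.an_mono e) (not_le.2 hs)

omit h in
lemma an_add (s k : ℕ) : an x r (s + k) = an x r s + k * arctan r := by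
  unfold an; push_cast; ring

lemma an_ge (s : ℕ) : arctan (r * 6) ≤ an x r s :=
  (h.amono h.y0).trans (by simpa [an] using h.an_mono (Nat.zero_le s))

lemma loc' {s : ℕ} (h0 : 0 < Yv x r s) : ∃ m : ℤ, an x r s = arctan (r * Yv x r s) + m * π := by
  have e : r * Yv x r s = tan (an x r s) := by
    unfold Yv; field_simp [h.r0.ne']
  rw [e]
  exact loc (by rw [← e]; exact (mul_pos h.r0 h0).ne')

lemma cls {s : ℕ} (hs : an x r s < π + arctan (r * (47 / 20))) (h0 : 0 < Yv x r s) :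
    (an x r s = arctan (r * Yv x r s) ∧ 6 ≤ Yv x r s) ∨
      (an x r s = π + arctan (r * Yv x r s) ∧ Yv x r s < 47 / 20) := by
  obtain ⟨m, hm⟩ := h.loc' h0
  have a1 := h.an_ge s
  have a2 := arctan_lt_pi_div_two (r * Yv x r s)
  have a3 := arctan_lt_pi_div_two (r * (47 / 20))
  have a4 : 0 ≤ arctan (r * Yv x r s) := arctan_nonneg.2 (mul_pos h.r0 h0).le
  have a5 : 0 ≤ arctan (r * 6) := arctan_nonneg.2 (by linarith [h.r0])
  have hp := pi_pos
  have m0 : (-1 : ℝ) < m := by nlinarith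
  have m1 : (m : ℝ) < 2 := by nlinarith
  have m0' : -1 < m := by exact_mod_cast m0
  have m1' : m < 2 := by exact_mod_cast m1
  interval_cases m
  · simp only [Int.cast_zero, zero_mul, add_zero] at hm
    refine Or.inl ⟨hm, ?_⟩
    rw [hm, arctan_le_arctan_iff] at a1
    exact le_of_mul_le_mul_left a1 h.r0
  · simp only [Int.cast_one, one_mul] at hm
    exact Or.inr ⟨by linarith, h.amono' (by linarith)⟩

lemma inv0 {s : ℕ} {lo hi : ℝ} (h1 : arctan (r * lo) ≤ an x r s) (h2 : an x r s ≤ arctan (r * hi)) :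
    lo ≤ Yv x r s ∧ Yv x r s ≤ hi := inv_loc h.r0 h1 h2

lemma inv1 {s : ℕ} {lo hi : ℝ} (h1 : π + arctan (r * lo) ≤ an x r s)
    (h2 : an x r s ≤ π + arctan (r * hi)) : lo ≤ Yv x r s ∧ Yv x r s ≤ hi := by
  have := inv_loc (lo := lo) (hi := hi) (ψ := an x r s - π) h.r0 (by linarith) (by linarith)
  rwa [tan_sub_pi] at this

lemma first {c : ℝ} (hc : an x r 0 < c) : ∃ s, c ≤ an x r s ∧ an x r s ≤ c + r ∧
    ∀ t < s, an x r t < c := by
  have ex : ∃ s, c ≤ an x r s := by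
    obtain ⟨s, hs⟩ := exists_nat_ge ((c - an x r 0) / arctan r)
    rw [div_le_iff₀ h.al0] at hs
    refine ⟨s, ?_⟩
    have := an_add (x := x) (r := r) 0 s
    rw [zero_add] at this
    linarith
  classical
  refine ⟨Nat.find ex, Nat.find_spec ex, ?_, fun t ht => not_le.1 (Nat.find_min ex ht)⟩
  have h0 : Nat.find ex ≠ 0 := fun e => by
    have := Nat.find_spec ex
    rw [e] at this
    linarith
  obtain ⟨t, ht⟩ := Nat.exists_eq_succ_of_ne_zero h0
  have h1 := not_le.1 (Nat.find_min ex (m := t) (by omega))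
  have h2 := an_add (x := x) (r := r) t 1
  rw [ht, Nat.succ_eq_add_one, h2]
  simp only [Nat.cast_one, one_mul]
  linarith [h.al.2]

lemma yv (s : ℕ) : yy ((ph (nn x.1))^[s] x.2.2.1) = Yv x r s := by
  rw [← h.rn]
  exact ph_yy h.r0 (ne_of_Y (by linarith [h.y0])) s

lemma base {s1 : ℕ} (hs1 : ∀ t < s1, an x r t < π + arctan (r * (47 / 20))) (s : ℕ) (hs : s ≤ s1) :
    Sh ((FF Λ)^[s] x) ∧ ((FF Λ)^[s] x).1 = x.1 ∧
      ((FF Λ)^[s] x).2.2.1 = (ph (nn x.1))^[s] x.2.2.1 := by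
  induction s with
  | zero => exact ⟨h.sh, rfl, rfl⟩
  | succ s ih =>
    obtain ⟨i1, i2, i3⟩ := ih (by omega)
    simp only [Function.iterate_succ_apply']
    refine ⟨FF_sh' Λ i1, ?_, ?_⟩
    · change Fn _ _ _ = _
      rw [i2, i3, h.yv, Fn_zero _ (ww_off h.n2 ?_), ka_id (by linarith [h.n0])]
      rcases le_or_gt (Yv x r s) 3 with h3 | h3
      · exact Or.inl h3
      · rcases h.cls (hs1 s (by omega)) (by linarith) with e | e
        · exact Or.inr e.2
        · linarith [e.2]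
    · change nrm (mob _ _) = _
      rw [i2, i3]
      rfl

lemma small {y : ℝ} (h0 : 0 ≤ y) (h1 : y ≤ 20) : arctan (r * y) ≤ 1 / 50 := by
  nlinarith [(h.abd h0 h1).2, h.r0, h.r1]

lemma early {s1 : ℕ} (hs1 : ∀ t < s1, an x r t < π + arctan (r * (47 / 20)))
    (hs1' : π ≤ an x r s1) (s : ℕ) (hs : an x r s ≤ arctan (r * 9)) :
    ((FF Λ)^[s] x).2.1 = qq^[s] x.2.1 := by
  induction s with
  | zero => rfl
  | succ s ih =>
    have h1 := (h.an_mono (Nat.le_succ s)).trans hs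
    have h2 : s < s1 := h.an_lt (by linarith [h.small (y := 9) (by norm_num) (by norm_num),
      pi_gt_three])
    obtain ⟨-, i2, i3⟩ := h.base (Λ := Λ) hs1 s h2.le
    have h3 := h.inv0 (h.an_ge s) h1
    simp only [Function.iterate_succ_apply']
    change Fz _ _ _ _ _ = _
    rw [i3, h.yv, Fz_q _ _ _ (by linarith [h.n2]) (Or.inr ⟨by linarith [h3.1], by
      linarith [h3.2]⟩), ih h1]

lemma phi_eval {b : ℝ → ℝ} {lo hi : ℝ} (hb : ∀ y, b y ≠ 0 → lo < y ∧ y < hi) (hlo : 1 ≤ lo)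
    (hhi : hi ≤ 47 / 20) (hd : hi ≤ 99 / 100 * lo + 99 / 100) {s k : ℕ} {v : ℝ × ℝ} {z : ℂ}
    (hv : v.1 ^ 2 + v.2 ^ 2 = 1) (hz : ‖z‖ ≤ 1) (hv' : v = (ph (nn x.1))^[s] x.2.2.1)
    (hs : an x r s ≤ arctan (r * 9)) (hk : an x r (s + k) = π + arctan (r * Yv x r (s + k)))
    (hk' : b (Yv x r (s + k)) ≠ 0) :
    Phi Λ b (x.1, v, z) = (Λ ^ 2 / Λ ^ k * b (Yv x r (s + k))) • qq^[k + 1] z := by
  have ey : ∀ j, yy ((ph (nn x.1))^[j] v) = Yv x r (s + j) := fun j => by
    rw [hv', ← Function.iterate_add_apply, add_comm, h.yv]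
  have p3 := pi_gt_three
  have p4 := pi_lt_d2
  have r0 := h.r0
  have a9 := h.small (y := 9) (by norm_num) (by norm_num)
  have a0 : 0 ≤ an x r s := le_trans (arctan_nonneg.2 (by linarith)) (h.an_ge s)
  have rng : ∀ j, b (Yv x r (s + j)) ≠ 0 → 99 / 100 * (r * lo) < arctan (r * Yv x r (s + j)) ∧
      arctan (r * Yv x r (s + j)) < r * hi ∧ arctan (r * Yv x r (s + j)) ≤ 1 / 50 := fun j hj => by
    obtain ⟨c1, c2⟩ := hb _ hj
    obtain ⟨c3, c4⟩ := h.abd (y := Yv x r (s + j)) (by linarith) (by linarith)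
    exact ⟨by nlinarith, by nlinarith, h.small (by linarith) (by linarith)⟩
  obtain ⟨al1, al2⟩ := h.al
  unfold Phi
  rw [tsum_eq_single k, term_eq Λ b h.n0.le h.n2 hv hz, ey, bp_one (by norm_num) (by norm_num),
    mul_one]
  · have e := an_add (x := x) (r := r) s k
    obtain ⟨c1, c2, c3⟩ := rng k hk'
    have c5 := mul_le_mul_of_nonneg_left al2 (Nat.cast_nonneg k : (0 : ℝ) ≤ k)
    have c6 := mul_pos r0 (by linarith : 0 < lo)
    have c4 : 2 ≤ k * r := by linarith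
    rw [← h.rn, ← mul_pow]
    nlinarith
  · have e := an_add (x := x) (r := r) s k
    obtain ⟨c1, c2, c3⟩ := rng k hk'
    have c5 := mul_le_mul_of_nonneg_left al1 (Nat.cast_nonneg k : (0 : ℝ) ≤ k)
    have c4 : k * r ≤ 4 := by linarith
    rw [← h.rn, ← mul_pow]
    nlinarith [mul_nonneg (Nat.cast_nonneg k : (0 : ℝ) ≤ k) r0.le]
  · intro j hj
    rw [term_eq Λ b h.n0.le h.n2 hv hz, ey]
    by_contra hc
    have c0 := left_ne_zero_of_smul hc
    have c1 := right_ne_zero_of_mul c0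
    obtain ⟨c2, c3⟩ := bp_supp (by norm_num) (by norm_num)
      (right_ne_zero_of_mul (left_ne_zero_of_mul c0))
    rw [← h.rn, ← mul_pow] at c2 c3
    have j0 : (0 : ℝ) ≤ j := Nat.cast_nonneg j
    have c4 : 1 < j * r := lt_of_pow_lt_pow_left₀ 2 (mul_nonneg j0 r0.le) (by linarith)
    have c5 : j * r < 5 := lt_of_pow_lt_pow_left₀ 2 (by norm_num) (by linarith)
    obtain ⟨d1, d2, d3⟩ := rng j c1
    obtain ⟨d4, d5, d6⟩ := rng k hk'
    obtain ⟨m, hm⟩ := h.loc' (s := s + j) (by linarith [(hb _ c1).1])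
    have e := an_add (x := x) (r := r) s j
    have e' := an_add (x := x) (r := r) s k
    have d7 : 0 < r * lo := mul_pos r0 (by linarith)
    have f1 : 99 / 100 ≤ j * arctan r := by linarith [mul_le_mul_of_nonneg_left al1 j0]
    have f2 : j * arctan r ≤ 5 := by linarith [mul_le_mul_of_nonneg_left al2 j0]
    have m0 : (0 : ℝ) < m := by
      by_contra hm0
      linarith [mul_le_mul_of_nonneg_right (not_lt.1 hm0) pi_pos.le]
    have m1 : (m : ℝ) < 2 := by
      by_contra hm0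
      linarith [mul_le_mul_of_nonneg_right (not_lt.1 hm0) pi_pos.le]
    have m0' : 0 < m := by exact_mod_cast m0
    have m1' : m < 2 := by exact_mod_cast m1
    have : m = 1 := by omega
    subst this
    simp only [Int.cast_one, one_mul] at hm
    have g1 : r * hi ≤ 99 / 100 * (r * lo) + arctan r := by
      linarith [mul_le_mul_of_nonneg_left hd r0.le]
    rcases lt_or_gt_of_ne hj with hl | hl
    · have : (j : ℝ) + 1 ≤ k := by exact_mod_cast hl
      linarith [mul_le_mul_of_nonneg_right this h.al0.le]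
    · have : (k : ℝ) + 1 ≤ j := by exact_mod_cast hl
      linarith [mul_le_mul_of_nonneg_right this h.al0.le]

end Cy

end Vale.Agent.P103.DD
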