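import Vale.Agent.P103.D5

namespace Vale.Agent.P103.DD

open Filter Topology Real

namespace Cy

variable {x : St} {r Λ : ℝ} (h : Cy x r)
include h

lemma slot (hΛ : 2 ≤ Λ) {b : ℝ → ℝ} {lo hi : ℝ} (hb : ∀ y, b y ≠ 0 → lo < y ∧ y < hi)
    (hb0 : ∀ y, 0 ≤ b y) (hlo : 1 ≤ lo) (hhi : hi ≤ 47 / 20) (hd : hi ≤ 99 / 100 * lo + 99 / 100)
    {s1 : ℕ} (hs1 : ∀ t < s1, an x r t < π + arctan (r * (47 / 20))) (hs1' : π ≤ an x r s1)
    {s0 : ℕ} (h0 : bC (Yv x r s0) = 1) {a : ℕ → ℂ}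
    (ha : ∀ s, a (s + 1) = Fa Λ b (((FF Λ)^[s] x).1, ((FF Λ)^[s] x).2.2.1, ((FF Λ)^[s] x).2.1)
      (a s)) {sA : ℕ} (hA : sA < s1) (hA' : b (Yv x r sA) ≠ 0) (s : ℕ) (hs0 : s0 ≤ s)
    (hs : s < sA) : Al (a (s + 1)) (x.2.1 ^ 2 ^ (sA + 1)) ∧
      (b (Yv x r sA) = 1 → min 1 (3 / 4 * Λ / Λ ^ (sA - (s + 1))) ≤ ‖a (s + 1)‖) := by
  have hL : 0 < Λ := by linarith
  have yA := hb _ hA'
  have eA : an x r sA = π + arctan (r * Yv x r sA) := by
    rcases h.cls (hs1 sA hA) (by linarith [yA.1]) with e | e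
    · linarith [e.2, yA.2]
    · exact e.1
  have cre : ∀ s < sA, bC (Yv x r s) ≠ 0 →
      Al (Phi Λ b (x.1, (ph (nn x.1))^[s] x.2.2.1, ((FF Λ)^[s] x).2.1)) (x.2.1 ^ 2 ^ (sA + 1)) ∧
      (b (Yv x r sA) = 1 → min 1 (3 / 4 * Λ / Λ ^ (sA - (s + 1))) ≤
        ‖Phi Λ b (x.1, (ph (nn x.1))^[s] x.2.2.1, ((FF Λ)^[s] x).2.1)‖) := by
    intro s hs hc
    obtain ⟨c1, c2⟩ := bp_supp (by norm_num) (by norm_num) hc
    have e1 : an x r s ≤ arctan (r * 9) := by
      rcases h.cls (hs1 s (by omega)) (by linarith) with e | e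
      · rw [e.1]; exact h.amono (by linarith)
      · linarith [e.2]
    have s0 : s ≠ 0 := by
      rintro rfl
      have := h.yv 0
      simp only [Function.iterate_zero, id] at this
      linarith [h.y1, show Y x = Yv x r 0 from this]
    obtain ⟨t, rfl⟩ := Nat.exists_eq_succ_of_ne_zero s0
    obtain ⟨k, rfl⟩ := Nat.exists_eq_add_of_lt hs
    have i := h.base (Λ := Λ) hs1 t.succ (by omega)
    have hv := i.1.2
    rw [i.2.2] at hv
    rw [h.early hs1 hs1' _ e1, h.phi_eval (s := t.succ) (k := k + 1) hb hlo hhi hd hv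
      (by rw [Function.iterate_succ_apply']; exact qq_le _) rfl e1 eA hA',
      ← Function.iterate_add_apply]
    have e2 : k + 1 + 1 + t.succ = t.succ + k + 1 + 1 := by omega
    rw [e2]
    refine ⟨Al.smul (fun _ => Al.iter _ _) (mul_nonneg (by positivity) (hb0 _)), fun e => ?_⟩
    rw [show t.succ + (k + 1) = t.succ + k + 1 from rfl, e, norm_smul,
      Real.norm_of_nonneg (by positivity), show t.succ + k + 1 - (t.succ + 1) = k by omega]
    refine (min_le_right _ _).trans ?_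
    have := qq_iter_ge h.gd (t.succ + k + 1)
    calc 3 / 4 * Λ / Λ ^ k = Λ ^ 2 / Λ ^ (k + 1) * 1 * (3 / 4) := by field_simp; ring
      _ ≤ _ := by gcongr
  have stp : ∀ s < sA, a (s + 1) = ((1 - bC (Yv x r s)) * (2 * Λ)) • sg (a s) + bC (Yv x r s) •
      Phi Λ b (x.1, (ph (nn x.1))^[s] x.2.2.1, ((FF Λ)^[s] x).2.1) := fun s hs => by
    obtain ⟨-, i2, i3⟩ := h.base (Λ := Λ) hs1 s (by omega)
    rw [ha, i2, i3]
    unfold Fa
    simp only [h.yv]
  induction s, hs0 using Nat.le_induction with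
  | base =>
    rw [stp _ hs, h0]
    simpa using cre _ hs (by rw [h0]; exact one_ne_zero)
  | succ s hs0 ih =>
    obtain ⟨i1, i2⟩ := ih (by omega)
    have c0 : 0 ≤ bC (Yv x r (s + 1)) := bp_nonneg _ _ _ _ _
    have c1 : bC (Yv x r (s + 1)) ≤ 1 := bp_le _ _ _ _ _
    have c2 : 0 ≤ (1 - bC (Yv x r (s + 1))) * (2 * Λ) := mul_nonneg (by linarith) (by linarith)
    have a1 := Al.smul (fun _ => i1.sg) c2
    have a2 := Al.smul (fun e => (cre _ hs e).1) c0
    rw [stp _ hs]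
    refine ⟨a1.add a2, fun e => ?_⟩
    rw [a1.norm_add a2, norm_smul, norm_smul, Real.norm_of_nonneg c2, Real.norm_of_nonneg c0]
    have b1 := sg_ge (by positivity) (min_le_left _ _) (i2 e)
    have b2 : min 1 (3 / 4 * Λ / Λ ^ (sA - (s + 1 + 1))) ≤
        Λ * min 1 (3 / 4 * Λ / Λ ^ (sA - (s + 1))) := by
      rw [mul_min_of_nonneg _ _ hL.le, show sA - (s + 1) = sA - (s + 1 + 1) + 1 by omega]
      refine min_le_min (by linarith) (le_of_eq ?_)
      field_simp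
      ring
    have b3 : bC (Yv x r (s + 1)) * min 1 (3 / 4 * Λ / Λ ^ (sA - (s + 1 + 1))) ≤
        bC (Yv x r (s + 1)) * ‖Phi Λ b (x.1, (ph (nn x.1))^[s + 1] x.2.2.1,
          ((FF Λ)^[s + 1] x).2.1)‖ := by
      by_cases e0 : bC (Yv x r (s + 1)) = 0
      · simp [e0]
      · exact mul_le_mul_of_nonneg_left ((cre _ hs e0).2 e) c0
    have b4 : min 1 (3 / 4 * Λ / Λ ^ (sA - (s + 1 + 1))) ≤ 2 * Λ * ‖sg (a (s + 1))‖ := by
      nlinarith
    nlinarith [mul_le_mul_of_nonneg_left b4 (sub_nonneg.2 c1)]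

theorem conv (hΛ : 2 ≤ Λ) : Conv Λ x := by
  have r0 := h.r0
  have p3 := pi_gt_three
  have e0 : an x r 0 = arctan (r * Y x) := by simp [an]
  have a0 : an x r 0 ≤ arctan (r * (71 / 10)) := e0 ▸ h.amono h.y1
  have a1 := h.small (y := 71 / 10) (by norm_num) (by norm_num)
  have nn1 : ∀ y : ℝ, 0 ≤ y → 0 ≤ arctan (r * y) := fun y hy => arctan_nonneg.2 (by positivity)
  obtain ⟨s1, u1, u2, hs1⟩ := h.first (c := π + arctan (r * (47 / 20)))
    (by linarith [nn1 (47 / 20) (by norm_num)])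
  have hs1' : π ≤ an x r s1 := by linarith [nn1 (47 / 20) (by norm_num)]
  obtain ⟨s0, v1, v2, -⟩ := h.first (c := arctan (r * (36 / 5)))
    (a0.trans_lt (arctan_lt_arctan_iff.2 (by linarith)))
  obtain ⟨s2, w1, w2, -⟩ := h.first (c := π + arctan (r * (11 / 10)))
    (by linarith [nn1 (11 / 10) (by norm_num)])
  have v3 : an x r s0 ≤ arctan (r * (42 / 5)) := by
    linarith [(h.abd (y := 36 / 5) (by norm_num) (by norm_num)).2,
      (h.abd (y := 42 / 5) (by norm_num) (by norm_num)).1]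
  have v4 := h.inv0 v1 v3
  have h0 : bC (Yv x r s0) = 1 := bp_one (by norm_num) (by norm_num) v4.1 v4.2
  have v5 := h.small (y := 42 / 5) (by norm_num) (by norm_num)
  have w3 : an x r s2 ≤ π + arctan (r * (23 / 10)) := by
    linarith [(h.abd (y := 11 / 10) (by norm_num) (by norm_num)).2,
      (h.abd (y := 23 / 10) (by norm_num) (by norm_num)).1]
  have w4 := h.inv1 w1 w3
  have w5 : s2 < s1 := h.an_lt (w3.trans_lt (lt_of_lt_of_le
    (by linarith [arctan_lt_arctan_iff.2 (show r * (23 / 10) < r * (47 / 20) by linarith)]) u1))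
  have u3 : an x r s1 ≤ π + arctan (r * 5) := by
    linarith [(h.abd (y := 47 / 20) (by norm_num) (by norm_num)).2,
      (h.abd (y := 5) (by norm_num) (by norm_num)).1]
  have u4 := h.inv1 u1 u3
  have rd : ∀ {b : ℝ → ℝ} {lo hi : ℝ}, (∀ y, b y ≠ 0 → lo < y ∧ y < hi) → (∀ y, 0 ≤ b y) →
      1 ≤ lo → hi ≤ 47 / 20 → hi ≤ 99 / 100 * lo + 99 / 100 → ∀ {a : ℕ → ℂ},
      (∀ s, a (s + 1) = Fa Λ b (((FF Λ)^[s] x).1, ((FF Λ)^[s] x).2.2.1, ((FF Λ)^[s] x).2.1)
        (a s)) → ∀ s < s1, b (Yv x r s) ≠ 0 → Al (sg (a s)) (x.2.1 ^ 2 ^ (s + 1)) ∧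
        (b (Yv x r s) = 1 → 1 / 2 ≤ ‖sg (a s)‖) := by
    intro b lo hi hb hb0 hlo hhi hd a ha s hs hs'
    have yA := hb _ hs'
    have h1 : s0 < s := by
      refine h.an_lt ?_
      rcases h.cls (hs1 s hs) (by linarith [yA.1]) with e | e
      · linarith [e.2, yA.2]
      · linarith [e.1, nn1 (Yv x r s) (by linarith [yA.1])]
    obtain ⟨t, rfl⟩ : ∃ t, s = t + 1 := ⟨s - 1, by omega⟩
    obtain ⟨k1, k2⟩ := h.slot hΛ hb hb0 hlo hhi hd hs1 hs1' h0 ha hs hs' t (by omega) (by omega)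
    refine ⟨k1.sg, fun e => sg_ge zero_le_one le_rfl (le_trans ?_ (k2 e))⟩
    simp only [Nat.sub_self, pow_zero, div_one, le_min_iff, le_refl, true_and]
    linarith
  have rA := rd (b := bA) (lo := 21 / 20) (hi := 7 / 4)
    (fun y hy => bp_supp (by norm_num) (by norm_num) hy) (bp_nonneg _ _ _ _) (by norm_num)
    (by norm_num) (by norm_num) (a := fun s => ((FF Λ)^[s] x).2.2.2.1)
    fun s => by rw [Function.iterate_succ_apply']; rfl
  have rB := rd (b := bB) (lo := 33 / 20) (hi := 47 / 20)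
    (fun y hy => bp_supp (by norm_num) (by norm_num) hy) (bp_nonneg _ _ _ _) (by norm_num)
    (by norm_num) (by norm_num) (a := fun s => ((FF Λ)^[s] x).2.2.2.2)
    fun s => by rw [Function.iterate_succ_apply']; rfl
  have key : ∀ s ≤ s1, Al ((FF Λ)^[s] x).2.1 (x.2.1 ^ 2 ^ s) ∧
      (1 ≤ x.1 → 1 / 16 ≤ ‖((FF Λ)^[s] x).2.1‖ ^ 2) ∧
      (s2 < s → 9 / 16 ≤ ‖((FF Λ)^[s] x).2.1‖ ^ 2) := by
    intro s hs
    induction s with
    | zero => exact ⟨⟨1, zero_le_one, by simp⟩, fun _ => h.gd, fun e => absurd e (by omega)⟩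
    | succ s ih =>
      obtain ⟨i1, i2, i3⟩ := ih (by omega)
      obtain ⟨-, j2, j3⟩ := h.base (Λ := Λ) hs1 s (by omega)
      have e : ((FF Λ)^[s + 1] x).2.1 = dmp x.1 (Yv x r s) • qq ((FF Λ)^[s] x).2.1 +
          ((1 - S (x.1 - 1)) * (2 * bA (Yv x r s))) • sg ((FF Λ)^[s] x).2.2.2.1 +
          ((1 - S (x.1 - 1)) * (2 * bB (Yv x r s))) • sg ((FF Λ)^[s] x).2.2.2.2 := by
        rw [Function.iterate_succ_apply', ← h.yv, ← j3, ← j2]
        rfl
      have q0 : 0 ≤ 1 - S (x.1 - 1) := sub_nonneg.2 (S_le _)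
      have cA : 0 ≤ (1 - S (x.1 - 1)) * (2 * bA (Yv x r s)) :=
        mul_nonneg q0 (mul_nonneg zero_le_two (bp_nonneg _ _ _ _ _))
      have cB : 0 ≤ (1 - S (x.1 - 1)) * (2 * bB (Yv x r s)) :=
        mul_nonneg q0 (mul_nonneg zero_le_two (bp_nonneg _ _ _ _ _))
      have a1 : Al (dmp x.1 (Yv x r s) • qq ((FF Λ)^[s] x).2.1) (x.2.1 ^ 2 ^ (s + 1)) :=
        Al.smul (fun _ => by rw [pow_succ, pow_mul]; exact i1.qq) (dmp01 _ _).1
      have a2 := Al.smul (fun e => (rA s (by omega)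
        (right_ne_zero_of_mul (right_ne_zero_of_mul e))).1) cA
      have a3 := Al.smul (fun e => (rB s (by omega)
        (right_ne_zero_of_mul (right_ne_zero_of_mul e))).1) cB
      have nz := (a1.add a2).norm_add a3
      rw [a1.norm_add a2, ← e] at nz
      have g1 : dmp x.1 (Yv x r s) = 1 → 1 / 16 ≤ ‖((FF Λ)^[s] x).2.1‖ ^ 2 →
          9 / 16 ≤ ‖((FF Λ)^[s + 1] x).2.1‖ ^ 2 := fun e1 e2 => by
        rw [e1, one_smul] at nz
        have : 3 / 4 ≤ ‖((FF Λ)^[s + 1] x).2.1‖ := by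
          rw [nz]
          exact le_add_of_le_of_nonneg (le_add_of_le_of_nonneg (qq_ge e2) (norm_nonneg _))
            (norm_nonneg _)
        nlinarith
      have g2 : 1 ≤ x.1 → 9 / 16 ≤ ‖((FF Λ)^[s + 1] x).2.1‖ ^ 2 := fun e1 =>
        g1 (dmp_one (by linarith [h.n2]) (Or.inl e1)) (i2 e1)
      refine ⟨e ▸ (a1.add a2).add a3, fun e1 => by linarith [g2 e1], fun e1 => ?_⟩
      rcases Nat.lt_succ_iff_lt_or_eq.1 e1 with e2 | rfl
      · have y1 := h.inv1 (w1.trans (h.an_mono e2.le)) (hs1 s (by omega)).le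
        exact g1 (dmp_one (by linarith [h.n2]) (Or.inr ⟨by linarith [y1.1], by linarith [y1.2]⟩))
          (by linarith [i3 e2])
      · rcases le_total 1 x.1 with e3 | e3
        · exact g2 e3
        have : 1 ≤ ‖((FF Λ)^[s2 + 1] x).2.1‖ := by
          rw [nz, norm_smul (_ * _), norm_smul (_ * _), Real.norm_of_nonneg cA,
            Real.norm_of_nonneg cB, S_zero (by linarith)]
          have n1 := norm_nonneg (dmp x.1 (Yv x r s2) • qq ((FF Λ)^[s2] x).2.1)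
          have n2 := mul_nonneg (bp_nonneg (21 / 20) (11 / 10) (17 / 10) (7 / 4) (Yv x r s2))
            (norm_nonneg (sg ((FF Λ)^[s2] x).2.2.2.1))
          have n3 := mul_nonneg (bp_nonneg (33 / 20) (17 / 10) (23 / 10) (47 / 20) (Yv x r s2))
            (norm_nonneg (sg ((FF Λ)^[s2] x).2.2.2.2))
          rcases le_total (Yv x r s2) (17 / 10) with e4 | e4
          · have b1 : bA (Yv x r s2) = 1 := bp_one (by norm_num) (by norm_num) w4.1 e4
            have := (rA s2 w5 (by rw [b1]; exact one_ne_zero)).2 b1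
            rw [b1]
            unfold bB
            linarith
          · have b1 : bB (Yv x r s2) = 1 := bp_one (by norm_num) (by norm_num) e4 w4.2
            have := (rB s2 w5 (by rw [b1]; exact one_ne_zero)).2 b1
            rw [b1]
            unfold bA
            linarith
        nlinarith
  obtain ⟨j1, -, j3⟩ := h.base (Λ := Λ) hs1 s1 le_rfl
  have ey : Y ((FF Λ)^[s1] x) = Yv x r s1 := by unfold Y; rw [j3, h.yv]
  exact (good_pass hΛ 2 _ j1 ((key s1 le_rfl).2.2 w5) (by linarith [u4.1]) (by linarith [u4.2])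
    (by push_cast; linarith [u4.1])).back' s1

end Cy

end Vale.Agent.P103.DD
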