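import Vale.Agent.P103.D6

namespace Vale.Agent.P103.DD

open Filter Topology Real

variable {Λ : ℝ} (hΛ : 2 ≤ Λ)
include hΛ

omit hΛ in
lemma nn_pos' {ν : ℝ} (h0 : 0 < ν) (h1 : ν < 4) : 0 < nn ν := by
  unfold nn
  have := Real.smoothTransition.pos_of_pos h0
  have := Real.smoothTransition.pos_of_pos (sub_pos.2 h1)
  positivity

lemma cyc {x : St} (h : Sh x) (n2 : x.1 ≤ 2) (gd : 1 / 16 ≤ ‖x.2.1‖ ^ 2) (y0 : 6 ≤ Y x)
    (y1 : Y x ≤ 71 / 10) : Conv Λ x := by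
  rcases le_or_gt x.1 0 with n0 | n0
  · exact stuck hΛ h (Or.inr ⟨n0, Or.inr y0⟩)
  have p := nn_pos' n0 (by linarith)
  exact Cy.conv (r := √(nn x.1)) ⟨h, n0, n2, gd, y0, y1, sqrt_pos.2 p,
    sqrt_le_iff.2 ⟨by norm_num, (nn_le _).trans (by norm_num)⟩, sq_sqrt p.le⟩ hΛ

lemma L2 (m : ℕ) : ∀ x : St, Sh x → x.1 ≤ 2 → 1 / 16 ≤ ‖x.2.1‖ ^ 2 → 3 ≤ Y x → Y x ≤ 71 / 10 →
    6 - m ≤ Y x → Conv Λ x := by
  induction m with
  | zero => exact fun x h n2 gd _ y1 y2 => cyc hΛ h n2 gd (by simpa using y2) y1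
  | succ m ih =>
    intro x h n2 gd y0 y1 y2
    rcases le_total 6 (Y x) with h5 | h5
    · exact cyc hΛ h n2 gd h5 y1
    have e2 : (FF Λ x).2.1 = qq x.2.1 := Fz_q _ _ _ (by linarith) (Or.inr ⟨by
      change _ ≤ Y x; linarith, by change Y x ≤ _; linarith⟩)
    have g := qq_good gd
    rw [← e2] at g
    have s := st_mid (Λ := Λ) h (ne_of_Y (by linarith)) (by linarith) (by linarith)
    push_cast at y2
    rcases le_or_gt (FF Λ x).1 2 with h6 | h6
    · exact (ih _ (FF_sh' Λ h) h6 (by linarith) (by linarith [s.1]) (by linarith [s.2])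
        (by linarith [s.1])).back
    · exact (trap hΛ (FF_sh' Λ h) h6 g).back

lemma L3 (m : ℕ) : ∀ x : St, Sh x → x.1 ≤ 0 → 3 ≤ Y x → Y x ≤ 71 / 10 → 6 - m ≤ Y x →
    Conv Λ x := by
  induction m with
  | zero => exact fun x h n0 _ _ y2 => stuck hΛ h (Or.inr ⟨n0, Or.inr (by simpa using y2)⟩)
  | succ m ih =>
    intro x h n0 y0 y1 y2
    rcases le_total 6 (Y x) with h5 | h5
    · exact stuck hΛ h (Or.inr ⟨n0, Or.inr h5⟩)
    rcases le_total (1 / 16) (‖x.2.1‖ ^ 2) with gd | gd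
    · exact L2 hΛ 3 x h (by linarith) gd y0 y1 (by push_cast; linarith)
    have s := st_mid (Λ := Λ) h (ne_of_Y (by linarith)) (by linarith) (by linarith)
    push_cast at y2
    exact (ih _ (FF_sh' Λ h) (Fn_bad _ gd n0 (by norm_num) (by norm_num)) (by linarith [s.1])
      (by linarith [s.2]) (by linarith [s.1])).back

lemma L1 {x : St} (h : Sh x) (y0 : 4 ≤ Y x) (y1 : Y x ≤ 26 / 5) : Conv Λ x := by
  rcases le_total (21 / 4) x.1 with h6 | h6
  · exact trap_top hΛ h h6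
  have s := st_mid (Λ := Λ) h (ne_of_Y (by linarith)) (by linarith) (by linarith)
  rcases le_total (1 / 16) (‖x.2.1‖ ^ 2) with gd | gd
  · have e2 : (FF Λ x).2.1 = qq x.2.1 := Fz_q _ _ _ (by linarith) (Or.inr ⟨by
      change _ ≤ Y x; linarith, by change Y x ≤ _; linarith⟩)
    have g := qq_good gd
    rw [← e2] at g
    rcases le_or_gt (FF Λ x).1 2 with h7 | h7
    · exact (L2 hΛ 3 _ (FF_sh' Λ h) h7 (by linarith) (by linarith [s.1]) (by linarith [s.2])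
        (by push_cast; linarith [s.1])).back
    · exact (trap hΛ (FF_sh' Λ h) h7 g).back
  · have h7 : x.1 ≤ 19 / 4 := by nlinarith [h.1]
    have e : (FF Λ x).1 = -10 := by
      change Fn _ _ _ = _
      rw [Fn_one _ (ww_full _ y0 y1), TT_bad gd h7]
    exact (L3 hΛ 3 _ (FF_sh' Λ h) (by linarith) (by linarith [s.1]) (by linarith [s.2])
      (by push_cast; linarith [s.1])).back

lemma L4 {x : St} (h : Sh x) (h2 : x.2.2.1.2 ≠ 0) (y1 : Y x ≤ 26 / 5) : Conv Λ x := by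
  have key : ∀ m : ℕ, ∀ x : St, Sh x → x.2.2.1.2 ≠ 0 → Y x ≤ 26 / 5 → 4 - m / 2 ≤ Y x →
      Conv Λ x := by
    intro m
    induction m with
    | zero => exact fun x h _ y1 y2 => L1 hΛ h (by simpa using y2) y1
    | succ m ih =>
      intro x h h2 y1 y2
      push_cast at y2
      rcases le_total 4 (Y x) with h5 | h5
      · exact L1 hΛ h h5 y1
      rcases le_total 0 (Y x) with h6 | h6
      · have s := st_mid (Λ := Λ) h h2 h6 (by linarith)
        exact (ih _ (FF_sh' Λ h) (ne_of_Y (by linarith [s.1])) (by linarith [s.2])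
          (by linarith [s.1])).back
      · have s := st_neg (Λ := Λ) h h2 h6
        exact (ih _ (FF_sh' Λ h) s.1 (by linarith [s.2.2]) (by linarith [s.2.1])).back
  obtain ⟨m, hm⟩ := exists_nat_ge (2 * (4 - Y x))
  exact key m x h h2 y1 (by linarith)

lemma wrap {P : St → Prop} {n θ : ℝ} (hn : 0 < n) (hθ : 0 ≤ θ)
    (hP : ∀ x, Sh x → P x → θ ≤ Y x ∨ x.2.2.1.2 = 0 → nn x.1 = n ∧ (Conv Λ (FF Λ x) ∨ P (FF Λ x)))
    {x : St} (h : Sh x) (hx : P x) (hy : θ ≤ Y x ∨ x.2.2.1.2 = 0) : Conv Λ x := by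
  have z0 : ∀ x, Sh x → P x → x.2.2.1.2 = 0 → Conv Λ x := fun x h hx h2 => by
    have e := (hP x h hx (Or.inr h2)).1
    have s := ph0 (Λ := Λ) h h2
    rw [e] at s
    refine (L4 hΛ (FF_sh' Λ h) (fun e => hn.ne' (s.2.1 e)) ?_).back
    rw [s.1]
    linarith [div_neg_of_neg_of_pos (by norm_num : (-1 : ℝ) < 0) hn]
  have key : ∀ m : ℕ, ∀ x : St, Sh x → P x → x.2.2.1.2 ≠ 0 → θ ≤ Y x → 1 / n - m < Y x →
      Conv Λ x := by
    intro m
    have neg : ∀ x : St, Sh x → P x → x.2.2.1.2 ≠ 0 → θ ≤ Y x → 1 - n * Y x < 0 → Conv Λ x := by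
      intro x h hx h2 y0 y1
      have e := (hP x h hx (Or.inl y0)).1
      have s := ph1 (Λ := Λ) h h2
      rw [e] at s
      refine (L4 hΛ (FF_sh' Λ h) (fun e => y1.ne (s.2.1 e)) ?_).back
      rw [s.1]
      linarith [div_neg_of_pos_of_neg (by linarith : 0 < Y x + 1) y1]
    induction m with
    | zero =>
      intro x h hx h2 y0 y1
      refine neg x h hx h2 y0 ?_
      rw [Nat.cast_zero, sub_zero, div_lt_iff₀ hn] at y1
      linarith
    | succ m ih =>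
      intro x h hx h2 y0 y1
      obtain ⟨e, c | c⟩ := hP x h hx (Or.inl y0)
      · exact c.back
      rcases lt_trichotomy (1 - n * Y x) 0 with t | t | t
      · exact neg x h hx h2 y0 t
      · exact (z0 _ (FF_sh' Λ h) c ((ph1 h h2).2.2 (by rw [e]; exact t))).back
      · have s := st_pos (Λ := Λ) h h2 (by linarith) (by rw [e]; exact t)
        push_cast at y1
        exact (ih _ (FF_sh' Λ h) c (ne_of_Y (by linarith)) (by linarith) (by linarith)).back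
  by_cases h2 : x.2.2.1.2 = 0
  · exact z0 x h hx h2
  · obtain ⟨m, hm⟩ := exists_nat_gt (1 / n - Y x)
    exact key m x h hx h2 (hy.resolve_right h2) (by linarith)

lemma LA {x : St} (h : Sh x) (n2 : x.1 ≤ 2) (hy : 6 ≤ Y x ∨ x.2.2.1.2 = 0) : Conv Λ x := by
  rcases le_or_gt x.1 0 with n0 | n0
  · exact stuck hΛ h (Or.inr ⟨n0, hy.symm⟩)
  refine wrap hΛ (P := fun u => u.1 = x.1) (θ := 6) (nn_pos' n0 (by linarith)) (by norm_num)
    (fun u hu e hy => ⟨by rw [e], Or.inr ?_⟩) h rfl hy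
  change Fn _ _ _ = _
  rw [Fn_zero _ (ww_off (by linarith) (hy.symm.imp (fun e => by
    rw [Y_of_eq e]; norm_num) id)), ka_id (by linarith), e]

lemma low {x : St} (h : Sh x) (n2 : x.1 ≤ 2) : Conv Λ x := by
  by_cases h2 : x.2.2.1.2 = 0
  · exact LA hΛ h n2 (Or.inr h2)
  rcases le_total (Y x) (26 / 5) with y0 | y0
  · exact L4 hΛ h h2 y0
  rcases le_total 6 (Y x) with y1 | y1
  · exact LA hΛ h n2 (Or.inl y1)
  rcases le_total (1 / 16) (‖x.2.1‖ ^ 2) with gd | gd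
  · exact L2 hΛ 3 x h n2 gd (by linarith) (by linarith) (by push_cast; linarith)
  have s := st_mid (Λ := Λ) h h2 (by linarith) (by linarith)
  exact (LA hΛ (FF_sh' Λ h) (Fn_bad _ gd n2 (by norm_num) (by norm_num))
    (Or.inl (by linarith [s.1]))).back

lemma hi_good {x : St} (h : Sh x) (n2 : 2 ≤ x.1) (n7 : x.1 ≤ 7) (gd : 1 / 16 ≤ ‖x.2.1‖ ^ 2) :
    Conv Λ (FF Λ x) := by
  have e2 : (FF Λ x).2.1 = qq x.2.1 := Fz_q _ _ _ n7 (Or.inl n2)
  rcases le_or_gt (FF Λ x).1 2 with h7 | h7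
  · exact low hΛ (FF_sh' Λ h) h7
  · exact trap hΛ (FF_sh' Λ h) h7 (e2 ▸ qq_good gd)

lemma all_conv {x : St} (h : Sh x) : Conv Λ x := by
  rcases le_total x.1 2 with n2 | n2
  · exact low hΛ h n2
  rcases le_total (21 / 4) x.1 with h6 | h6
  · exact trap_top hΛ h h6
  rcases le_total (1 / 16) (‖x.2.1‖ ^ 2) with gd | gd
  · exact (hi_good hΛ h n2 (by linarith) gd).back
  have h7 : x.1 ≤ 19 / 4 := by nlinarith [h.1]
  rcases le_total 3 x.1 with n3 | n3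
  · refine (low hΛ (FF_sh' Λ h) ?_).back
    change Fn _ _ _ ≤ _
    rw [Fn_one _ (ww_top _ n3), TT_bad gd h7]
    norm_num
  by_cases hy : x.2.2.1.2 ≠ 0 ∧ Y x ≤ 26 / 5
  · exact L4 hΛ h hy.1 hy.2
  refine wrap hΛ (P := fun u => 2 ≤ u.1 ∧ u.1 ≤ 3) (θ := 5) (n := 1 / 10 ^ 6) (by norm_num)
    (by norm_num) (fun u hu e _ => ⟨?_, ?_⟩) h ⟨n2, n3⟩ ?_
  · unfold nn
    rw [S_one (by linarith [e.1]), S_one (by linarith [e.2])]
    norm_num
  · rcases le_total (1 / 16) (‖u.2.1‖ ^ 2) with gd | gd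
    · exact Or.inl (hi_good hΛ hu e.1 (by linarith [e.2]) gd)
    rcases le_total (FF Λ u).1 2 with c | c
    · exact Or.inl (low hΛ (FF_sh' Λ hu) c)
    · exact Or.inr ⟨c, Fn_bad _ gd e.2 (by norm_num) (by norm_num)⟩
  · by_cases h2 : x.2.2.1.2 = 0
    · exact Or.inr h2
    · exact Or.inl (by linarith [not_le.1 fun e => hy ⟨h2, e⟩])

end Vale.Agent.P103.DD

namespace Vale.Agent.P103

open DD in
theorem dStmt : DStmt := by
  obtain ⟨Λ, hΛ, h⟩ := Phi_cd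
  obtain ⟨a1, H1, a2⟩ := h (21 / 20) (11 / 10) (17 / 10) (7 / 4) (by norm_num) (by norm_num)
    (by norm_num)
  obtain ⟨b1, H2, b2⟩ := h (33 / 20) (17 / 10) (23 / 10) (47 / 20) (by norm_num) (by norm_num)
    (by norm_num)
  exact ⟨FF Λ, 20 + 2 * Λ + max H1 H2, FF_cd a1 b1, fun x hx => ⟨(FF_sh Λ hx).1, (FF_sh Λ hx).2,
    FF_bd hΛ (fun x => (a2 x).trans (le_max_left _ _)) (fun x => (b2 x).trans (le_max_right _ _))
      hx⟩, fun x hx => all_conv hΛ hx, FF_sph Λ⟩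

end Vale.Agent.P103
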