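import Vale.Agent.P103.Spec

/-! Zero entropy when all orbits slow down. -/

namespace Vale.Agent.P103

open Filter Topology Finset

namespace EE
variable {X : Type} [MetricSpace X] (f : X → X)

/-- the length of a step -/
def stp (x : X) (j : ℕ) : ℝ := dist (f^[j + 1] x) (f^[j] x)

theorem avg [CompactSpace X] (hf : Continuous f) (h : ∀ x, Tendsto (stp f x) atTop (𝓝 0))
    {κ : ℝ} (hκ : 0 < κ) : ∃ A : ℝ, ∀ n x, ∑ j ∈ range n, stp f x j ≤ κ * n + A := by
  obtain ⟨D, hD⟩ := Metric.isBounded_iff.1 (isCompact_univ (X := X)).isBounded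
  obtain ⟨t, ht⟩ := (isCompact_univ (X := X)).elim_finite_subcover
    (fun n : ℕ => {x | ∑ j ∈ range n, stp f x j < κ * n})
    (fun n => isOpen_lt (continuous_finsetSum _ fun j _ => by unfold stp; fun_prop) continuous_const)
    fun x _ => by
      obtain ⟨n, h1, h2⟩ := (((h x).cesaro.eventually (gt_mem_nhds hκ)).and
        (eventually_gt_atTop 0)).exists
      refine Set.mem_iUnion.2 ⟨n, ?_⟩
      have : (0 : ℝ) < n := by exact_mod_cast h2
      rwa [inv_mul_lt_iff₀ this, mul_comm] at h1
  refine ⟨(t.sup id : ℕ) * max D 0, fun n => ?_⟩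
  induction n using Nat.strong_induction_on with
  | _ n ih =>
    intro x
    obtain ⟨k, hk, hx⟩ := Set.mem_iUnion₂.1 (ht (Set.mem_univ x))
    have hx : ∑ j ∈ range k, stp f x j < κ * k := hx
    have k0 : k ≠ 0 := by rintro rfl; simp at hx
    by_cases hn : n ≤ k
    · have h1 : (n : ℝ) ≤ (t.sup id : ℕ) := by exact_mod_cast hn.trans (le_sup (f := id) hk)
      have h2 := sum_le_card_nsmul (range n) (stp f x) (max D 0) fun j _ =>
        (hD (Set.mem_univ _) (Set.mem_univ _)).trans (le_max_left _ _)
      rw [card_range, nsmul_eq_mul] at h2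
      have := mul_le_mul_of_nonneg_right h1 (le_max_right D 0)
      have : 0 ≤ κ * n := by positivity
      linarith
    · obtain ⟨m, rfl⟩ : ∃ m, n = k + m := ⟨n - k, by omega⟩
      have h1 := ih m (by omega) (f^[k] x)
      have h2 : ∀ j, stp f x (k + j) = stp f (f^[k] x) j := fun j => by
        simp only [stp, ← Function.iterate_add_apply]; congr 2 <;> omega
      rw [sum_range_add]
      simp only [h2]
      push_cast
      linarith

variable (nr : X → X) (ε : ℝ)

open Classical in
/-- the current centre -/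
noncomputable def cen (x : X) : ℕ → X
  | 0 => nr x
  | j + 1 => if dist (f^[j + 1] x) (cen x j) < 2 * ε then cen x j else nr (f^[j + 1] x)

open Classical in
/-- the code -/
noncomputable def cod (x : X) (j : ℕ) : Option X :=
  if dist (f^[j + 1] x) (cen f nr ε x j) < 2 * ε then none else some (nr (f^[j + 1] x))

/-- indicator of a change -/
def ind (o : Option X) : ℝ := o.elim 0 fun _ => 1

variable {nr ε} (h : ∀ x, dist x (nr x) < ε)
include h

theorem cen_lt (x : X) (j : ℕ) : dist (f^[j] x) (cen f nr ε x j) < 2 * ε := by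
  have h0 : ∀ y, dist y (nr y) < 2 * ε := fun y => by linarith [h y, dist_nonneg (x := y) (y := nr y)]
  cases j with
  | zero => exact h0 x
  | succ j => rw [cen]; split_ifs with h1; exacts [h1, h0 _]

theorem pot (x : X) (n : ℕ) : ε * ∑ j ∈ range n, ind (cod f nr ε x j) +
    dist (f^[n] x) (cen f nr ε x n) ≤ ε + ∑ j ∈ range n, stp f x j := by
  induction n with
  | zero => simpa [cen] using (h x).le
  | succ n ih =>
    have h1 : dist (f^[n + 1] x) (cen f nr ε x n) ≤ stp f x n + _ := dist_triangle _ (f^[n] x) _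
    have h2 := h (f^[n + 1] x)
    rw [sum_range_succ, sum_range_succ, cen, cod]
    split_ifs with h3 <;> simp only [ind, Option.elim] at * <;> linarith

omit h in
theorem cen_eq {x y : X} {n : ℕ} (h0 : nr x = nr y) (h1 : ∀ j < n, cod f nr ε x j = cod f nr ε y j) :
    ∀ j ≤ n, cen f nr ε x j = cen f nr ε y j := by
  intro j
  induction j with
  | zero => exact fun _ => h0
  | succ j ih =>
    intro hj
    have e : ∀ z, cen f nr ε z (j + 1) = (cod f nr ε z j).getD (cen f nr ε z j) := fun z => by
      rw [cen, cod]; split_ifs <;> rfl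
    rw [e, e, h1 j hj, ih (by omega)]

theorem cover [Nonempty X] (hε : 0 < ε) (S : Finset X) (hS : ∀ x, nr x ∈ S) (n : ℕ) {B a : ℝ}
    (ha : 0 ≤ a) (hB : ∀ x, ∑ j ∈ range n, stp f x j ≤ B) : ∃ s : Finset X,
    Dynamics.IsDynCoverOf f Set.univ {p | dist p.1 p.2 < 4 * ε} n s ∧
      (s.card : ℝ) ≤ S.card * Real.exp (a * (1 + B / ε) + S.card * Real.exp (-a) * n) := by
  classical
  let code := fun x => (nr x, fun j : Fin n => cod f nr ε x j)
  let T := (Fintype.piFinset fun _ : Fin n => insertNone S).filter fun b =>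
    Real.exp (-(a * (1 + B / ε))) ≤ ∏ j, Real.exp (-a * ind (b j))
  refine ⟨(S ×ˢ T).image (Function.invFun code), fun x _ => ⟨Function.invFun code (code x), ?_, ?_⟩,
    ?_⟩
  · refine mem_coe.2 (mem_image_of_mem _ (mem_product.2 ⟨hS x, mem_filter.2 ⟨?_, ?_⟩⟩))
    · refine Fintype.mem_piFinset.2 fun j => mem_insertNone.2 fun y hy => ?_
      simp only [code, cod] at hy
      split_ifs at hy
      · simp at hy
      · exact (Option.some.inj hy) ▸ hS _
    · rw [← Real.exp_sum, Real.exp_le_exp, ← mul_sum, neg_mul, neg_le_neg_iff,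
        Fin.sum_univ_eq_sum_range fun j => ind (cod f nr ε x j)]
      refine mul_le_mul_of_nonneg_left ?_ ha
      have h1 := pot f h x n
      have h2 := hB x
      rw [add_div' _ _ _ hε.ne', le_div_iff₀ hε]
      linarith [dist_nonneg (x := f^[n] x) (y := cen f nr ε x n)]
  · have e : code (Function.invFun code (code x)) = code x := Function.invFun_eq ⟨x, rfl⟩
    refine Dynamics.mem_dynEntourage.2 fun k hk => ?_
    have h1 := cen_eq f (congrArg Prod.fst e) (fun j hj => congrFun (congrArg Prod.snd e) ⟨j, hj⟩)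
      k hk.le
    have h2 := cen_lt f h x k
    have h3 := cen_lt f h (Function.invFun code (code x)) k
    have h4 := dist_triangle_right (f^[k] x) (f^[k] (Function.invFun code (code x))) (cen f nr ε x k)
    rw [h1] at h3
    change dist _ _ < _
    linarith
  · have h1 : ((image (Function.invFun code) (S ×ˢ T)).card : ℝ) ≤ S.card * T.card := by
      exact_mod_cast card_image_le.trans_eq (card_product S T)
    refine h1.trans (mul_le_mul_of_nonneg_left ?_ (by positivity))
    have h2 := card_nsmul_le_sum T _ _ fun b hb => (mem_filter.1 hb).2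
    have h3 := sum_le_sum_of_subset_of_nonneg (f := fun b : Fin n → Option X =>
      ∏ j, Real.exp (-a * ind (b j))) (filter_subset _ _ : T ⊆ _) fun _ _ _ => by positivity
    rw [← prod_univ_sum (fun _ => insertNone S) fun _ o => Real.exp (-a * ind o), prod_const,
      card_univ, Fintype.card_fin, sum_insertNone] at h3
    simp only [ind, Option.elim, mul_zero, Real.exp_zero, mul_one, sum_const, nsmul_eq_mul] at h3 h2
    have h4 : (1 + S.card * Real.exp (-a)) ^ n ≤ Real.exp (S.card * Real.exp (-a) * n) := by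
      rw [mul_comm _ (n : ℝ), Real.exp_nat_mul]
      exact pow_le_pow_left₀ (by positivity) (by linarith [Real.add_one_le_exp (S.card * Real.exp (-a))]) n
    rw [Real.exp_add, ← inv_mul_le_iff₀ (Real.exp_pos _), ← Real.exp_neg, mul_comm]
    exact h2.trans (h3.trans h4)
end EE

theorem eStmt : EStmt := by
  intro X _ _ _ f hf h
  refine le_antisymm (iSup₂_le fun U hU => ?_) (Dynamics.coverEntropy_nonneg f Set.univ_nonempty)
  obtain ⟨η, hη, hU⟩ := Metric.mem_uniformity_dist.1 hU
  have hε : 0 < η / 8 := by positivity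
  generalize he : η / 8 = ε at hε
  obtain ⟨S, -, hS, hc⟩ := finite_cover_balls_of_compact (isCompact_univ (X := X)) hε
  choose nr h1 h2 using fun x => Set.mem_iUnion₂.1 (hc (Set.mem_univ x))
  lift S to Finset X using hS
  refine EReal.le_of_forall_lt_iff_le.1 fun δ hδ => ?_
  have hδ : 0 < δ := by exact_mod_cast hδ
  obtain ⟨a, a1, a2⟩ := ((eventually_gt_atTop 0).and (((Real.tendsto_exp_neg_atTop_nhds_zero.const_mul
    (S.card : ℝ)).eventually (gt_mem_nhds (show S.card * 0 < δ / 3 by simpa using hδ))))).exists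
  obtain ⟨A, hA⟩ := EE.avg f hf h (κ := δ * ε / (3 * a)) (by positivity)
  obtain ⟨n, hn⟩ := exists_nat_gt (max 0 ((S.card + a * (1 + A / ε)) / (δ / 3)))
  have n0 : (0 : ℝ) < n := (le_max_left _ _).trans_lt hn
  have n1 := (div_lt_iff₀ (by positivity)).1 ((le_max_right _ _).trans_lt hn)
  obtain ⟨s, s1, s2⟩ := EE.cover f h2 hε S h1 n a1.le (hA n)
  have s3 : (s.card : ℝ) ≤ Real.exp (δ * n) := by
    refine s2.trans ((mul_le_mul_of_nonneg_right ((lt_add_one _).le.trans (Real.add_one_le_exp _))
      (by positivity)).trans ?_)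
    rw [← Real.exp_add, Real.exp_le_exp]
    have e : a * (1 + (δ * ε / (3 * a) * n + A) / ε) = a * (1 + A / ε) + δ / 3 * n := by
      field_simp; ring
    nlinarith
  have : SetRel.IsSymm ({p | dist p.1 p.2 < 4 * ε} : SetRel X X) :=
    ⟨fun x y hxy => by rw [Set.mem_setOf_eq, dist_comm]; exact hxy⟩
  refine (Dynamics.coverEntropyEntourage_antitone f _ ?_).trans
    ((s1.coverEntropyEntourage_le_log_card_div (Set.mapsTo_univ _ _) (by exact_mod_cast n0.ne')).trans ?_)
  · rintro ⟨x, z⟩ ⟨y, h3, h4⟩
    refine hU ((dist_triangle x y z).trans_lt ?_)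
    simp only [Set.mem_setOf_eq] at h3 h4
    linarith
  · rw [EReal.div_le_iff_le_mul (by exact_mod_cast n0) (EReal.natCast_ne_top n)]
    have : (s.card : ENNReal) ≤ ENNReal.ofReal (Real.exp (δ * n)) := by
      rw [← ENNReal.ofReal_natCast]; exact ENNReal.ofReal_le_ofReal s3
    refine (ENNReal.log_le_log this).trans ?_
    rw [ENNReal.log_ofReal_of_pos (Real.exp_pos _), Real.log_exp, mul_comm, EReal.coe_mul]
    rfl

end Vale.Agent.P103
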