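import Vale.Agent.P103.Spec

/-! Concrete singular chains. -/

namespace Vale.Agent.P103

namespace HH

open CategoryTheory AlgebraicTopology Limits

/-- the standard simplex -/
abbrev Dl (n : ℕ) : Type := stdSimplex ℝ (Fin (n + 1))

/-- the coefficients -/
abbrev RR : ModuleCat.{0} ℝ := ModuleCat.of ℝ ℝ

/-- the singular chain complex -/
noncomputable abbrev KK (X : Type) [TopologicalSpace X] : ChainComplex (ModuleCat.{0} ℝ) ℕ :=
  (TopCat.toSSet.obj (TopCat.of X)).chainComplex RR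

/-- maps of simplices -/
noncomputable def sm {m n : ℕ} (f : Fin (m + 1) → Fin (n + 1)) : C(Dl m, Dl n) :=
  ⟨stdSimplex.map f, stdSimplex.continuous_map f⟩

theorem sm_comp {l m n : ℕ} (f : Fin (l + 1) → Fin (m + 1)) (g : Fin (m + 1) → Fin (n + 1)) :
    (sm g).comp (sm f) = sm (g ∘ f) :=
  ContinuousMap.ext fun x => stdSimplex.map_comp_apply f g x

variable {X Y : Type} [TopologicalSpace X] [TopologicalSpace Y] {n : ℕ}

/-- the chain of a singular simplex -/
noncomputable def ch (σ : C(Dl n, X)) : RR ⟶ (KK X).X n :=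
  (TopCat.toSSet.obj (TopCat.of X)).ιChainComplex
    ((TopCat.toSSetObjEquiv (TopCat.of X) (Opposite.op (SimplexCategory.mk n))).symm σ)

theorem ch_d (σ : C(Dl (n + 1), X)) : ch σ ≫ (KK X).d (n + 1) n =
    ∑ i : Fin (n + 2), (-1 : ℤ) ^ i.val • ch (σ.comp (sm i.succAbove)) :=
  SSet.ιChainComplex_d _ _ _

/-- the induced chain map -/
noncomputable abbrev cm (Q : C(X, Y)) : KK X ⟶ KK Y :=
  SSet.chainComplexMap (TopCat.toSSet.map (TopCat.ofHom Q)) RR

theorem ch_map (Q : C(X, Y)) (σ : C(Dl n, X)) : ch σ ≫ (cm Q).f n = ch (Q.comp σ) :=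
  SSet.ι_chainComplexMap_f _ _ _ _ _

theorem ch_ext {T : ModuleCat.{0} ℝ} {f g : (KK X).X n ⟶ T} (h : ∀ σ, ch σ ≫ f = ch σ ≫ g) :
    f = g :=
  SSet.chainComplex_hom_ext fun x => by
    have := h (TopCat.toSSetObjEquiv (TopCat.of X) (Opposite.op (SimplexCategory.mk n)) x)
    rwa [ch, Equiv.symm_apply_apply] at this

theorem exists_cochain (e : C(Dl n, X) → ℝ) :
    ∃ E : (KK X).X n ⟶ RR, ∀ σ, ch σ ≫ E = e σ • 𝟙 RR := by
  refine ⟨Cofan.IsColimit.desc
    ((TopCat.toSSet.obj (TopCat.of X)).isColimitChainComplexXCofan RR n) fun x =>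
      e (TopCat.toSSetObjEquiv (TopCat.of X) (Opposite.op (SimplexCategory.mk n)) x) • 𝟙 RR,
    fun σ => ?_⟩
  refine (Cofan.IsColimit.fac
    ((TopCat.toSSet.obj (TopCat.of X)).isColimitChainComplexXCofan RR n) _ _).trans ?_
  rw [Equiv.apply_symm_apply]

theorem cls (Q : C(X, X)) (Z : RR ⟶ (KK X).X 2) (W : RR ⟶ (KK X).X 3) (E : (KK X).X 2 ⟶ RR)
    (hZ : Z ≫ (KK X).d 2 1 = 0) (hQ : Z ≫ (cm Q).f 2 = Z + Z + W ≫ (KK X).d 3 2)
    (hE : (KK X).d 3 2 ≫ E = 0) (hZE : Z ≫ E ≠ 0) :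
    ∃ c : Hom 2 X, c ≠ 0 ∧ HomMap 2 Q c = (2 : ℝ) • c := by
  have n2 : (ComplexShape.down ℕ).next 2 = 1 := ChainComplex.next_nat_succ 1
  have p2 : (ComplexShape.down ℕ).prev 2 = 3 := ChainComplex.prev ℕ 2
  let c : RR ⟶ (KK X).homology 2 := (KK X).liftCycles Z 1 n2 hZ ≫ (KK X).homologyπ 2
  have h1 : c ≫ (KK X).homologyι 2 ≫ (KK X).descOpcycles E 3 p2 hE = Z ≫ E := by
    simp only [c, Category.assoc, HomologicalComplex.homology_π_ι_assoc,
      HomologicalComplex.liftCycles_i_assoc, HomologicalComplex.p_descOpcycles]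
  have h2 : c ≫ HomologicalComplex.homologyMap (cm Q) 2 = c + c := by
    have h3 := (KK X).liftCycles_homologyπ_eq_zero_of_boundary (W ≫ (KK X).d 3 2) 1 n2 W rfl
    have h4 : (KK X).liftCycles Z 1 n2 hZ ≫ HomologicalComplex.cyclesMap (cm Q) 2 =
        (KK X).liftCycles Z 1 n2 hZ + (KK X).liftCycles Z 1 n2 hZ +
        (KK X).liftCycles (W ≫ (KK X).d 3 2) 1 n2
          (by rw [Category.assoc, (KK X).d_comp_d, comp_zero]) := by
      rw [← cancel_mono ((KK X).iCycles 2)]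
      simp only [Category.assoc, HomologicalComplex.cyclesMap_i,
        HomologicalComplex.liftCycles_i_assoc, Preadditive.add_comp,
        HomologicalComplex.liftCycles_i, hQ]
    simp only [c, Category.assoc, HomologicalComplex.homologyπ_naturality]
    rw [← Category.assoc, h4, Preadditive.add_comp, Preadditive.add_comp, h3, add_zero]
  refine ⟨c.hom 1, fun h => hZE ?_, ?_⟩
  · have : c = 0 := ModuleCat.hom_ext (LinearMap.ext_ring h)
    rw [← h1, this, zero_comp]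
  · refine Eq.trans ?_ (two_smul ℝ _).symm
    exact congrArg (fun f : RR ⟶ (KK X).homology 2 => f.hom 1) h2

end HH

end Vale.Agent.P103
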