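import Vale.Agent.P103.HomA

/-! The Euler cocycle of the Hopf line bundle. -/

namespace Vale.Agent.P103

namespace HH

open CategoryTheory Complex
open scoped ComplexConjugate

/-- `v` lies on the line of `p` -/
def In (p : Sph) (v : ℂ × ℂ) : Prop :=
  (1 - p.1.1) * v.1 = conj p.1.2 * v.2 ∧ p.1.2 * v.1 = (1 + p.1.1) * v.2

/-- twice the projection onto the line of `p` -/
def Tp (p : Sph) (v : ℂ × ℂ) : ℂ × ℂ :=
  ((1 + p.1.1) * v.1 + conj p.1.2 * v.2, p.1.2 * v.1 + (1 - p.1.1) * v.2)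

theorem sph_eq (p : Sph) : (p.1.1 : ℂ) ^ 2 + p.1.2 * conj p.1.2 = 1 := by
  rw [mul_conj, normSq_eq_norm_sq]
  exact_mod_cast p.2

theorem in_tp (p : Sph) (v : ℂ × ℂ) : In p (Tp p v) := by
  have h := sph_eq p
  constructor
  · simp only [Tp]
    linear_combination (-v.1) * h
  · simp only [Tp]
    linear_combination v.2 * h

theorem tp_ne {p p' : Sph} {v : ℂ × ℂ} (h : In p v) (hv : v ≠ 0) (hd : dist p p' < 1) :
    Tp p' v ≠ 0 := by
  intro h0
  have e1 : (1 + p'.1.1) * v.1 + conj p'.1.2 * v.2 = 0 := congrArg Prod.fst h0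
  have e2 : p'.1.2 * v.1 + (1 - p'.1.1) * v.2 = 0 := congrArg Prod.snd h0
  have d1 : ‖((p.1.1 - p'.1.1 : ℝ) : ℂ)‖ ≤ dist p p' := by
    rw [norm_real, ← dist_eq_norm, Subtype.dist_eq, Prod.dist_eq]
    exact le_max_left _ _
  have d2 : ‖p.1.2 - p'.1.2‖ ≤ dist p p' := by
    rw [← dist_eq_norm, Subtype.dist_eq, Prod.dist_eq]
    exact le_max_right _ _
  have a1 : 2 * v.1 = ((p.1.1 - p'.1.1 : ℝ) : ℂ) * v.1 + conj (p.1.2 - p'.1.2) * v.2 := by
    rw [map_sub]
    push_cast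
    linear_combination e1 + h.1
  have a2 : 2 * v.2 = (p.1.2 - p'.1.2) * v.1 - ((p.1.1 - p'.1.1 : ℝ) : ℂ) * v.2 := by
    push_cast
    linear_combination e2 - h.2
  have n1 := norm_fst_le v
  have n2 := norm_snd_le v
  have hp := norm_pos_iff.2 hv
  have hd0 : 0 ≤ dist p p' := dist_nonneg
  have b1 : 2 * ‖v.1‖ ≤ dist p p' * ‖v‖ + dist p p' * ‖v‖ := by
    have := congrArg norm a1
    rw [norm_mul, Complex.norm_two] at this
    rw [this]
    refine norm_add_le_of_le (norm_mul_le_of_le d1 n1) (norm_mul_le_of_le ?_ n2)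
    rwa [norm_conj]
  have b2 : 2 * ‖v.2‖ ≤ dist p p' * ‖v‖ + dist p p' * ‖v‖ := by
    have := congrArg norm a2
    rw [norm_mul, Complex.norm_two] at this
    rw [this]
    exact norm_sub_le_of_le (norm_mul_le_of_le d2 n1) (norm_mul_le_of_le d1 n2)
  have b3 : dist p p' * ‖v‖ < 1 * ‖v‖ := mul_lt_mul_of_pos_right hd hp
  rcases max_choice ‖v.1‖ ‖v.2‖ with h' | h' <;> rw [← Prod.norm_def] at h' <;> linarith

theorem cont_tp {K : Type} [TopologicalSpace K] {s : K → Sph} {u : K → ℂ × ℂ} (hs : Continuous s)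
    (hu : Continuous u) : Continuous fun k => Tp (s k) (u k) := by
  have h1 : Continuous fun k => (s k).1 := continuous_subtype_val.comp hs
  unfold Tp
  fun_prop

variable {m n : ℕ}

/-- nowhere vanishing sections -/
def Sec (σ : C(Dl n, Sph)) (u : C(Dl n, ℂ × ℂ)) : Prop := ∀ k, u k ≠ 0 ∧ In (σ k) (u k)

theorem Sec.comp {σ : C(Dl n, Sph)} {u : C(Dl n, ℂ × ℂ)} (h : Sec σ u) (f : C(Dl m, Dl n)) :
    Sec (σ.comp f) (u.comp f) := fun k => h (f k)

/-- contraction of the simplex -/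
noncomputable def ray (t : unitInterval) (k : Dl n) : Dl n :=
  ⟨(1 - t.1) • (stdSimplex.vertex 0 : Dl n).1 + t.1 • k.1,
    convex_stdSimplex ℝ _ (stdSimplex.vertex 0).2 k.2 (sub_nonneg.2 t.2.2) t.2.1 (by ring)⟩

theorem cont_ray : Continuous fun x : unitInterval × Dl n => ray x.1 x.2 := by
  refine Continuous.subtype_mk ?_ _
  fun_prop

theorem exists_sec (σ : C(Dl n, Sph)) : ∃ u, Sec σ u := by
  have hc : UniformContinuous fun x : unitInterval × Dl n => σ (ray x.1 x.2) :=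
    CompactSpace.uniformContinuous_of_continuous (σ.continuous.comp cont_ray)
  obtain ⟨δ, hδ, h⟩ := Metric.uniformContinuous_iff.1 hc 1 one_pos
  have key : ∀ j : ℕ, ∀ t : unitInterval, t.1 ≤ j * (δ / 2) →
      ∃ u : C(Dl n, ℂ × ℂ), ∀ k, u k ≠ 0 ∧ In (σ (ray t k)) (u k) := by
    intro j
    induction j with
    | zero =>
      intro t ht
      have h0 : t.1 = 0 := le_antisymm (by simpa using ht) t.2.1
      have h1 : ∀ k : Dl n, ray t k = stdSimplex.vertex 0 := fun k =>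
        Subtype.ext (by simp [ray, h0])
      obtain ⟨v, hv⟩ : ∃ v, Tp (σ (stdSimplex.vertex 0)) v ≠ 0 := by
        by_contra hc
        push Not at hc
        have e1 := congrArg Prod.fst (hc (1, 0))
        have e2 := congrArg Prod.snd (hc (0, 1))
        simp only [Tp, Prod.fst_zero, Prod.snd_zero] at e1 e2
        have : (2 : ℂ) = 0 := by linear_combination e1 + e2
        norm_num at this
      exact ⟨ContinuousMap.const _ _, fun k => ⟨hv, h1 k ▸ in_tp _ v⟩⟩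
    | succ j ih =>
      intro t ht
      let t' : unitInterval := ⟨max 0 (t.1 - δ / 2), le_max_left _ _,
        max_le zero_le_one (by linarith [t.2.2])⟩
      obtain ⟨u, hu⟩ := ih t' (max_le (by positivity) (by push_cast at ht; linarith))
      refine ⟨⟨fun k => Tp (σ (ray t k)) (u k), cont_tp (σ.continuous.comp
        (cont_ray.comp (continuous_const.prodMk continuous_id))) u.continuous⟩,
        fun k => ⟨tp_ne (hu k).2 (hu k).1 (h (a := (t', k)) (b := (t, k)) ?_), in_tp _ _⟩⟩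
      rw [Prod.dist_eq, dist_self, Subtype.dist_eq, Real.dist_eq]
      refine max_lt (abs_lt.2 ⟨?_, ?_⟩) hδ
      · have := le_max_right 0 (t.1 - δ / 2)
        linarith
      · have := max_le t.2.1 (show t.1 - δ / 2 ≤ t.1 by linarith)
        linarith
  obtain ⟨j, hj⟩ := exists_nat_ge (1 / (δ / 2))
  obtain ⟨u, hu⟩ := key j 1 (by rwa [div_le_iff₀ (by positivity)] at hj)
  refine ⟨u, fun k => ?_⟩
  have : ray 1 k = k := Subtype.ext (by simp [ray])
  simpa only [this] using hu k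

theorem exists_log {σ : C(Dl n, Sph)} {u u' : C(Dl n, ℂ × ℂ)} (h : Sec σ u) (h' : Sec σ u') :
    ∃ L : C(Dl n, ℂ), ∀ k, u' k = exp (L k) • u k := by
  have hn : ∀ k, conj (u k).1 * (u k).1 + conj (u k).2 * (u k).2 ≠ 0 := by
    intro k h0
    rw [conj_mul', conj_mul'] at h0
    have h1 : ‖(u k).1‖ ^ 2 + ‖(u k).2‖ ^ 2 = 0 := by exact_mod_cast h0
    have h2 : ‖(u k).1‖ = 0 := by nlinarith [sq_nonneg ‖(u k).1‖, sq_nonneg ‖(u k).2‖]
    have h3 : ‖(u k).2‖ = 0 := by nlinarith [sq_nonneg ‖(u k).1‖, sq_nonneg ‖(u k).2‖]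
    exact (h k).1 (Prod.ext (norm_eq_zero.1 h2) (norm_eq_zero.1 h3))
  let r : C(Dl n, ℂ) := ⟨fun k => (conj (u k).1 * (u' k).1 + conj (u k).2 * (u' k).2) /
    (conj (u k).1 * (u k).1 + conj (u k).2 * (u k).2),
    Continuous.div (by fun_prop) (by fun_prop) hn⟩
  have hr : ∀ k, u' k = r k • u k := by
    intro k
    have a := (h k).2
    have b := (h' k).2
    have d : (u k).1 * (u' k).2 = (u k).2 * (u' k).1 := by
      have : 2 * ((u k).1 * (u' k).2 - (u k).2 * (u' k).1) = 0 := by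
        linear_combination (u' k).2 * a.1 - (u k).2 * b.1 + (u' k).1 * a.2 - (u k).1 * b.2
      linear_combination this / 2
    have c := hn k
    refine Prod.ext ?_ ?_
    · simp only [r, ContinuousMap.coe_mk, Prod.smul_fst, smul_eq_mul]
      field_simp
      linear_combination (-conj (u k).2) * d
    · simp only [r, ContinuousMap.coe_mk, Prod.smul_snd, smul_eq_mul]
      field_simp
      linear_combination conj (u k).1 * d
  have hr0 : ∀ k, r k ≠ 0 := fun k h0 => (h' k).1 (by rw [hr k, h0, zero_smul])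
  have := (convex_stdSimplex ℝ (Fin (n + 1))).contractibleSpace ⟨_, (stdSimplex.vertex 0).2⟩
  have := (convex_stdSimplex ℝ (Fin (n + 1))).locallyPathConnectedSpace
  obtain ⟨L, ⟨-, hL⟩, -⟩ := isCoveringMapOn_exp.existsUnique_continuousMap_lifts r
    (exp_log (hr0 (stdSimplex.vertex 0))) hr0
  exact ⟨L, fun k => by rw [hr k, ← congrFun hL k]; rfl⟩

/-- a chosen section -/
noncomputable def sc (σ : C(Dl n, Sph)) : C(Dl n, ℂ × ℂ) := (exists_sec σ).choose

theorem sc_sec (σ : C(Dl n, Sph)) : Sec σ (sc σ) := (exists_sec σ).choose_spec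

/-- increase along an edge -/
noncomputable def inc (L : C(Dl 1, ℂ)) : ℝ :=
  (L (stdSimplex.vertex 1) - L (stdSimplex.vertex 0)).im

open Classical in
/-- phase of the chosen section relative to `u` -/
noncomputable def ang (γ : C(Dl 1, Sph)) (u : C(Dl 1, ℂ × ℂ)) : ℝ :=
  if h : ∃ L : C(Dl 1, ℂ), ∀ k, sc γ k = exp (L k) • u k then inc h.choose else 0

theorem ang_eq {γ : C(Dl 1, Sph)} {u : C(Dl 1, ℂ × ℂ)} (hu : ∀ k, u k ≠ 0) {L : C(Dl 1, ℂ)}
    (h : ∀ k, sc γ k = exp (L k) • u k) : ang γ u = inc L := by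
  have h0 : ∃ L : C(Dl 1, ℂ), ∀ k, sc γ k = exp (L k) • u k := ⟨L, h⟩
  rw [ang, dif_pos h0]
  have h1 : ∀ k, exp (h0.choose k - L k) = 1 := fun k => by
    rw [exp_sub, smul_left_injective ℂ (hu k) ((h0.choose_spec k).symm.trans (h k)),
      div_self (exp_ne_zero _)]
  have := (convex_stdSimplex ℝ (Fin (1 + 1))).contractibleSpace ⟨_, (stdSimplex.vertex 0).2⟩
  have h2 := isCoveringMap_exp.const_of_comp (g := fun k => h0.choose k - L k) (by fun_prop)
    (fun a a' => Subtype.ext ((h1 a).trans (h1 a').symm)) (stdSimplex.vertex 1)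
    (stdSimplex.vertex 0)
  unfold inc
  congr 1
  linear_combination h2

theorem ang_change {γ : C(Dl 1, Sph)} {u u' : C(Dl 1, ℂ × ℂ)} (hu : Sec γ u) (hu' : Sec γ u')
    {L : C(Dl 1, ℂ)} (h : ∀ k, u' k = exp (L k) • u k) : ang γ u = inc L + ang γ u' := by
  obtain ⟨L', h'⟩ := exists_log hu' (sc_sec γ)
  rw [ang_eq (fun k => (hu' k).1) h', ang_eq (fun k => (hu k).1) (L := L + L') fun k => by
    rw [h', h, smul_smul, ← exp_add, ContinuousMap.add_apply, add_comm]]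
  simp only [inc, ContinuousMap.add_apply, sub_im, add_im]
  ring

/-- coboundary of the phase -/
noncomputable def eu (σ : C(Dl 2, Sph)) (u : C(Dl 2, ℂ × ℂ)) : ℝ :=
  ang (σ.comp (sm ![1, 2])) (u.comp (sm ![1, 2])) - ang (σ.comp (sm ![0, 2])) (u.comp (sm ![0, 2])) +
    ang (σ.comp (sm ![0, 1])) (u.comp (sm ![0, 1]))

theorem eu_eq {σ : C(Dl 2, Sph)} {u : C(Dl 2, ℂ × ℂ)} (hu : Sec σ u) : eu σ (sc σ) = eu σ u := by
  obtain ⟨L, h⟩ := exists_log hu (sc_sec σ)
  have key : ∀ f : Fin 2 → Fin 3, ang (σ.comp (sm f)) (u.comp (sm f)) =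
      (L (stdSimplex.vertex (f 1)) - L (stdSimplex.vertex (f 0))).im +
        ang (σ.comp (sm f)) ((sc σ).comp (sm f)) := fun f => by
    rw [ang_change (hu.comp _) ((sc_sec σ).comp _) (L := L.comp (sm f)) fun k => h _]
    simp only [inc, sm, ContinuousMap.comp_apply, ContinuousMap.coe_mk, stdSimplex.map_vertex]
  simp only [eu, key, Matrix.cons_val_zero, Matrix.cons_val_one, sub_im]
  ring

theorem eu_cocycle (τ : C(Dl 3, Sph)) :
    ∑ i : Fin 4, (-1 : ℤ) ^ i.val • eu (τ.comp (sm i.succAbove)) (sc (τ.comp (sm i.succAbove))) =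
      0 := by
  have h : ∀ f : Fin 3 → Fin 4, eu (τ.comp (sm f)) (sc (τ.comp (sm f))) =
      ang (τ.comp (sm ![f 1, f 2])) ((sc τ).comp (sm ![f 1, f 2])) -
      ang (τ.comp (sm ![f 0, f 2])) ((sc τ).comp (sm ![f 0, f 2])) +
      ang (τ.comp (sm ![f 0, f 1])) ((sc τ).comp (sm ![f 0, f 1])) := fun f => by
    have e : ∀ a b : Fin 3, f ∘ ![a, b] = ![f a, f b] := fun a b => by
      funext i
      fin_cases i <;> rfl
    rw [eu_eq ((sc_sec τ).comp _)]
    simp only [eu, ContinuousMap.comp_assoc, sm_comp, e]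
  obtain ⟨B, hB⟩ : ∃ B : Fin 4 → Fin 4 → ℝ, ∀ a b,
      ang (τ.comp (sm ![a, b])) ((sc τ).comp (sm ![a, b])) = B a b := ⟨_, fun _ _ => rfl⟩
  simp only [h, hB, Fin.sum_univ_four]
  change (1 : ℤ) • (B 2 3 - B 1 3 + B 1 2) + (-1 : ℤ) • (B 2 3 - B 0 3 + B 0 2) +
    (1 : ℤ) • (B 1 3 - B 0 3 + B 0 1) + (-1 : ℤ) • (B 1 2 - B 0 2 + B 0 1) = 0
  simp only [one_smul, neg_smul]
  ring

theorem exists_euler : ∃ E : (KK Sph).X 2 ⟶ RR, (KK Sph).d 3 2 ≫ E = 0 ∧
    ∀ σ u, Sec σ u → ch σ ≫ E = eu σ u • 𝟙 RR := by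
  obtain ⟨E, hE⟩ := exists_cochain fun σ : C(Dl 2, Sph) => eu σ (sc σ)
  refine ⟨E, ch_ext fun τ => ?_, fun σ u hu => by rw [hE, eu_eq hu]⟩
  rw [← Category.assoc, ch_d, Preadditive.sum_comp, Limits.comp_zero]
  simp only [Preadditive.zsmul_comp, hE, ← smul_assoc]
  rw [← Finset.sum_smul, eu_cocycle, zero_smul]

end HH

end Vale.Agent.P103
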