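import Vale.Agent.P103.HomB

/-! The fundamental cycle of the sphere and the doubling map. -/

namespace Vale.Agent.P103

namespace HH

open CategoryTheory Complex
open scoped ComplexConjugate Real

/-- the point of angle `2 π θ` on the circle -/
noncomputable def ce (θ : ℝ) : ℂ := exp (2 * π * I * θ)

theorem norm_ce (θ : ℝ) : ‖ce θ‖ = 1 := by
  rw [ce, show 2 * π * I * θ = ((2 * π * θ : ℝ) : ℂ) * I by push_cast; ring]
  exact norm_exp_ofReal_mul_I _

theorem ce_add_one (θ : ℝ) : ce (θ + 1) = ce θ := by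
  rw [ce, ce, show 2 * π * I * ((θ + 1 : ℝ) : ℂ) = 2 * π * I * θ + 2 * π * I by push_cast; ring,
    exp_add, exp_two_pi_mul_I, mul_one]

theorem ce_two (θ : ℝ) : ce (2 * θ) = ce θ ^ 2 := by
  rw [ce, ce, ← exp_nat_mul]
  congr 1
  push_cast
  ring

theorem conj_ce (θ : ℝ) : conj (ce θ) * ce θ = 1 := by
  rw [conj_mul', norm_ce]
  norm_num

@[fun_prop]
theorem cont_ce : Continuous ce := by
  unfold ce
  fun_prop

theorem gs_mem (x : ℝ × ℝ) :
    Real.cos (π * x.1) ^ 2 + ‖(Real.sin (π * x.1) : ℂ) * ce x.2‖ ^ 2 = 1 := by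
  rw [norm_mul, norm_ce, mul_one, norm_real, Real.norm_eq_abs, sq_abs]
  exact Real.cos_sq_add_sin_sq _

/-- polar coordinates -/
noncomputable def gs : C(ℝ × ℝ, Sph) :=
  ⟨fun x => ⟨(Real.cos (π * x.1), (Real.sin (π * x.1) : ℂ) * ce x.2), gs_mem x⟩,
    Continuous.subtype_mk (by fun_prop) gs_mem⟩

/-- the section in polar coordinates -/
noncomputable def us : C(ℝ × ℝ, ℂ × ℂ) :=
  ⟨fun x => ((Real.cos (π * x.1 / 2) : ℂ), (Real.sin (π * x.1 / 2) : ℂ) * ce x.2), by fun_prop⟩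

theorem us_sec (x : ℝ × ℝ) : us x ≠ 0 ∧ In (gs x) (us x) := by
  have h1 := Real.cos_sq_add_sin_sq (π * x.1 / 2)
  have h2 := Real.cos_two_mul (π * x.1 / 2)
  have h3 := Real.sin_two_mul (π * x.1 / 2)
  rw [show 2 * (π * x.1 / 2) = π * x.1 by ring] at h2 h3
  have h4 := conj_ce x.2
  simp only [us, gs, In, ContinuousMap.coe_mk, h2, h3, map_mul, conj_ofReal]
  generalize Real.cos (π * x.1 / 2) = c at *
  generalize Real.sin (π * x.1 / 2) = s at *
  have h5 : (c : ℂ) ^ 2 + (s : ℂ) ^ 2 = 1 := by exact_mod_cast h1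
  refine ⟨fun h => ?_, ?_, ?_⟩
  · have e1 : (c : ℂ) = 0 := congrArg Prod.fst h
    have e2 : (s : ℂ) * ce x.2 = 0 := congrArg Prod.snd h
    have : (1 : ℂ) = 0 := by
      linear_combination (-1) * h5 + c * e1 + s * conj (ce x.2) * e2 - s ^ 2 * h4
    exact one_ne_zero this
  · push_cast
    linear_combination (-2 * c) * h5 - 2 * s ^ 2 * c * h4
  · push_cast
    ring

variable {m n : ℕ}

/-- affine simplices in the plane -/
noncomputable def aff (v : Fin (n + 1) → ℝ × ℝ) : C(Dl n, ℝ × ℝ) :=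
  ⟨fun x => ∑ i, x.1 i • v i, continuous_finsetSum _ fun i _ =>
    ((continuous_apply i).comp continuous_subtype_val).smul continuous_const⟩

theorem aff_comp (v : Fin (n + 1) → ℝ × ℝ) (f : Fin (m + 1) → Fin (n + 1)) :
    (aff v).comp (sm f) = aff (v ∘ f) := by
  ext1 x
  change ∑ j, FunOnFinite.linearMap ℝ ℝ f x j • v j = ∑ i, x i • v (f i)
  simp only [FunOnFinite.linearMap_apply_apply, Finset.sum_smul]
  rw [← Finset.sum_fiberwise Finset.univ f]
  refine Finset.sum_congr rfl fun j _ => Finset.sum_congr rfl fun i hi => ?_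
  rw [(Finset.mem_filter.1 hi).2]

theorem aff_fst (v : Fin (n + 1) → ℝ × ℝ) (x : Dl n) : (aff v x).1 = ∑ i, x.1 i * (v i).1 :=
  Prod.fst_sum

theorem aff_snd (v : Fin (n + 1) → ℝ × ℝ) (x : Dl n) : (aff v x).2 = ∑ i, x.1 i * (v i).2 :=
  Prod.snd_sum

theorem aff_const {v : Fin (n + 1) → ℝ × ℝ} {t : ℝ} (h : ∀ i, (v i).1 = t) (x : Dl n) :
    (aff v x).1 = t := by
  simp only [aff_fst, h]
  rw [← Finset.sum_mul, x.2.2, one_mul]

theorem aff_shift {v w : Fin (n + 1) → ℝ × ℝ} (h : ∀ i, w i = ((v i).1, (v i).2 + 1)) (x : Dl n) :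
    aff w x = ((aff v x).1, (aff v x).2 + 1) := by
  refine Prod.ext ?_ ?_
  · simp only [aff_fst, h]
  · simp only [aff_snd, h, mul_add, Finset.sum_add_distrib, mul_one, x.2.2]

/-- singular simplices in polar coordinates -/
noncomputable def sx (v : Fin (n + 1) → ℝ × ℝ) : C(Dl n, Sph) := gs.comp (aff v)

/-- their sections -/
noncomputable def su (v : Fin (n + 1) → ℝ × ℝ) : C(Dl n, ℂ × ℂ) := us.comp (aff v)

theorem su_sec (v : Fin (n + 1) → ℝ × ℝ) : Sec (sx v) (su v) := fun _ => us_sec _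

theorem sx_pole {v w : Fin (n + 1) → ℝ × ℝ} (t : ℕ) (hv : ∀ i, (v i).1 = t)
    (hw : ∀ i, (w i).1 = t) : sx v = sx w := by
  ext1 x
  refine Subtype.ext ?_
  simp only [sx, gs, ContinuousMap.comp_apply, ContinuousMap.coe_mk, aff_const hv, aff_const hw,
    mul_comm π, Real.sin_nat_mul_pi, ofReal_zero, zero_mul]

theorem sx_shift {v w : Fin (n + 1) → ℝ × ℝ} (h : ∀ i, w i = ((v i).1, (v i).2 + 1)) :
    sx w = sx v ∧ su w = su v := by
  constructor
  · ext1 x
    refine Subtype.ext ?_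
    simp only [sx, gs, ContinuousMap.comp_apply, ContinuousMap.coe_mk, aff_shift h, ce_add_one]
  · ext1 x
    simp only [su, us, ContinuousMap.comp_apply, ContinuousMap.coe_mk, aff_shift h, ce_add_one]

theorem su_north {v w : Fin (n + 1) → ℝ × ℝ} (hv : ∀ i, (v i).1 = 0)
    (hw : ∀ i, (w i).1 = 0) : su v = su w := by
  ext1 x
  simp only [su, us, ContinuousMap.comp_apply, ContinuousMap.coe_mk, aff_const hv, aff_const hw,
    mul_zero, zero_div, Real.sin_zero, ofReal_zero, zero_mul]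

theorem norm_dbl (z : ℂ) : ‖z ^ 2 / (‖z‖ : ℂ)‖ = ‖z‖ := by
  rw [norm_div, norm_pow, norm_real, norm_norm]
  rcases eq_or_ne ‖z‖ 0 with h | h
  · simp [h]
  · field_simp

theorem cont_dbl : Continuous fun z : ℂ => z ^ 2 / (‖z‖ : ℂ) := by
  rw [continuous_iff_continuousAt]
  intro z
  rcases eq_or_ne z 0 with rfl | h
  · rw [ContinuousAt, zero_pow two_ne_zero, zero_div, tendsto_zero_iff_norm_tendsto_zero]
    simp only [norm_dbl]
    exact tendsto_norm_zero
  · exact ContinuousAt.div (by fun_prop) (by fun_prop) (by simpa using h)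

theorem qm_mem (p : Sph) : p.1.1 ^ 2 + ‖p.1.2 ^ 2 / (‖p.1.2‖ : ℂ)‖ ^ 2 = 1 := by
  rw [norm_dbl]
  exact p.2

/-- the suspension of the doubling map -/
noncomputable def Qm : C(Sph, Sph) :=
  ⟨fun p => ⟨(p.1.1, p.1.2 ^ 2 / (‖p.1.2‖ : ℂ)), qm_mem p⟩,
    Continuous.subtype_mk ((continuous_fst.comp continuous_subtype_val).prodMk
      (cont_dbl.comp (continuous_snd.comp continuous_subtype_val))) qm_mem⟩

theorem sx_dbl {v w : Fin (n + 1) → ℝ × ℝ} (hv : ∀ i, 0 ≤ (v i).1 ∧ (v i).1 ≤ 1)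
    (h : ∀ i, w i = ((v i).1, 2 * (v i).2)) : Qm.comp (sx v) = sx w := by
  ext1 x
  have e : aff w x = ((aff v x).1, 2 * (aff v x).2) := by
    refine Prod.ext ?_ ?_
    · simp only [aff_fst, h]
    · simp only [aff_snd, h, Finset.mul_sum, mul_left_comm]
  have h0 : 0 ≤ (aff v x).1 := by
    rw [aff_fst]
    exact Finset.sum_nonneg fun i _ => mul_nonneg (x.2.1 i) (hv i).1
  have h1 : (aff v x).1 ≤ 1 := by
    rw [aff_fst, ← x.2.2]
    exact Finset.sum_le_sum fun i _ => mul_le_of_le_one_right (x.2.1 i) (hv i).2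
  have h2 : 0 ≤ Real.sin (π * (aff v x).1) :=
    Real.sin_nonneg_of_nonneg_of_le_pi (by positivity) (mul_le_of_le_one_right Real.pi_pos.le h1)
  refine Subtype.ext ?_
  simp only [sx, gs, Qm, ContinuousMap.comp_apply, ContinuousMap.coe_mk, e, ce_two, norm_mul,
    norm_ce, mul_one, norm_real, Real.norm_of_nonneg h2]
  congr 1
  generalize (Real.sin (π * (aff v x).1) : ℂ) = s
  rcases eq_or_ne s 0 with h | h
  · simp [h]
  · field_simp

theorem sx_face (v : Fin (n + 1) → ℝ × ℝ) (f : Fin (m + 1) → Fin (n + 1)) :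
    (sx v).comp (sm f) = sx (v ∘ f) := by
  rw [sx, ContinuousMap.comp_assoc, aff_comp, sx]

theorem su_face (v : Fin (n + 1) → ℝ × ℝ) (f : Fin (m + 1) → Fin (n + 1)) :
    (su v).comp (sm f) = su (v ∘ f) := by
  rw [su, ContinuousMap.comp_assoc, aff_comp, su]

theorem d2 (a b c : ℝ × ℝ) : ch (sx ![a, b, c]) ≫ (KK Sph).d 2 1 =
    ch (sx ![b, c]) - ch (sx ![a, c]) + ch (sx ![a, b]) := by
  have e0 : ![a, b, c] ∘ (0 : Fin 3).succAbove = ![b, c] := by
    funext i; fin_cases i <;> rfl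
  have e1 : ![a, b, c] ∘ (1 : Fin 3).succAbove = ![a, c] := by
    funext i; fin_cases i <;> rfl
  have e2 : ![a, b, c] ∘ (2 : Fin 3).succAbove = ![a, b] := by
    funext i; fin_cases i <;> rfl
  rw [ch_d, Fin.sum_univ_three, sx_face, sx_face, sx_face, e0, e1, e2]
  change (1 : ℤ) • _ + (-1 : ℤ) • _ + (1 : ℤ) • _ = _
  abel

theorem d3 (a b c d : ℝ × ℝ) : ch (sx ![a, b, c, d]) ≫ (KK Sph).d 3 2 =
    ch (sx ![b, c, d]) - ch (sx ![a, c, d]) + ch (sx ![a, b, d]) - ch (sx ![a, b, c]) := by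
  have e0 : ![a, b, c, d] ∘ (0 : Fin 4).succAbove = ![b, c, d] := by
    funext i; fin_cases i <;> rfl
  have e1 : ![a, b, c, d] ∘ (1 : Fin 4).succAbove = ![a, c, d] := by
    funext i; fin_cases i <;> rfl
  have e2 : ![a, b, c, d] ∘ (2 : Fin 4).succAbove = ![a, b, d] := by
    funext i; fin_cases i <;> rfl
  have e3 : ![a, b, c, d] ∘ (3 : Fin 4).succAbove = ![a, b, c] := by
    funext i; fin_cases i <;> rfl
  rw [ch_d, Fin.sum_univ_four, sx_face, sx_face, sx_face, sx_face, e0, e1, e2, e3]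
  change (1 : ℤ) • _ + (-1 : ℤ) • _ + (1 : ℤ) • _ + (-1 : ℤ) • _ = _
  abel

theorem eu3 (a b c : ℝ × ℝ) : eu (sx ![a, b, c]) (su ![a, b, c]) =
    ang (sx ![b, c]) (su ![b, c]) - ang (sx ![a, c]) (su ![a, c]) +
      ang (sx ![a, b]) (su ![a, b]) := by
  have e0 : ![a, b, c] ∘ ![1, 2] = ![b, c] := by
    funext i; fin_cases i <;> rfl
  have e1 : ![a, b, c] ∘ ![0, 2] = ![a, c] := by
    funext i; fin_cases i <;> rfl
  have e2 : ![a, b, c] ∘ ![0, 1] = ![a, b] := by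
    funext i; fin_cases i <;> rfl
  simp only [eu, sx_face, su_face, e0, e1, e2]

theorem wind : ang (sx ![(1, 0), (1, 0)]) (su ![(1, 0), (1, 0)]) =
    2 * π + ang (sx ![(1, 0), (1, 1)]) (su ![(1, 0), (1, 1)]) := by
  have e : sx ![(1, 0), (1, 1)] = sx ![(1, 0), (1, 0)] :=
    sx_pole 1 (by simp [Fin.forall_fin_succ]) (by simp [Fin.forall_fin_succ])
  have h := su_sec ![(1, 0), (1, 1)]
  rw [e] at h ⊢
  rw [ang_change (su_sec _) h (L := ⟨fun x => 2 * π * I * (x.1 1 : ℝ), continuous_const.mul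
    (continuous_ofReal.comp ((continuous_apply 1).comp continuous_subtype_val))⟩) fun x => ?_]
  · simp [inc]
  · have a1 := aff_const (v := ![(1, 0), (1, 1)]) (t := 1) (by simp [Fin.forall_fin_succ]) x
    have a2 := aff_const (v := ![(1, 0), (1, 0)]) (t := 1) (by simp [Fin.forall_fin_succ]) x
    simp only [su, us, ContinuousMap.comp_apply, ContinuousMap.coe_mk, a1, a2, aff_snd]
    simp [ce]

end HH

open HH CategoryTheory in
theorem hStmt : HStmt := by
  obtain ⟨E, hE, hE'⟩ := exists_euler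
  have s1 : sx ![(1, 0), (1, 1)] = sx ![(1, 0), (1, 0)] :=
    sx_pole 1 (by simp [Fin.forall_fin_succ]) (by simp [Fin.forall_fin_succ])
  have n1 : sx ![(0, 0), (0, 1)] = sx ![(0, 0), (0, 0)] :=
    sx_pole 0 (by simp [Fin.forall_fin_succ]) (by simp [Fin.forall_fin_succ])
  have n1' : su ![(0, 0), (0, 1)] = su ![(0, 0), (0, 0)] :=
    su_north (by simp [Fin.forall_fin_succ]) (by simp [Fin.forall_fin_succ])
  have t1 := sx_shift (v := ![(0, 0), (1, 0)]) (w := ![(0, 1), (1, 1)])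
    (by simp [Fin.forall_fin_succ])
  refine ⟨Qm, fun _ => rfl, cls Qm
    (ch (sx ![(0, 0), (1, 0), (1, 1)]) - ch (sx ![(0, 0), (0, 1), (1, 1)]) -
      ch (sx ![(1, 0), (1, 0), (1, 0)]) + ch (sx ![(0, 0), (0, 0), (0, 0)]))
    (ch (sx ![(0, 0), (1, 0), (1, 1), (1, 2)]) - ch (sx ![(0, 0), (0, 1), (1, 1), (1, 2)]) +
      ch (sx ![(0, 0), (0, 1), (0, 2), (1, 2)])) E ?_ ?_ hE ?_⟩
  · simp only [Preadditive.add_comp, Preadditive.sub_comp, d2, s1, n1, t1.1]
    abel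
  · have q1 := sx_dbl (v := ![(0, 0), (1, 0), (1, 1)]) (w := ![(0, 0), (1, 0), (1, 2)])
      (by simp [Fin.forall_fin_succ]) (by simp [Fin.forall_fin_succ])
    have q2 := sx_dbl (v := ![(0, 0), (0, 1), (1, 1)]) (w := ![(0, 0), (0, 2), (1, 2)])
      (by simp [Fin.forall_fin_succ]) (by simp [Fin.forall_fin_succ])
    have q3 := sx_dbl (v := ![(1, 0), (1, 0), (1, 0)]) (w := ![(1, 0), (1, 0), (1, 0)])
      (by simp [Fin.forall_fin_succ]) (by simp [Fin.forall_fin_succ])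
    have q4 := sx_dbl (v := ![(0, 0), (0, 0), (0, 0)]) (w := ![(0, 0), (0, 0), (0, 0)])
      (by simp [Fin.forall_fin_succ]) (by simp [Fin.forall_fin_succ])
    have s2 : sx ![(1, 0), (1, 1), (1, 2)] = sx ![(1, 0), (1, 0), (1, 0)] :=
      sx_pole 1 (by simp [Fin.forall_fin_succ]) (by simp [Fin.forall_fin_succ])
    have n2 : sx ![(0, 0), (0, 1), (0, 2)] = sx ![(0, 0), (0, 0), (0, 0)] :=
      sx_pole 0 (by simp [Fin.forall_fin_succ]) (by simp [Fin.forall_fin_succ])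
    have t2 := sx_shift (v := ![(0, 0), (1, 0), (1, 1)]) (w := ![(0, 1), (1, 1), (1, 2)])
      (by simp [Fin.forall_fin_succ, one_add_one_eq_two])
    have t3 := sx_shift (v := ![(0, 0), (0, 1), (1, 1)]) (w := ![(0, 1), (0, 2), (1, 2)])
      (by simp [Fin.forall_fin_succ, one_add_one_eq_two])
    simp only [Preadditive.add_comp, Preadditive.sub_comp, d3, ch_map, q1, q2, q3, q4, s2, n2,
      t2.1, t3.1]
    abel
  · simp only [Preadditive.add_comp, Preadditive.sub_comp, hE' _ _ (su_sec _), eu3, wind, n1, n1',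
      t1.1, t1.2, ← sub_smul, ← add_smul]
    intro h
    have h1 := congrArg (fun f : RR ⟶ RR => f.hom 1) h
    simp only [ModuleCat.hom_smul, ModuleCat.hom_id, LinearMap.smul_apply, LinearMap.id_coe, id_eq,
      smul_eq_mul, mul_one, ModuleCat.hom_zero, LinearMap.zero_apply] at h1
    linarith [Real.pi_pos]

end Vale.Agent.P103
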