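import Vale.Agent.P103.D7
import Vale.Agent.P103.Asm
import Vale.Agent.P103.Ent
import Vale.Agent.P103.HomC

namespace Vale.Agent.P103

open Filter Topology Dynamics

theorem final : Final := aStmt hStmt eStmt dStmt

noncomputable def pt0 : Mfd :=
  (⟨EuclideanSpace.single 0 1, by simp⟩, ⟨EuclideanSpace.single 0 1, by simp⟩,
    ⟨EuclideanSpace.single 0 1, by simp⟩)

theorem sep_bound {X : Type} [MetricSpace X] {f : X → X} (h : coverEntropy f Set.univ = 0)
    {ε κ : ℝ} (hε : 0 < ε) (hκ : 0 < κ) : ∀ᶠ n : ℕ in atTop, ∀ s : Finset X,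
      (∀ x ∈ s, ∀ y ∈ s, x ≠ y → ∃ j < n, ε < dist (f^[j] x) (f^[j] y)) →
      (s.card : ℝ) ≤ Real.exp (κ * n) := by
  have h1 := netEntropyEntourage_le_coverEntropy f Set.univ (Metric.dist_mem_uniformity (half_pos hε))
  rw [h] at h1
  have h2 := ExpGrowth.eventually_le_exp (a := (κ : EReal))
    (h1.trans_lt (by exact_mod_cast hκ))
  filter_upwards [h2] with n hn s hs
  have h3 : IsDynNetIn f Set.univ {p : X × X | dist p.1 p.2 < ε / 2} n s := by
    refine ⟨Set.subset_univ _, fun x hx y hy hxy => Set.disjoint_left.2 fun z h1 h2 => ?_⟩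
    obtain ⟨j, hj, hd⟩ := hs x hx y hy hxy
    have a1 : dist (f^[j] x) (f^[j] z) < ε / 2 := mem_dynEntourage.1 h1 j hj
    have a2 : dist (f^[j] y) (f^[j] z) < ε / 2 := mem_dynEntourage.1 h2 j hj
    linarith [dist_triangle_right (f^[j] x) (f^[j] y) (f^[j] z)]
  have h4 : ((s.card : ℕ∞) : ENNReal) ≤ _ := (ENat.toENNReal_mono h3.card_le_netMaxcard).trans hn
  rw [← EReal.coe_natCast, ← EReal.coe_mul, EReal.exp_coe, ENat.toENNReal_coe,
    ← ENNReal.ofReal_natCast] at h4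
  exact (ENNReal.ofReal_le_ofReal_iff (Real.exp_pos _).le).1 h4

end Vale.Agent.P103
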