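import Mathlib

/-! Interfaces of the modules for P103. -/

namespace Vale.Agent.P103

open CategoryTheory AlgebraicTopology Filter Topology
open scoped Manifold

/-- singular homology with real coefficients -/
noncomputable abbrev Hom (k : ℕ) (X : Type) [TopologicalSpace X] : ModuleCat.{0} ℝ :=
  ((singularHomologyFunctor (ModuleCat.{0} ℝ) k).obj (ModuleCat.of ℝ ℝ)).obj (TopCat.of X)

/-- induced map in singular homology -/
noncomputable abbrev HomMap (k : ℕ) {X Y : Type} [TopologicalSpace X] [TopologicalSpace Y]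
    (f : C(X, Y)) : Hom k X →ₗ[ℝ] Hom k Y :=
  (((singularHomologyFunctor (ModuleCat.{0} ℝ) k).obj (ModuleCat.of ℝ ℝ)).map (TopCat.ofHom f)).hom

/-- the unit sphere of `ℝ × ℂ` -/
abbrev Sph : Type := {p : ℝ × ℂ // p.1 ^ 2 + ‖p.2‖ ^ 2 = 1}

/-- module H: the suspension of the doubling map doubles a nonzero class -/
def HStmt : Prop := ∃ Q : C(Sph, Sph), (∀ p : Sph, (Q p).1 = (p.1.1, p.1.2 ^ 2 / (‖p.1.2‖ : ℂ))) ∧
  ∃ c : Hom 2 Sph, c ≠ 0 ∧ HomMap 2 Q c = (2 : ℝ) • c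

/-- module E: zero entropy when all orbits slow down -/
def EStmt : Prop := ∀ (X : Type) [MetricSpace X] [CompactSpace X] [Nonempty X] (f : X → X),
  Continuous f → (∀ x, Tendsto (fun n => dist (f^[n + 1] x) (f^[n] x)) atTop (𝓝 0)) →
  Dynamics.coverEntropy f Set.univ = 0

/-- ambient space of the dynamics: level, memory, phase, two slots -/
abbrev St : Type := ℝ × ℂ × (ℝ × ℝ) × ℂ × ℂ

/-- admissible states -/
def Sh (x : St) : Prop :=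
  1 / 4 ≤ (x.1 - 5) ^ 2 + ‖x.2.1‖ ^ 2 ∧ x.2.2.1.1 ^ 2 + x.2.2.1.2 ^ 2 = 1

/-- module D: the dynamics in the ambient space -/
def DStmt : Prop := ∃ (F : St → St) (R : ℝ),
  (∀ x : St, x.2.2.1 ≠ 0 → ContDiffAt ℝ 1 F x) ∧
  (∀ x, Sh x → 9 / 16 ≤ ((F x).1 - 5) ^ 2 + ‖(F x).2.1‖ ^ 2 ∧
    (F x).2.2.1.1 ^ 2 + (F x).2.2.1.2 ^ 2 = 1 ∧ ‖F x‖ ≤ R) ∧
  (∀ x, Sh x → ∃ y, Tendsto (fun n => F^[n] x) atTop (𝓝 y)) ∧
  (∀ p : Sph, ∃ ν c : ℝ, 0 < c ∧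
    F (5 + p.1.1, p.1.2, (1, 0), 0, 0) = (ν, (c : ℂ) * p.1.2 ^ 2, (1, 0), 0, 0) ∧
    (p.1.2 = 0 → 0 < (ν - 5) * p.1.1))

/-- the manifold `S² × S¹ × S⁵` -/
abbrev Mfd : Type := Metric.sphere (0 : EuclideanSpace ℝ (Fin 3)) 1 ×
  Metric.sphere (0 : EuclideanSpace ℝ (Fin 2)) 1 × Metric.sphere (0 : EuclideanSpace ℝ (Fin 6)) 1

/-- the final statement -/
def Final : Prop := ∃ f : C(Mfd, Mfd),
  ContMDiff ((𝓡 2).prod ((𝓡 1).prod (𝓡 5))) ((𝓡 2).prod ((𝓡 1).prod (𝓡 5))) 1 f ∧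
  Dynamics.coverEntropy f Set.univ = 0 ∧
  Module.End.HasEigenvalue (HomMap 2 f : Module.End ℝ (Hom 2 Mfd)) 2

/-- module A: assembly -/
def AStmt : Prop := HStmt → EStmt → DStmt → Final

end Vale.Agent.P103
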